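import Vale.Agent.P085.Single
import Mathlib.Analysis.VonNeumannAlgebra.Basic
import Mathlib.Analysis.InnerProductSpace.WeakOperatorTopology
import Mathlib.Analysis.CStarAlgebra.ContinuousLinearMap

/-! Concrete finite factors. -/

namespace Vale.Agent.P085

open scoped Topology InnerProductSpace
open Filter

variable {H : Type*} [NormedAddCommGroup H] [InnerProductSpace ℂ H] [CompleteSpace H]

/-- Weak operator convergence. -/
def WT {ι : Type*} (l : Filter ι) (x : ι → H →L[ℂ] H) (y : H →L[ℂ] H) : Prop :=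
  ∀ ξ η, Tendsto (fun i => ⟪η, x i ξ⟫_ℂ) l (𝓝 ⟪η, y ξ⟫_ℂ)

section WT

variable {ι : Type*} {l : Filter ι} {x : ι → H →L[ℂ] H} {y : H →L[ℂ] H}

lemma WT.mul_left (h : WT l x y) (a : H →L[ℂ] H) : WT l (fun i => a * x i) (a * y) := fun ξ η => by
  have := h ξ (ContinuousLinearMap.adjoint a η)
  simp only [ContinuousLinearMap.adjoint_inner_left] at this
  exact this

omit [CompleteSpace H] in
lemma WT.smul (h : WT l x y) (c : ℂ) : WT l (fun i => c • x i) (c • y) := fun ξ η => by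
  simpa only [smul_apply, inner_smul_right] using (h ξ η).const_mul c

lemma WT.mem [l.NeBot] (h : WT l x y) {M : VonNeumannAlgebra H} (hx : ∀ i, x i ∈ M) : y ∈ M := by
  rw [← M.commutant_commutant, VonNeumannAlgebra.mem_commutant_iff]
  intro g hg
  refine ContinuousLinearMap.ext fun ξ => ext_inner_left ℂ fun η => ?_
  refine tendsto_nhds_unique (h.mul_left g ξ η) ((h (g ξ) η).congr fun i => ?_)
  exact congr(⟪η, $(VonNeumannAlgebra.mem_commutant_iff.mp hg _ (hx i)) ξ⟫_ℂ)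

omit [CompleteSpace H] in
lemma norm_inner_le {a : H →L[ℂ] H} {R : ℝ} (ha : ‖a‖ ≤ R) (ξ η : H) :
    ‖⟪η, a ξ⟫_ℂ‖ ≤ R * ‖η‖ * ‖ξ‖ := by
  refine (norm_inner_le_norm _ _).trans ?_
  rw [mul_comm R, mul_assoc]
  gcongr
  exact a.le_of_opNorm_le ha ξ

lemma exists_WT (U : Ultrafilter ι) {R : ℝ} (hx : ∀ i, ‖x i‖ ≤ R) : ∃ y, WT U x y := by
  have : ∀ ξ η, ∃ c, Tendsto (fun i => ⟪x i ξ, η⟫_ℂ) U (𝓝 c) ∧ ‖c‖ ≤ R * ‖ξ‖ * ‖η‖ := fun ξ η => by
    obtain ⟨c, hc, hc'⟩ := (isCompact_closedBall (0 : ℂ) (R * ‖ξ‖ * ‖η‖)).ultrafilter_le_nhds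
      (U.map fun i => ⟪x i ξ, η⟫_ℂ) (by
        simp only [Ultrafilter.coe_map, le_principal_iff, mem_map]
        refine univ_mem' fun i => ?_
        simpa [norm_inner_symm (x i ξ), mul_right_comm] using norm_inner_le (hx i) ξ η)
    exact ⟨c, hc', by simpa using hc⟩
  choose B hB hB' using this
  let B' : H →ₗ⋆[ℂ] H →ₗ[ℂ] ℂ := LinearMap.mk₂'ₛₗ _ _ B
    (fun a b c => tendsto_nhds_unique (hB _ _) (by
      simpa [inner_add_left] using (hB a c).add (hB b c)))
    (fun a b c => tendsto_nhds_unique (hB _ _) (by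
      simpa [inner_smul_left] using (hB b c).const_mul (starRingEnd ℂ a)))
    (fun a b c => tendsto_nhds_unique (hB _ _) (by
      simpa [inner_add_right] using (hB a b).add (hB a c)))
    (fun a b c => tendsto_nhds_unique (hB _ _) (by
      simpa [inner_smul_right] using (hB b c).const_mul a))
  refine ⟨InnerProductSpace.continuousLinearMapOfBilin (B'.mkContinuous₂ R hB'), fun ξ η => ?_⟩
  rw [← inner_conj_symm, InnerProductSpace.continuousLinearMapOfBilin_apply]
  exact ((Complex.continuous_conj.tendsto _).comp (hB ξ η)).congr fun i => inner_conj_symm _ _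

omit [CompleteSpace H] in
lemma WT.norm_le [l.NeBot] (h : WT l x y) {R : ℝ} (hx : ∀ i, ‖x i‖ ≤ R) : ‖y‖ ≤ R := by
  obtain ⟨i⟩ := l.nonempty_of_neBot
  have hR := (norm_nonneg _).trans (hx i)
  refine y.opNorm_le_bound hR fun ξ => ?_
  have := le_of_tendsto' (h ξ (y ξ)).norm fun i => norm_inner_le (hx i) ξ (y ξ)
  rw [inner_self_eq_norm_sq_to_K, norm_pow, RCLike.norm_ofReal, abs_norm] at this
  by_contra! h0
  have : 0 < ‖y ξ‖ := lt_of_le_of_lt (by positivity) h0
  nlinarith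

end WT

theorem vn_closed (M : VonNeumannAlgebra H) :
    IsClosed (M.toStarSubalgebra : Set (H →L[ℂ] H)) := by
  rw [M.coe_toStarSubalgebra, ← M.centralizer_centralizer]
  exact Set.isClosed_centralizer _

attribute [local instance] vn_closed

variable {M : VonNeumannAlgebra H} {T : Tr M.toStarSubalgebra}

/-- Normality of the trace, for sequences along filters. -/
def Nrm (T : Tr M.toStarSubalgebra) : Prop :=
  ∀ (l : Filter ℕ) (x : ℕ → M.toStarSubalgebra) (y : M.toStarSubalgebra) (R : ℝ), l.NeBot →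
    (∀ i, ‖x i‖ ≤ R) → WT l (fun i => (x i).1) y.1 → Tendsto (fun i => T.τ (x i)) l (𝓝 (T.τ y))

lemma nrm_of (h : @ContinuousOn _ _ (TopologicalSpace.induced
    (fun x : M.toStarSubalgebra => ContinuousLinearMapWOT.ofCLM x.1) inferInstance) _ T.τ
      {x | ‖x‖ ≤ 1}) : Nrm T := by
  intro l x y R _ hx hy
  have hR := hy.norm_le hx
  have h0 : 0 < R + 1 := by linarith [norm_nonneg y.1]
  have h1 : ∀ z : M.toStarSubalgebra, ‖z‖ ≤ R → ‖((R + 1 : ℝ) : ℂ)⁻¹ • z‖ ≤ 1 := fun z hz => by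
    rw [norm_smul, norm_inv, Complex.norm_real, Real.norm_of_nonneg h0.le, inv_mul_le_iff₀ h0]
    linarith
  have h2 := Tendsto.comp (h _ (h1 y hR)) (f := fun i => ((R + 1 : ℝ) : ℂ)⁻¹ • x i) (x := l) (by
    rw [@nhdsWithin.eq_1 _ (_), tendsto_inf, nhds_induced, tendsto_comap_iff, tendsto_principal]
    exact ⟨ContinuousLinearMapWOT.tendsto_iff_forall_inner_apply_tendsto.mpr (hy.smul _),
      .of_forall fun i => h1 _ (hx i)⟩)
  have h3 : ((R + 1 : ℝ) : ℂ) ≠ 0 := by exact_mod_cast h0.ne'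
  simpa only [Function.comp_def, map_smul, smul_eq_mul, mul_inv_cancel_left₀ h3] using
    h2.const_mul ((R + 1 : ℝ) : ℂ)

lemma Nrm.exists_lim (h : Nrm T) (U : Ultrafilter ℕ) {x : ℕ → M.toStarSubalgebra} {R : ℝ}
    (hx : ∀ i, ‖x i‖ ≤ R) : ∃ y : M.toStarSubalgebra, WT U (fun i => (x i).1) y.1 ∧
      ∀ a, Tendsto (fun i => T.τ (a * x i)) U (𝓝 (T.τ (a * y))) := by
  obtain ⟨y, hy⟩ := exists_WT (x := fun i => (x i).1) U hx
  exact ⟨⟨y, hy.mem fun i => (x i).2⟩, hy, fun a => h _ _ _ (‖a‖ * R) inferInstance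
    (fun i => norm_mul_le_of_le le_rfl (hx i)) (hy.mul_left a)⟩

lemma Nrm.closed (h : Nrm T) (hf : ∀ a, T.n2 a = 0 → a = 0) (N : VonNeumannAlgebra H) :
    T.Closed (N.toStarSubalgebra.comap M.toStarSubalgebra.subtype) := by
  intro x R y hx hy
  obtain ⟨z, hz, hz'⟩ := h.exists_lim (hyperfilter ℕ) fun i => (hx i).2
  have h1 : ∀ a, T.τ (a * z) = T.τ (a * y) := fun a => tendsto_nhds_unique (hz' a)
    ((T.tendsto_τ hy a).mono_left (Nat.hyperfilter_le_atTop))
  have h2 : z = y := sub_eq_zero.mp (hf _ (sq_eq_zero_iff.mp (by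
    rw [T.n2_sq, mul_sub, map_sub, h1, sub_self, Complex.zero_re])))
  exact h2 ▸ hz.mem fun i => (hx i).1

lemma Nrm.complete (h : Nrm T) : T.Complete := by
  intro x R hx hc
  obtain ⟨y, -, hy⟩ := h.exists_lim (hyperfilter ℕ) hx
  refine ⟨y, Metric.tendsto_atTop.mpr fun ε hε => ?_⟩
  obtain ⟨N, hN⟩ := Metric.cauchySeq_iff.mp hc _ (half_pos hε)
  refine ⟨N, fun m hm => ?_⟩
  have h1 := le_of_tendsto ((hy (star (x m - y))).const_sub (T.τ (star (x m - y) * x m))).norm
    (b := T.n2 (x m - y) * (ε / 2)) (Nat.hyperfilter_le_atTop (by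
      filter_upwards [eventually_ge_atTop N] with n hn
      have := hN m hm n hn
      rw [dist_eq_norm, ← map_sub] at this
      rw [← map_sub, ← mul_sub]
      exact (T.norm_τ_star_mul _ _).trans (mul_le_mul_of_nonneg_left this.le (T.n2_nonneg _))))
  rw [← map_sub, ← mul_sub, T.n2_sq', Complex.norm_real, Real.norm_of_nonneg (sq_nonneg _)] at h1
  rw [Real.dist_0_eq_abs, abs_of_nonneg (T.n2_nonneg _)]
  nlinarith [T.n2_nonneg (x m - y)]

lemma Nrm.dense [TopologicalSpace.SeparableSpace H] (h : Nrm T) :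
    ∃ c : ℕ → M.toStarSubalgebra, DenseRange fun n => T.to2 (c n) := by
  have : SecondCountableTopology H := UniformSpace.secondCountable_of_separable H
  obtain ⟨ξ, hξ⟩ := TopologicalSpace.exists_dense_seq H
  let f : M.toStarSubalgebra → ℝ × (ℕ → H) := fun x => (‖x‖, fun n => x.1 (ξ n))
  have : Nonempty (Set.range f) := ⟨⟨_, 0, rfl⟩⟩
  obtain ⟨u, hu⟩ := TopologicalSpace.exists_dense_seq (Set.range f)
  choose c hc using fun n => (u n).2
  refine ⟨c, fun y => ?_⟩
  obtain ⟨y, rfl⟩ := T.to2.surjective y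
  obtain ⟨v, hv, hv'⟩ := mem_closure_iff_seq_limit.mp (hu ⟨_, y, rfl⟩)
  choose φ hφ using hv
  rw [tendsto_subtype_rng] at hv'
  simp only [← hφ, ← hc] at hv'
  obtain ⟨R, hR⟩ := ((continuous_fst.tendsto _).comp hv').bddAbove_range
  have h1 : ∀ n, ‖c (φ n) - y‖ ≤ R + ‖y‖ := fun n =>
    (norm_sub_le _ _).trans (add_le_add_left (hR ⟨n, rfl⟩) _)
  have h2 : ∀ η, Tendsto (fun n => (c (φ n) - y).1 η) atTop (𝓝 0) := fun η => by
    refine Metric.tendsto_atTop.mpr fun ε hε => ?_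
    have h0 : 0 ≤ R + ‖y‖ := (norm_nonneg _).trans (h1 0)
    obtain ⟨k, hk⟩ := hξ.exists_dist_lt η (by positivity : 0 < ε / 2 / (R + ‖y‖ + 1))
    obtain ⟨N, hN⟩ := Metric.tendsto_atTop.mp
      ((((continuous_apply k).comp continuous_snd).tendsto _).comp hv') _ (half_pos hε)
    refine ⟨N, fun n hn => ?_⟩
    have e1 : ‖(c (φ n) - y).1 (ξ k)‖ < ε / 2 := by simpa [f, dist_eq_norm] using hN n hn
    have e2 := (c (φ n) - y).1.le_of_opNorm_le (h1 n) (η - ξ k)
    rw [dist_eq_norm, lt_div_iff₀ (by positivity)] at hk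
    rw [dist_zero_right, ← sub_add_cancel η (ξ k), map_add]
    nlinarith [norm_add_le ((c (φ n) - y).1 (η - ξ k)) ((c (φ n) - y).1 (ξ k)),
      norm_nonneg (η - ξ k)]
  have h3 := h atTop (fun n => star (c (φ n) - y) * (c (φ n) - y)) 0 _ inferInstance
    (fun n => norm_mul_le_of_le ((norm_star _).trans_le (h1 n)) (h1 n)) fun ζ η => by
      have := (h2 η).inner (𝕜 := ℂ) (h2 ζ)
      simp only [inner_zero_left, ← ContinuousLinearMap.adjoint_inner_right] at this
      simpa [ContinuousLinearMap.star_eq_adjoint] using this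
  refine mem_closure_of_tendsto (f := fun n => T.to2 (c (φ n))) (b := atTop) ?_
    (.of_forall fun n => ⟨_, rfl⟩)
  rw [tendsto_iff_norm_sub_tendsto_zero]
  have h4 := ((Complex.continuous_re.tendsto _).comp h3).sqrt
  simp only [Function.comp_def, ← T.n2_sq, Real.sqrt_sq (T.n2_nonneg _), map_zero,
    Complex.zero_re, Real.sqrt_zero] at h4
  simp only [← map_sub]
  exact h4

lemma starProjection_mem {K : Submodule ℂ H} [K.HasOrthogonalProjection] (S : VonNeumannAlgebra H)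
    (h : ∀ y ∈ S.commutant, ∀ ξ ∈ K, y ξ ∈ K) : K.starProjection ∈ S := by
  rw [VonNeumannAlgebra.IsStarProjection.mem_iff isStarProjection_starProjection,
    Submodule.range_starProjection]
  exact h

lemma vn_prime (hM : ∀ z ∈ M, (∀ x ∈ M, z * x = x * z) → ∃ c : ℂ, z = c • 1)
    (a b : M.toStarSubalgebra) (h : ∀ x, a * x * b = 0) : a = 0 ∨ b = 0 := by
  let K : Submodule ℂ H := ⨅ x : M.toStarSubalgebra, (a * x).1.ker
  have hK : ∀ ξ, ξ ∈ K ↔ ∀ x ∈ M, a.1 (x ξ) = 0 := fun ξ => by simp [K]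
  have : CompleteSpace K := IsClosed.completeSpace_coe (hs := by
    rw [Submodule.coe_iInf]
    exact isClosed_iInter fun x => (a * x).1.isClosed_ker)
  have h1 := starProjection_mem (K := K) M fun y hy ξ hξ => (hK _).mpr fun x hx => by
    have := VonNeumannAlgebra.mem_commutant_iff.mp hy _ (mul_mem a.2 hx)
    have := congr($this ξ)
    simpa [(hK ξ).mp hξ x hx] using this
  have h2 := starProjection_mem (K := K) M.commutant fun y hy ξ hξ => (hK _).mpr fun x hx =>
    (hK ξ).mp hξ (x * y) (mul_mem hx (by simpa using hy))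
  obtain ⟨c, hc⟩ := hM _ h1 fun x hx => (VonNeumannAlgebra.mem_commutant_iff.mp h2 x hx).symm
  rcases eq_or_ne c 0 with rfl | h0
  · refine .inr (Subtype.ext (ContinuousLinearMap.ext fun ξ => ?_))
    have := Submodule.starProjection_eq_self_iff.mpr ((hK (b.1 ξ)).mpr fun x hx =>
      congr($(h ⟨x, hx⟩).1 ξ))
    simpa [hc] using this.symm
  · refine .inl (Subtype.ext (ContinuousLinearMap.ext fun ξ => ?_))
    simpa [hc, h0] using (hK _).mp (K.starProjection_apply_mem ξ) 1 (one_mem _)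

lemma vn_rp (a : M.toStarSubalgebra) (ha : star a = a) :
    ∃ e, IsStarProjection e ∧ ∀ y, y * a = 0 ↔ y * e = 0 := by
  have : CompleteSpace a.1.ker := IsClosed.completeSpace_coe (hs := a.1.isClosed_ker)
  have h1 := starProjection_mem (K := a.1.ker) M fun y hy ξ hξ => by
    have := congr($(VonNeumannAlgebra.mem_commutant_iff.mp hy _ a.2) ξ)
    simpa [show a.1 ξ = 0 from hξ] using this
  set f : M.toStarSubalgebra := ⟨_, h1⟩
  have hf : IsStarProjection f := ⟨Subtype.ext isStarProjection_starProjection.1,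
    Subtype.ext isStarProjection_starProjection.2⟩
  have h2 : ∀ y, a * y = 0 ↔ f * y = y := fun y => by
    simp only [Subtype.ext_iff, ContinuousLinearMap.ext_iff]
    exact forall_congr' fun ξ => (Submodule.starProjection_eq_self_iff (K := a.1.ker)).symm
  refine ⟨1 - f, hf.one_sub, fun y => ?_⟩
  rw [← star_eq_zero, star_mul, ha, h2, ← star_inj, star_mul, star_star, hf.isSelfAdjoint.star_eq,
    mul_sub, mul_one, sub_eq_zero, eq_comm]

theorem vn_single [TopologicalSpace.SeparableSpace H]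
    (hM : ∀ z ∈ M, (∀ x ∈ M, z * x = x * z) → ∃ c : ℂ, z = c • 1)
    (hi : ¬ FiniteDimensional ℂ M.toStarSubalgebra) (hf : ∀ a, T.τ (star a * a) = 0 → a = 0)
    (hn : Nrm T) : ∃ x ∈ M, ∀ N : VonNeumannAlgebra H, x ∈ N → M ≤ N := by
  have hf' : ∀ a, T.n2 a = 0 → a = 0 := fun a ha => hf a (by rw [T.n2_sq', ha]; simp)
  obtain ⟨x, hx⟩ := II1.exists_single ⟨hf', hn.complete, vn_prime hM, fun W hW => by
    by_contra! h
    rw [← Submodule.eq_top_iff'] at h
    exact hi (Module.Finite.of_fg_top (h ▸ (Submodule.fg_iff_finiteDimensional W).mpr hW)),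
    vn_rp⟩ hn.dense
  exact ⟨x, x.2, fun N hN y hy => (hx _ (hn.closed hf' N) hN).ge (x := ⟨y, hy⟩) trivial⟩

open scoped ComplexOrder in
theorem vn_single' [TopologicalSpace.SeparableSpace H]
    (hM : ∀ z ∈ M, (∀ x ∈ M, z * x = x * z) → ∃ c : ℂ, z = c • 1)
    (hi : ¬ FiniteDimensional ℂ M.toStarSubalgebra) (τ : M.toStarSubalgebra →ₗ[ℂ] ℂ)
    (h1 : τ 1 = 1) (h2 : ∀ x, 0 ≤ τ (star x * x)) (h3 : ∀ x y, τ (x * y) = τ (y * x))
    (h4 : ∀ x, τ (star x * x) = 0 → x = 0) (h5 : @ContinuousOn _ _ (TopologicalSpace.induced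
      (fun x : M.toStarSubalgebra => ContinuousLinearMapWOT.ofCLM x.1) inferInstance) _ τ
      {x | ‖x.1‖ ≤ 1}) : ∃ x ∈ M, ∀ N : VonNeumannAlgebra H, x ∈ N → M ≤ N :=
  vn_single (T := ⟨τ, h3, h2, h1⟩) hM hi h4 (nrm_of h5)

end Vale.Agent.P085
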