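import Vale.Agent.P085.Gen
import Mathlib.Analysis.CStarAlgebra.ContinuousFunctionalCalculus.Commute
import Mathlib.Analysis.CStarAlgebra.Unitary.Span
import Mathlib.Analysis.SpecialFunctions.ContinuousFunctionalCalculus.PosPart.Basic

/-! Abstract finite factors: centre, Dixmier averaging and halving. -/

namespace Vale.Agent.P085

open scoped Topology ComplexStarModule
open Filter

variable {A : Type*} [CStarAlgebra A] {T : Tr A}

/-- The properties of a type II₁ factor that are used. -/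
structure II1 (T : Tr A) : Prop where
  faithful : ∀ a, T.n2 a = 0 → a = 0
  complete : T.Complete
  prime : ∀ a b : A, (∀ x, a * x * b = 0) → a = 0 ∨ b = 0
  infd : ∀ W : Submodule ℂ A, FiniteDimensional ℂ W → ∃ a, a ∉ W
  rp : ∀ a : A, star a = a → ∃ e, IsStarProjection e ∧ ∀ y, y * a = 0 ↔ y * e = 0

lemma II1.eq_zero_of_nonneg [PartialOrder A] [StarOrderedRing A] (h : II1 T) {a : A} (ha : 0 ≤ a)
    (h0 : (T.τ a).re = 0) : a = 0 := by
  obtain ⟨b, rfl⟩ := CStarAlgebra.nonneg_iff_eq_star_mul_self.mp ha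
  rw [← T.n2_sq, sq_eq_zero_iff] at h0
  simp [h.faithful b h0]

lemma II1.posneg (h : II1 T) {y : A} (hy : star y = y) (h0 : T.τ y = 0) (hy0 : y ≠ 0) :
    y⁺ ≠ 0 ∧ y⁻ ≠ 0 := by
  let _ := CStarAlgebra.spectralOrder A
  have _ := CStarAlgebra.spectralOrderedRing A
  have e := CFC.posPart_sub_negPart y hy
  have e' := congrArg (fun z => (T.τ z).re) e
  simp only [map_sub, h0, Complex.sub_re, Complex.zero_re] at e'
  constructor
  · intro h1
    have h2 := h.eq_zero_of_nonneg (CFC.negPart_nonneg y) (by simpa [h1] using e')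
    exact hy0 (by rw [← e, h1, h2, sub_zero])
  · intro h1
    have h2 := h.eq_zero_of_nonneg (CFC.posPart_nonneg y) (by simpa [h1] using e')
    exact hy0 (by rw [← e, h1, h2, sub_zero])

lemma II1.center (h : II1 T) {z : A} (hz : ∀ x, z * x = x * z) : z = T.τ z • 1 := by
  have key : ∀ z : A, star z = z → (∀ x, z * x = x * z) → z = T.τ z • 1 := by
    intro z hs hz
    by_contra h0
    have hr : star (T.τ z) = T.τ z := by rw [Complex.star_def, ← T.map_star, hs]
    have hy : star (z - T.τ z • 1) = z - T.τ z • 1 := by simp [hs, hr]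
    obtain ⟨h1, h2⟩ := h.posneg hy (by simp [T.one]) (sub_ne_zero.mpr h0)
    refine (h.prime _ _ fun x => ?_).elim h1 h2
    have : Commute (z - T.τ z • 1) x := by simp [Commute, SemiconjBy, sub_mul, mul_sub, hz]
    rw [CFC.posPart_def, (this.cfcₙ_real _).eq, ← CFC.posPart_def, mul_assoc,
      CFC.posPart_mul_negPart, mul_zero]
  have hz' : ∀ x, star z * x = x * star z := fun x => by
    simpa using congrArg star (hz (star x)).symm
  have h1 := key (ℜ z) (ℜ z).2 fun x => by
    simp [realPart_apply_coe, add_mul, mul_add, hz, hz']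
  have h2 := key (ℑ z) (ℑ z).2 fun x => by
    simp [imaginaryPart_apply_coe, sub_mul, mul_sub, hz, hz']
  have h3 := realPart_add_I_smul_imaginaryPart z
  conv_rhs => rw [← h3, map_add, map_smul, add_smul, smul_assoc, ← h1, ← h2, h3]

lemma Tr.tendsto_τ (T : Tr A) {x : ℕ → A} {y : A}
    (h : Tendsto (fun n => T.n2 (x n - y)) atTop (𝓝 0)) (z : A) :
    Tendsto (fun n => T.τ (z * x n)) atTop (𝓝 (T.τ (z * y))) := by
  refine tendsto_iff_norm_sub_tendsto_zero.mpr (squeeze_zero (fun _ => norm_nonneg _) (fun n => ?_)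
    (by simpa using h.const_mul (T.n2 z)))
  rw [← map_sub, ← mul_sub]
  exact T.norm_τ_mul _ _

lemma Tr.parallelogram (T : Tr A) (a b : A) : T.n2 (a - b) ^ 2 =
    2 * T.n2 a ^ 2 + 2 * T.n2 b ^ 2 - 4 * T.n2 ((2⁻¹ : ℂ) • (a + b)) ^ 2 := by
  rw [T.n2_smul, mul_pow, T.n2_add_sq, T.n2_sub_sq]
  norm_num
  ring

lemma Tr.cauchySeq (T : Tr A) {x : ℕ → A} {b : ℕ → ℝ} (hb : Tendsto b atTop (𝓝 0))
    (h : ∀ n m N, N ≤ n → N ≤ m → T.n2 (x n - x m) ^ 2 ≤ b N) : CauchySeq fun n => T.to2 (x n) := by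
  refine cauchySeq_of_le_tendsto_0 (fun N => √(b N)) (fun n m N hn hm => ?_) (by simpa using hb.sqrt)
  rw [dist_eq_norm, ← map_sub]
  exact Real.le_sqrt_of_sq_le (h n m N hn hm)

lemma II1.dixmier (h : II1 T) (y z : A) {ε : ℝ} (hε : 0 < ε) :
    ∃ w ∈ unitary A, (T.τ (z * (star w * y * w))).re < (T.τ z * T.τ y).re + ε := by
  by_contra! H
  set K := {x : A | ‖x‖ ≤ ‖y‖ ∧ T.τ x = T.τ y ∧
    ∀ w ∈ unitary A, (T.τ z * T.τ y).re + ε ≤ (T.τ (z * (star w * x * w))).re}
  have hK1 : ∀ a ∈ K, ∀ b ∈ K, (2⁻¹ : ℂ) • (a + b) ∈ K := by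
    rintro a ⟨a1, a2, a3⟩ b ⟨b1, b2, b3⟩
    refine ⟨?_, ?_, fun w hw => ?_⟩
    · rw [norm_smul, norm_inv, Complex.norm_ofNat]
      linarith [norm_add_le a b]
    · rw [map_smul, map_add, a2, b2, smul_eq_mul]; ring
    · have := a3 w hw
      have := b3 w hw
      simp only [mul_smul_comm, smul_mul_assoc, mul_add, add_mul, map_smul, map_add, smul_eq_mul]
      norm_num [Complex.mul_re] at *
      linarith
  have hK2 : ∀ u ∈ unitary A, ∀ a ∈ K, star u * a * u ∈ K := by
    rintro u hu a ⟨a1, a2, a3⟩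
    refine ⟨?_, ?_, fun w hw => ?_⟩
    · rwa [CStarRing.norm_mul_mem_unitary _ hu,
        CStarRing.norm_mem_unitary_mul _ (Unitary.star_mem hu)]
    · rwa [T.comm, ← mul_assoc, hu.2, one_mul]
    · simpa [mul_assoc] using a3 (u * w) (mul_mem hu hw)
  set S := (fun x => T.n2 x ^ 2) '' K
  have hS : S.Nonempty := ⟨_, y, ⟨le_rfl, rfl, H⟩, rfl⟩
  have hb : BddBelow S := ⟨0, by rintro _ ⟨x, -, rfl⟩; positivity⟩
  have : ∀ n : ℕ, ∃ x ∈ K, T.n2 x ^ 2 < sInf S + 1 / (n + 1) := fun n => by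
    obtain ⟨_, ⟨x, hx, rfl⟩, hx'⟩ := exists_lt_of_csInf_lt hS
      (lt_add_of_pos_right _ (Nat.one_div_pos_of_nat (n := n)))
    exact ⟨x, hx, hx'⟩
  choose x hx hx' using this
  have key : ∀ a ∈ K, ∀ b ∈ K, ∀ r : ℝ, T.n2 a ^ 2 ≤ sInf S + r → T.n2 b ^ 2 ≤ sInf S + r →
      T.n2 (a - b) ^ 2 ≤ 4 * r := fun a ha b hb' r h1 h2 => by
    have : sInf S ≤ T.n2 ((2⁻¹ : ℂ) • (a + b)) ^ 2 := csInf_le hb ⟨_, hK1 a ha b hb', rfl⟩
    linarith [T.parallelogram a b]
  have h0 : Tendsto (fun n : ℕ => 4 * (1 / (n + 1) : ℝ)) atTop (𝓝 0) := by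
    simpa using tendsto_one_div_add_atTop_nhds_zero_nat.const_mul (4 : ℝ)
  obtain ⟨x₀, hx₀⟩ := h.complete x ‖y‖ (fun n => (hx n).1) (T.cauchySeq h0 fun n m N hn hm =>
    key _ (hx n) _ (hx m) _ ((hx' n).le.trans (by gcongr)) ((hx' m).le.trans (by gcongr)))
  have hu : ∀ u ∈ unitary A, x₀ * u = u * x₀ := fun u hu => by
    have e1 : Tendsto (fun n => T.n2 (x n * u - u * x n)) atTop (𝓝 0) := by
      refine squeeze_zero (fun _ => T.n2_nonneg _) (fun n => ?_) (Real.sqrt_zero ▸ h0.sqrt)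
      refine Real.le_sqrt_of_sq_le ?_
      rw [← T.n2_unitary_mul (Unitary.star_mem hu), mul_sub, ← mul_assoc, ← mul_assoc, hu.1,
        one_mul]
      exact key _ (hK2 u hu _ (hx n)) _ (hx n) _ (by
        rw [T.n2_mul_unitary hu, T.n2_unitary_mul (Unitary.star_mem hu)]
        exact (hx' n).le) (hx' n).le
    refine sub_eq_zero.mp (h.faithful _ (le_antisymm (ge_of_tendsto' (by
      simpa using (e1.add hx₀).add hx₀) fun n => ?_) (T.n2_nonneg _)))
    have e2 := T.n2_add_le (x n * u - u * x n - (x n - x₀) * u) (u * (x n - x₀))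
    have e3 := T.n2_sub_le (x n * u - u * x n) ((x n - x₀) * u)
    rw [T.n2_mul_unitary hu] at e3
    rw [T.n2_unitary_mul hu, show x n * u - u * x n - (x n - x₀) * u + u * (x n - x₀) =
      x₀ * u - u * x₀ by noncomm_ring] at e2
    linarith
  have hc := h.center (z := x₀) fun a => by
    obtain ⟨u, c, rfl, -⟩ := CStarAlgebra.exists_sum_four_unitary a
    simp [Finset.mul_sum, Finset.sum_mul, hu]
  have e1 : T.τ x₀ = T.τ y := by
    have := T.tendsto_τ hx₀ 1
    simp only [one_mul, (hx _).2.1] at this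
    exact (tendsto_nhds_unique tendsto_const_nhds this).symm
  have e2 := ge_of_tendsto' ((Complex.continuous_re.tendsto _).comp (T.tendsto_τ hx₀ z))
    fun n => by simpa using (hx n).2.2 1 (one_mem _)
  rw [hc, e1, mul_smul_comm, mul_one, map_smul, smul_eq_mul, mul_comm (T.τ y), Complex.mul_re] at e2
  linarith

lemma cfc_aux1 {a : A} (ha : IsSelfAdjoint a) {ε : ℝ} (hε0 : 0 < ε) :
    cfc (fun t : ℝ => (√(max t ε))⁻¹) a * a * cfc (fun t : ℝ => (√(max t ε))⁻¹) a *
      cfc (fun t : ℝ => max (t - ε) 0) a = cfc (fun t : ℝ => max (t - ε) 0) a := by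
  have c1 : Continuous fun t : ℝ => (√(max t ε))⁻¹ :=
    Continuous.inv₀ (by fun_prop) fun t => (Real.sqrt_pos.mpr (lt_max_of_lt_right hε0)).ne'
  have c3 : Continuous fun t : ℝ => max (t - ε) 0 := by fun_prop
  conv_lhs => enter [1, 1, 2]; rw [← cfc_id' ℝ a]
  rw [← cfc_mul _ _ a c1.continuousOn continuous_id'.continuousOn,
    ← cfc_mul _ _ a (c1.fun_mul continuous_id').continuousOn c1.continuousOn,
    ← cfc_mul _ _ a ((c1.fun_mul continuous_id').fun_mul c1).continuousOn c3.continuousOn]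
  refine cfc_congr fun t _ => ?_
  rcases le_total t ε with h | h
  · simp [h]
  · have := Real.mul_self_sqrt (hε0.le.trans h)
    have := Real.sqrt_pos.mpr (hε0.trans_le h)
    simp only [max_eq_left h]
    field_simp
    grind

lemma cfc_aux2 {a : A} (ha : IsSelfAdjoint a) {ε : ℝ} (hε0 : 0 < ε) :
    cfc (fun t : ℝ => max (t - ε) 0) a = a * cfc (fun t : ℝ => max (t - ε) 0 / max t ε) a := by
  have c2 : Continuous fun t : ℝ => max (t - ε) 0 / max t ε :=
    Continuous.div (by fun_prop) (by fun_prop) fun t => (lt_max_of_lt_right hε0).ne'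
  conv_rhs => enter [1]; rw [← cfc_id' ℝ a]
  rw [← cfc_mul _ _ a continuous_id'.continuousOn c2.continuousOn]
  refine cfc_congr fun t _ => ?_
  rcases le_total t ε with h | h
  · simp [h]
  · have := hε0.trans_le h
    simp only [max_eq_left h]
    field_simp

lemma II1.exists_pi (h : II1 T) {z : A} (hz : z ≠ 0) :
    ∃ w : A, w ≠ 0 ∧ w * star w * w = w ∧ (∀ y, y * z = 0 → y * w = 0) ∧
      ∀ y, z * y = 0 → w * y = 0 := by
  let _ := CStarAlgebra.spectralOrder A
  have _ := CStarAlgebra.spectralOrderedRing A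
  have : Nontrivial A := nontrivial_of_ne _ _ hz
  set a := star z * z with ha
  have ha0 : 0 ≤ a := star_mul_self_nonneg z
  have hn : 0 < ‖a‖ := norm_pos_iff.mpr (by simpa [ha, CStarRing.star_mul_self_eq_zero_iff])
  set ε := ‖a‖ / 2 with hε
  have hε0 : 0 < ε := by positivity
  have h1 := cfc_aux1 ha0.isSelfAdjoint hε0
  have h4 := cfc_aux2 ha0.isSelfAdjoint hε0
  set b := cfc (fun t : ℝ => max (t - ε) 0) a with hb
  set f := cfc (fun t : ℝ => (√(max t ε))⁻¹) a with hf
  have hfs : star f = f := (cfc_predicate (R := ℝ) _ a).star_eq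
  obtain ⟨e, he, he'⟩ := h.rp b (cfc_predicate (R := ℝ) _ a).star_eq
  have h2 : f * a * f * e = e := by
    have := (he' (1 - f * a * f)).mp (by rw [sub_mul, h1, one_mul, sub_self])
    rw [sub_mul, one_mul, sub_eq_zero] at this
    exact this.symm
  have h3 : star (z * f * e) * (z * f * e) = e := by
    rw [star_mul, star_mul, hfs, he.isSelfAdjoint.star_eq]
    calc e * (f * star z) * (z * f * e) = e * (f * a * f * e) := by simp only [ha, mul_assoc]
      _ = e := by rw [h2, he.isIdempotentElem.eq]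
  refine ⟨z * f * e, fun h0 => ?_, ?_, fun y hy => ?_, fun y hy => ?_⟩
  · rw [h0, mul_zero] at h3
    have h5 := (he' 1).mpr (by rw [← h3, mul_zero])
    have h6 := norm_apply_le_norm_cfc (fun t : ℝ => max (t - ε) 0) a
      (CStarAlgebra.norm_mem_spectrum_of_nonneg ha0)
    rw [← hb, ← one_mul b, h5, norm_zero, max_eq_left (by linarith), Real.norm_eq_abs,
      abs_nonpos_iff] at h6
    linarith
  · rw [mul_assoc, h3, mul_assoc, he.isIdempotentElem.eq]
  · rw [← mul_assoc, ← mul_assoc, hy, zero_mul, zero_mul]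
  · have h5 : star y * star z = 0 := by rw [← star_mul, hy, star_zero]
    have h6 := (he' (star y)).mp (by rw [h4, ha, ← mul_assoc, ← mul_assoc, h5, zero_mul, zero_mul])
    have h7 : e * y = 0 := by simpa [he.isSelfAdjoint.star_eq] using congrArg star h6
    rw [mul_assoc, h7, mul_zero]

lemma II1.not_minimal (h : II1 T) {r : A} (hr : IsStarProjection r) (hr0 : r ≠ 0) :
    ¬ ∀ x, ∃ c : ℂ, r * x * r = c • r := by
  classical
  intro H
  have hrs := hr.isSelfAdjoint.star_eq
  have hrr := hr.isIdempotentElem.eq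
  have hτ : 0 < (T.τ r).re := by
    have := T.n2_sq r
    rw [hrs, hrr] at this
    rw [← this]
    exact pow_pos ((T.n2_nonneg r).lt_of_ne' fun h0 => hr0 (h.faithful r h0)) 2
  let P : ℕ → Prop := fun n => ∃ v : Fin n → A, (∀ i, v i * r = v i) ∧
    ∀ i j, star (v i) * v j = if i = j then r else 0
  have hproj : ∀ {n} (v : Fin n → A), (∀ i, v i * r = v i) →
      (∀ i j, star (v i) * v j = if i = j then r else 0) →
      ∀ j, (1 - ∑ i, v i * star (v i)) * v j = 0 := fun v h1 h2 j => by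
    simp [sub_mul, Finset.sum_mul, mul_assoc, h2, h1]
  obtain ⟨N, hN⟩ := exists_nat_gt (T.τ r).re⁻¹
  have hb : ∀ n, P n → n < N := by
    rintro n ⟨v, h1, h2⟩
    have e1 := (T.pos (1 - ∑ i, v i * star (v i))).1
    have e2 : star (1 - ∑ i, v i * star (v i)) = 1 - ∑ i, v i * star (v i) := by simp
    rw [e2, mul_sub, mul_one, Finset.mul_sum] at e1
    simp only [← mul_assoc, hproj v h1 h2, zero_mul, Finset.sum_const_zero, sub_zero, map_sub,
      map_sum, T.comm (v _), h2, if_true, T.one] at e1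
    simp only [Finset.sum_const, Finset.card_univ, Fintype.card_fin, nsmul_eq_mul, Complex.zero_re,
      Complex.sub_re, Complex.one_re, Complex.mul_re, Complex.natCast_re, Complex.natCast_im,
      zero_mul, sub_zero] at e1
    rw [inv_lt_iff_one_lt_mul₀ hτ] at hN
    exact_mod_cast lt_of_mul_lt_mul_right (by linarith : (n : ℝ) * (T.τ r).re < N * (T.τ r).re) hτ.le
  obtain ⟨v, h1, h2⟩ : P (Nat.findGreatest P N) :=
    Nat.findGreatest_spec (Nat.zero_le N) ⟨Fin.elim0, by simp, by simp⟩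
  have hlt := hb _ ⟨v, h1, h2⟩
  set e := ∑ i, v i * star (v i) with he
  have h3 : ∀ x, (1 - e) * x * r = 0 := fun x => by
    by_contra hz
    obtain ⟨w, hw0, hw1, hw2, hw3⟩ := h.exists_pi hz
    have f1 : w * r = w := by
      have := hw3 (1 - r) (by rw [mul_assoc, hr.mul_one_sub_self, mul_zero])
      rwa [mul_sub, mul_one, sub_eq_zero, eq_comm] at this
    have f2 : ∀ j, star (v j) * w = 0 := fun j => hw2 _ (by
      have := congrArg star (hproj v h1 h2 j)
      simp only [star_mul, star_sub, star_one, star_sum, star_star, star_zero] at this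
      rw [← mul_assoc, ← mul_assoc, this, zero_mul, zero_mul])
    obtain ⟨c, hc⟩ := H (star w * w)
    have f3 : star w * w = c • r := by
      rw [← hc, mul_assoc, mul_assoc, f1, ← mul_assoc, ← hrs, ← star_mul, f1]
    have f4 : c = 1 := by
      rw [mul_assoc, f3, mul_smul_comm, f1] at hw1
      exact smul_left_injective ℂ hw0 (by simpa using hw1)
    refine Nat.findGreatest_is_greatest (Nat.lt_succ_self _) hlt ⟨Fin.cons w v, fun i => ?_,
      fun i j => ?_⟩
    · refine Fin.cases f1 h1 i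
    · refine Fin.cases (Fin.cases ?_ (fun j => ?_) j) (fun i => Fin.cases ?_ (fun j => ?_) j) i
      · simp [f3, f4]
      · simpa [(Fin.succ_ne_zero j).symm] using congrArg star (f2 j)
      · simpa [Fin.succ_ne_zero] using f2 i
      · simp [h2]
  have h4 : e = 1 := (sub_eq_zero.mp ((h.prime _ _ h3).resolve_right hr0)).symm
  obtain ⟨a, ha⟩ := h.infd (Submodule.span ℂ (Set.range fun p : _ × _ => v p.1 * star (v p.2)))
    (FiniteDimensional.span_of_finite ℂ (Set.finite_range _))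
  refine ha ?_
  rw [← one_mul a, ← mul_one a, ← h4, he, Finset.mul_sum, Finset.sum_mul]
  refine Submodule.sum_mem _ fun i _ => ?_
  rw [Finset.mul_sum]
  refine Submodule.sum_mem _ fun j _ => ?_
  obtain ⟨c, hc⟩ := H (star (v i) * a * v j)
  have f1 : r * star (v j) = star (v j) := by rw [← hrs, ← star_mul, h1]
  have : v i * star (v i) * (a * (v j * star (v j))) = c • (v i * star (v j)) := by
    calc _ = v i * r * (star (v i) * a * v j) * (r * star (v j)) := by
          simp only [h1, f1, mul_assoc]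
      _ = v i * (r * (star (v i) * a * v j) * r) * star (v j) := by simp only [mul_assoc]
      _ = _ := by rw [hc, mul_smul_comm, h1, smul_mul_assoc]
  rw [this]
  exact Submodule.smul_mem _ _ (Submodule.subset_span ⟨(i, j), rfl⟩)

lemma II1.exists_nil (h : II1 T) {r : A} (hr : IsStarProjection r) (hr0 : r ≠ 0) :
    ∃ w : A, w ≠ 0 ∧ w * star w * w = w ∧ w * w = 0 ∧ r * w = w ∧ w * r = w := by
  have hrs := hr.isSelfAdjoint.star_eq
  have hrr := hr.isIdempotentElem.eq
  have : ∃ y : A, star y = y ∧ T.τ y = 0 ∧ y ≠ 0 ∧ (1 - r) * y = 0 := by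
    by_contra! H
    have hτ : T.τ r ≠ 0 := fun h0 => hr0 (h.faithful r (by
      have := T.n2_sq r
      rwa [hrs, hrr, h0, Complex.zero_re, sq_eq_zero_iff] at this))
    have key : ∀ x, star x = x → ∃ c : ℂ, r * x * r = c • r := fun x hx => by
      have e1 : star (r * x * r) = r * x * r := by simp [hrs, hx, mul_assoc]
      refine ⟨T.τ (r * x * r) / T.τ r, sub_eq_zero.mp (by_contra fun h0 => H _ ?_ ?_ h0 ?_)⟩
      · rw [star_sub, e1, star_smul, hrs, star_div₀, Complex.star_def, ← T.map_star, ← T.map_star,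
          e1, hrs]
      · rw [map_sub, map_smul, smul_eq_mul, div_mul_cancel₀ _ hτ, sub_self]
      · rw [mul_sub, mul_smul_comm, ← mul_assoc, ← mul_assoc, hr.one_sub_mul_self]; simp
    refine h.not_minimal hr hr0 fun x => ?_
    obtain ⟨c, hc⟩ := key _ (ℜ x).2
    obtain ⟨d, hd⟩ := key _ (ℑ x).2
    refine ⟨c + Complex.I * d, ?_⟩
    rw [← realPart_add_I_smul_imaginaryPart x, mul_add, add_mul, mul_smul_comm, smul_mul_assoc, hc,
      hd, add_smul, smul_smul]
  obtain ⟨y, hy, hy0, hy1, hy2⟩ := this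
  obtain ⟨h1, h2⟩ := h.posneg hy hy0 hy1
  have e := CFC.posPart_sub_negPart y hy
  have sp : star y⁺ = y⁺ := (cfcₙ_predicate (R := ℝ) _ y).star_eq
  have sn : star y⁻ = y⁻ := (cfcₙ_predicate (R := ℝ) _ y).star_eq
  have e1 : (1 - r) * y⁺ = (1 - r) * y⁻ := by rw [← sub_eq_zero, ← mul_sub, e, hy2]
  have e2 : (1 - r) * y⁺ = 0 := by
    rw [← CStarRing.mul_star_self_eq_zero_iff, star_mul, sp, ← mul_assoc]
    nth_rewrite 1 [e1]
    rw [mul_assoc (1 - r), CFC.negPart_mul_posPart, mul_zero, zero_mul]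
  have e3 : y⁻ * (1 - r) = 0 := by
    have := congrArg star (e1.symm.trans e2)
    rwa [star_mul, sn, star_sub, star_one, hrs, star_zero] at this
  obtain ⟨x, hx⟩ := not_forall.mp (mt (h.prime _ _) (not_or.mpr ⟨h1, h2⟩))
  obtain ⟨w, w0, w1, w2, w3⟩ := h.exists_pi hx
  refine ⟨w, w0, w1, w3 _ (w2 _ ?_), ?_, ?_⟩
  · rw [← mul_assoc, ← mul_assoc, mul_assoc _ y⁻, CFC.negPart_mul_posPart]; simp
  · have := w2 (1 - r) (by rw [← mul_assoc, ← mul_assoc, e2]; simp)
    rwa [sub_mul, one_mul, sub_eq_zero, eq_comm] at this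
  · have := w3 (1 - r) (by rw [mul_assoc, e3, mul_zero])
    rwa [mul_sub, mul_one, sub_eq_zero, eq_comm] at this

/-- A pair of anticommuting symmetries. -/
structure Pauli (X Z : A) : Prop where
  sX : star X = X
  XX : X * X = 1
  sZ : star Z = Z
  ZZ : Z * Z = 1
  anti : Z * X = -(X * Z)

/-- Nilpotent isometries between subspaces. -/
def Nil (w : A) : Prop := w * star w * w = w ∧ w * w = 0

lemma Nil.norm_le {w : A} (hw : Nil w) : ‖w‖ ≤ 1 := by
  have : IsStarProjection (star w * w) := ⟨by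
    rw [IsIdempotentElem, mul_assoc, ← mul_assoc w, hw.1], .star_mul_self w⟩
  have := this.norm_le
  rw [CStarRing.norm_star_mul_self] at this
  nlinarith [norm_nonneg w]

lemma Tr.n2_ext (T : Tr A) {w w' : A} (hw : star w * w' = star w * w) :
    T.n2 (w' - w) ^ 2 = T.n2 w' ^ 2 - T.n2 w ^ 2 := by
  rw [T.n2_sub_rev, T.n2_sub_sq, hw, ← T.n2_sq]; ring

lemma Nil.trans {w w' w'' : A} (hw : Nil w) (hw' : Nil w') (h1 : star w * w' = star w * w)
    (h2 : star w' * w'' = star w' * w') : star w * w'' = star w * w := by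
  have h1' : star w' * w = star w * w := by simpa using congrArg star h1
  have h3 : star w = star w * w' * star w' := by
    rw [← sub_eq_zero, ← CStarRing.mul_star_self_eq_zero_iff]
    have g1 : w' * (star w' * (w' * (star w' * w))) = w' * (star w' * w) := by
      rw [← mul_assoc, ← mul_assoc, hw'.1]
    have g2 : star w * (w' * (star w' * w)) = star w * w := by
      rw [← mul_assoc, h1, h1', mul_assoc, ← mul_assoc w, hw.1]
    simp only [star_sub, star_mul, star_star, sub_mul, mul_sub, mul_assoc, g1, g2, sub_self]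
  calc star w * w'' = star w * w' * (star w' * w'') := by rw [← mul_assoc, ← h3]
    _ = star w * w := by rw [h2, ← mul_assoc, ← h3, h1]

lemma Nil.lim (hf : ∀ a, T.n2 a = 0 → a = 0) {x : ℕ → A} (hx : ∀ n, Nil (x n)) {w : A}
    (hw : Tendsto (fun n => T.n2 (x n - w)) atTop (𝓝 0)) : Nil w := by
  have hw' : Tendsto (fun n => T.n2 (star (x n) - star w)) atTop (𝓝 0) := by
    simpa only [← star_sub, T.n2_star] using hw
  have h1 : Tendsto (fun n => T.n2 (x n * star (x n) - w * star w)) atTop (𝓝 0) := by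
    refine squeeze_zero (fun _ => T.n2_nonneg _) (fun n => ?_)
      (by simpa using (hw.mul_const ‖w‖).add hw')
    rw [show x n * star (x n) - w * star w = (x n - w) * star w + x n * (star (x n) - star w) by
      noncomm_ring]
    refine (T.n2_add_le _ _).trans (add_le_add (by simpa using T.n2_mul_le' _ (star w))
      ((T.n2_mul_le _ _).trans (mul_le_of_le_one_left (T.n2_nonneg _) (hx n).norm_le)))
  refine ⟨Tr.lim_mul hf (x := fun n => x n * star (x n)) (R := 1 * 1)
    (fun n => norm_mul_le_of_le (hx n).norm_le (by simpa using (hx n).norm_le)) h1 hw ?_,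
    Tr.lim_mul hf (fun n => (hx n).norm_le) hw hw ?_⟩
  · simpa only [(hx _).1] using hw
  · simp [(hx _).2, T.n2_zero]

lemma Nil.exists_next (T : Tr A) (n : ℕ) {w : A} (hw : Nil w) : ∃ w', Nil w' ∧
    star w * w' = star w * w ∧ ∀ w'', Nil w'' → star w * w'' = star w * w →
      T.n2 w'' ^ 2 ≤ T.n2 w' ^ 2 + 1 / (n + 1) := by
  set S := (fun x => T.n2 x ^ 2) '' {x | Nil x ∧ star w * x = star w * w}
  obtain ⟨_, ⟨x, hx, rfl⟩, hx'⟩ := exists_lt_of_lt_csSup (s := S) ⟨_, w, ⟨hw, rfl⟩, rfl⟩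
    (sub_lt_self _ (Nat.one_div_pos_of_nat (n := n)))
  refine ⟨x, hx.1, hx.2, fun y hy hy' => ?_⟩
  have : T.n2 y ^ 2 ≤ sSup S := le_csSup ⟨1, by
    rintro _ ⟨x, hx, rfl⟩
    exact pow_le_one₀ (T.n2_nonneg _) ((T.n2_le_norm _).trans hx.1.norm_le)⟩ ⟨y, ⟨hy, hy'⟩, rfl⟩
  linarith

lemma II1.exists_max (h : II1 T) : ∃ w : A, Nil w ∧
    ∀ w', Nil w' → star w * w' = star w * w → w' = w := by
  have : ∃ x : ℕ → A, (∀ n, Nil (x n)) ∧ (∀ n, star (x n) * x (n + 1) = star (x n) * x n) ∧
      ∀ n w'', Nil w'' → star (x n) * w'' = star (x n) * x n →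
        T.n2 w'' ^ 2 ≤ T.n2 (x (n + 1)) ^ 2 + 1 / (n + 1) := by
    choose f hf hf' hf'' using fun n (w : {w : A // Nil w}) => w.2.exists_next T n
    let x : ℕ → {w : A // Nil w} := fun n =>
      Nat.rec ⟨0, by simp [Nil]⟩ (fun n w => ⟨f n w, hf n w⟩) n
    exact ⟨fun n => (x n).1, fun n => (x n).2, fun n => hf' n (x n), fun n => hf'' n (x n)⟩
  obtain ⟨x, hP, hf, hf'⟩ := this
  have hx : ∀ n m, n ≤ m → star (x n) * x m = star (x n) * x n := fun n m hnm => by
    induction hnm with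
    | refl => rfl
    | step _ ih => exact (hP n).trans (hP _) ih (hf _)
  obtain ⟨w, hw⟩ := h.complete (fun n => x (n + 1)) 1 (fun n => (hP _).norm_le)
    (T.cauchySeq (b := fun n => 1 / (n + 1)) tendsto_one_div_add_atTop_nhds_zero_nat
      fun n m N hn hm => by
        wlog hnm : m ≤ n generalizing n m
        · rw [T.n2_sub_rev]; exact this m n hm hn (le_of_not_ge hnm)
        have e1 := T.n2_ext (hx (m + 1) (n + 1) (by omega))
        have e2 := T.n2_ext (hx (N + 1) (m + 1) (by omega))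
        have e3 := hf' N _ (hP (n + 1)) (hx N (n + 1) (by omega))
        linarith [sq_nonneg (T.n2 (x (m + 1) - x (N + 1)))])
  have hw1 : ∀ n, star (x n) * w = star (x n) * x n := fun n =>
    Tr.lim_mul h.faithful (x := fun _ => star (x n)) (fun _ => le_rfl) (by simp [T.n2_zero]) hw
      (tendsto_const_nhds.congr' (by
        filter_upwards [eventually_ge_atTop n] with m hm
        rw [hx n (m + 1) (by omega), sub_self, T.n2_zero]))
  have hwP : Nil w := Nil.lim h.faithful (fun n => hP _) hw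
  refine ⟨w, hwP, fun w' hw' h1 => ?_⟩
  refine sub_eq_zero.mp (h.faithful _ (sq_eq_zero_iff.mp (le_antisymm (ge_of_tendsto'
    tendsto_one_div_add_atTop_nhds_zero_nat fun n => ?_) (sq_nonneg _))))
  have e1 := hf' n w' hw' ((hP n).trans hwP (hw1 n) h1)
  linarith [T.n2_ext h1, T.n2_ext (hw1 (n + 1)), sq_nonneg (T.n2 (w - x (n + 1)))]

theorem II1.exists_pauli (h : II1 T) : ∃ X Z : A, Pauli X Z := by
  obtain ⟨w, hwP, hmax⟩ := h.exists_max
  obtain ⟨a1, a2⟩ := hwP
  have a3 : star w * w * star w = star w := by simpa [mul_assoc] using congrArg star a1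
  have a4 : star w * star w = 0 := by simpa using congrArg star a2
  have b1 : ∀ y, w * (star w * (w * y)) = w * y := fun y => by rw [← mul_assoc, ← mul_assoc, a1]
  have b2 : ∀ y, w * (w * y) = 0 := fun y => by rw [← mul_assoc, a2, zero_mul]
  have b3 : ∀ y, star w * (w * (star w * y)) = star w * y := fun y => by
    rw [← mul_assoc, ← mul_assoc, a3]
  have b4 : ∀ y, star w * (star w * y) = 0 := fun y => by rw [← mul_assoc, a4, zero_mul]
  rw [mul_assoc] at a1 a3
  have hone : star w * w + w * star w = 1 := by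
    by_contra h0
    obtain ⟨u, u0, u1, u2, u3, u4⟩ := h.exists_nil (r := 1 - (star w * w + w * star w)) ⟨by
      simp [IsIdempotentElem, mul_sub, sub_mul, mul_add, add_mul, mul_assoc, b1, b2, b3, b4],
      by simp [IsSelfAdjoint]⟩ (sub_ne_zero.mpr (Ne.symm h0))
    have c1 : w * u = 0 := by rw [← u3]; simp [mul_sub, sub_mul, mul_add, add_mul, mul_assoc, b1, b2]
    have c2 : star w * u = 0 := by
      rw [← u3]; simp [mul_sub, sub_mul, mul_add, add_mul, mul_assoc, b3, b4]
    have c3 : u * w = 0 := by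
      rw [← u4]; simp [mul_sub, sub_mul, mul_add, add_mul, mul_assoc, a1, a2]
    have c4 : u * star w = 0 := by
      rw [← u4]; simp [mul_sub, sub_mul, mul_add, add_mul, mul_assoc, a3, a4]
    have c5 : star u * w = 0 := by simpa using congrArg star c2
    have c6 : w * star u = 0 := by simpa using congrArg star c4
    refine u0 (add_eq_left.mp (hmax (w + u) ⟨?_, ?_⟩ (by rw [mul_add, c2, add_zero])))
    · rw [star_add, mul_add (w + u), add_mul, add_mul w, add_mul w, c4, c6, add_zero, zero_add,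
        mul_add, mul_add, u1, mul_assoc, a1, mul_assoc, c2, mul_assoc, c5]
      simp
    · simp [mul_add, add_mul, a2, c1, c3, u2]
  refine ⟨w + star w, star w * w - w * star w, by simp [add_comm], ?_, by simp, ?_, ?_⟩
  · rw [← hone]; simp [mul_add, add_mul, a2, a4, add_comm]
  · rw [← hone]; simp [mul_add, add_mul, mul_assoc, b1, b2, b3, b4, sub_eq_add_neg]
  · simp [mul_add, add_mul, mul_assoc, a1, a2, a3, a4, b2, b4, sub_eq_add_neg, add_comm]

end Vale.Agent.P085
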