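import Vale.Agent.P085.Word

/-! Asymptotically free unitaries in prescribed cosets. -/

namespace Vale.Agent.P085

open scoped BigOperators ComplexConjugate Topology
open Filter Complex Function

variable {A : Type*} [CStarAlgebra A] {T : Tr A} {Q : StarSubalgebra ℂ A} (V : Avg T Q)

/-- The perturbing unitaries. -/
noncomputable def Avg.U (r : ℕ) (i : V.ι r) (t : ℝ) : unitary A := stepU (V.sa r i) (V.sq r i) t

/-- The averaging operator. -/
noncomputable def Avg.D (r : ℕ) (t : ℝ) (ψ : unitary A → ℝ) (g : unitary A) : ℝ :=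
  𝔼 i, (ψ (g * V.U r i t) + ψ (g * V.U r i (-t))) / 2

lemma Avg.D_add (r : ℕ) (t κ : ℝ) (ψ ψ' : unitary A → ℝ) (g : unitary A) :
    V.D r t (fun g => ψ g + κ * ψ' g) g = V.D r t ψ g + κ * V.D r t ψ' g := by
  rw [Avg.D, Avg.D, Avg.D, Finset.mul_expect, ← Finset.expect_add_distrib]
  exact Finset.expect_congr rfl fun i _ => by ring

/-- Drift condition. -/
def Avg.Drift (Ψ : (ℕ → unitary A) → unitary A → ℝ) (ρ : ℝ)
    (X : (ℕ → unitary A) → unitary A → ℝ) : Prop :=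
  ∃ C : ℝ, 0 ≤ C ∧ ∀ G g, ∀ ε > 0, ∀ᶠ r in atTop, ∀ t ∈ Set.Ioc (0 : ℝ) 1,
    V.D r t (Ψ G) g ≤ (1 - ρ * t ^ 2) * Ψ G g + t ^ 2 * (ε + X G g) + C * t ^ 3

/-- Lyapunov functions. -/
def Avg.Lyap (F : Filter (ℕ → unitary A)) (Ψ : (ℕ → unitary A) → unitary A → ℝ) : Prop :=
  (∀ G g, 0 ≤ Ψ G g) ∧ ∃ ρ > 0, ∃ η : (ℕ → unitary A) → ℝ, Tendsto η F (𝓝 0) ∧
    V.Drift Ψ ρ fun G _ => η G

/-- Functions controlled by a Lyapunov function. -/
def Avg.Ctrl (F : Filter (ℕ → unitary A)) (φ : (ℕ → unitary A) → unitary A → ℝ) : Prop :=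
  ∃ Ψ, V.Lyap F Ψ ∧ ∃ C : ℝ, 0 ≤ C ∧ ∃ η : (ℕ → unitary A) → ℝ, Tendsto η F (𝓝 0) ∧
    ∀ G g, φ G g ^ 2 ≤ C * Ψ G g + η G

variable {V} {F : Filter (ℕ → unitary A)}

lemma Avg.Drift.add {Ψ Ψ' X X' : (ℕ → unitary A) → unitary A → ℝ} {ρ ρ' κ : ℝ}
    (h : V.Drift Ψ ρ X) (h' : V.Drift Ψ' ρ' X') (hκ : 0 ≤ κ) {ρ'' : ℝ}
    {X'' : (ℕ → unitary A) → unitary A → ℝ}
    (H : ∀ G g, ρ'' * (Ψ G g + κ * Ψ' G g) + X G g + κ * X' G g ≤
      ρ * Ψ G g + κ * (ρ' * Ψ' G g) + X'' G g) :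
    V.Drift (fun G g => Ψ G g + κ * Ψ' G g) ρ'' X'' := by
  obtain ⟨C, hC, h⟩ := h
  obtain ⟨C', hC', h'⟩ := h'
  refine ⟨C + κ * C', by positivity, fun G g ε hε => ?_⟩
  have hε' : 0 < ε / (1 + κ) := by positivity
  filter_upwards [h G g _ hε', h' G g _ hε'] with r h1 h2 t ht
  rw [V.D_add]
  have e1 := h1 t ht
  have e2 := mul_le_mul_of_nonneg_left (h2 t ht) hκ
  have e3 := mul_le_mul_of_nonneg_left (H G g) (sq_nonneg t)
  have e4 : t ^ 2 * (ε / (1 + κ)) + κ * (t ^ 2 * (ε / (1 + κ))) = t ^ 2 * ε := by field_simp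
  nlinarith

lemma Avg.lyap_zero : V.Lyap F fun _ _ => 0 :=
  ⟨fun _ _ => le_rfl, 1, one_pos, fun _ => 0, tendsto_const_nhds, 0, le_rfl, fun G g ε hε =>
    Eventually.of_forall fun r t _ => by simp [Avg.D]; positivity⟩

lemma Avg.Lyap.add {Ψ Ψ' : (ℕ → unitary A) → unitary A → ℝ} (h : V.Lyap F Ψ) (h' : V.Lyap F Ψ') :
    V.Lyap F fun G g => Ψ G g + 1 * Ψ' G g := by
  obtain ⟨h0, ρ, hρ, η, hη, h⟩ := h
  obtain ⟨h0', ρ', hρ', η', hη', h'⟩ := h'
  refine ⟨fun G g => by linarith [h0 G g, h0' G g], min ρ ρ', lt_min hρ hρ', fun G => η G + η' G,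
    by simpa using hη.add hη', h.add h' zero_le_one fun G g => ?_⟩
  nlinarith [mul_le_mul_of_nonneg_right (min_le_left ρ ρ') (h0 G g),
    mul_le_mul_of_nonneg_right (min_le_right ρ ρ') (h0' G g)]

lemma Avg.Ctrl.of_null {φ : (ℕ → unitary A) → ℝ} (h : Tendsto φ F (𝓝 0)) :
    V.Ctrl F fun G _ => φ G :=
  ⟨_, V.lyap_zero, 0, le_rfl, fun G => φ G ^ 2, by simpa using h.pow 2, fun _ _ => by simp⟩

lemma Avg.Ctrl.add {φ φ' : (ℕ → unitary A) → unitary A → ℝ} (h : V.Ctrl F φ) (h' : V.Ctrl F φ')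
    (c : ℝ) : V.Ctrl F fun G g => φ G g + c * φ' G g := by
  obtain ⟨Ψ, hΨ, C, hC, η, hη, h⟩ := h
  obtain ⟨Ψ', hΨ', C', hC', η', hη', h'⟩ := h'
  refine ⟨_, hΨ.add hΨ', 2 * C + 2 * (c ^ 2 * C'), by positivity,
    fun G => 2 * η G + 2 * c ^ 2 * η' G,
    by simpa using (hη.const_mul 2).add (hη'.const_mul (2 * c ^ 2)), fun G g => ?_⟩
  have e1 := mul_le_mul_of_nonneg_left (h' G g) (sq_nonneg c)
  have e2 := mul_nonneg hC (hΨ'.1 G g)
  have e3 := mul_nonneg (mul_nonneg (sq_nonneg c) hC') (hΨ.1 G g)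
  nlinarith [h G g, sq_nonneg (φ G g - c * φ' G g)]

lemma Avg.Ctrl.of_drift {f φ : (ℕ → unitary A) → unitary A → ℝ} (hφ : V.Ctrl F φ)
    (h : V.Drift (fun G g => f G g ^ 2) (1 / 4) fun G g => 4 * φ G g ^ 2) : V.Ctrl F f := by
  obtain ⟨Ψ, ⟨h0, ρ, hρ, η, hη, hΨ⟩, C, hC, η', hη', h'⟩ := hφ
  set κ := ρ / (8 * C + 1) with hκ
  have hκ0 : 0 < κ := by positivity
  have hκ1 : κ * (8 * C + 1) = ρ := by rw [hκ]; field_simp
  refine ⟨fun G g => Ψ G g + κ * f G g ^ 2, ⟨fun G g => by have := h0 G g; positivity,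
    min (ρ / 2) (1 / 4), by positivity, fun G => η G + 4 * κ * η' G,
    by simpa using hη.add (hη'.const_mul (4 * κ)), hΨ.add h hκ0.le fun G g => ?_⟩, κ⁻¹,
    by positivity, fun _ => 0, tendsto_const_nhds, fun G g => ?_⟩
  · have e1 := mul_le_mul_of_nonneg_right (min_le_left (ρ / 2) (1 / 4)) (h0 G g)
    have e2 := mul_le_mul_of_nonneg_right (min_le_right (ρ / 2) (1 / 4))
      (mul_nonneg hκ0.le (sq_nonneg (f G g)))
    have e3 := mul_le_mul_of_nonneg_left (h' G g) hκ0.le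
    have e4 := mul_nonneg hκ0.le (h0 G g)
    have e5 : κ * (8 * C + 1) * Ψ G g = ρ * Ψ G g := by rw [hκ1]
    nlinarith
  · have := mul_nonneg (inv_nonneg.mpr hκ0.le) (h0 G g)
    rw [mul_add, ← mul_assoc, inv_mul_cancel₀ hκ0.ne']
    linarith

lemma Avg.Drift.exists_lt {Ψ : (ℕ → unitary A) → unitary A → ℝ} {ρ : ℝ}
    {η : (ℕ → unitary A) → ℝ} (h : V.Drift Ψ ρ fun G _ => η G) (hρ : 0 < ρ) (c : unitary A)
    {G : ℕ → unitary A} {ε : ℝ} (hε : 0 < ε) (hη : η G < ρ * ε / 2) :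
    ∃ g : unitary A, star (c : A) * g ∈ Q ∧ Ψ G g < ε := by
  obtain ⟨C, hC, h⟩ := h
  by_contra! hc
  set S := Ψ G '' {g | star (c : A) * g ∈ Q}
  have hS : S.Nonempty := ⟨_, c, by simp, rfl⟩
  have hb : BddBelow S := ⟨ε, by rintro _ ⟨g, hg, rfl⟩; exact hc g hg⟩
  have hd : ε ≤ sInf S := le_csInf hS (by rintro _ ⟨g, hg, rfl⟩; exact hc g hg)
  set t := min (1 / (1 + ρ)) (ρ * ε / (8 * (C + 1))) with ht
  have ht0 : 0 < t := by positivity
  have ht1 : t * (1 + ρ) ≤ 1 := by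
    rw [← le_div_iff₀ (by positivity)]; exact min_le_left _ _
  have ht2 : t * (8 * (C + 1)) ≤ ρ * ε := by
    rw [← le_div_iff₀ (by positivity)]; exact min_le_right _ _
  have ht3 : t ≤ 1 := by nlinarith
  have ht4 : ρ * t ^ 2 ≤ 1 := by nlinarith
  have hρε : 0 < ρ * ε := by positivity
  obtain ⟨_, ⟨g, hg, rfl⟩, hg'⟩ := exists_lt_of_csInf_lt hS
    (lt_add_of_pos_right (sInf S) (by positivity : 0 < t ^ 2 * (ρ * ε / 8)))
  obtain ⟨r, hr⟩ := (h G g (ρ * ε / 8) (by positivity)).exists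
  have hU : ∀ i t', sInf S ≤ Ψ G (g * V.U r i t') := fun i t' => csInf_le hb ⟨_, by
    change star (c : A) * (g * V.U r i t') ∈ Q
    rw [← mul_assoc]
    exact mul_mem hg (Q.smul_mem (add_mem (one_mem _) (Q.smul_mem (V.mem r i) _)) _), rfl⟩
  have e1 : sInf S ≤ V.D r t (Ψ G) g :=
    Finset.le_expect Finset.univ_nonempty fun i _ => by linarith [hU i t, hU i (-t)]
  have e2 := hr t ⟨ht0, ht3⟩
  have e3 := mul_le_mul_of_nonneg_left hg'.le (sub_nonneg.mpr ht4)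
  have e4 : 0 < t ^ 2 := by positivity
  have e5 : C * t ^ 3 ≤ t ^ 2 * (ρ * ε / 8) := by nlinarith
  have e6 := mul_lt_mul_of_pos_left hη e4
  have e7 := mul_le_mul_of_nonneg_left hd (by positivity : 0 ≤ ρ * t ^ 2)
  have e8 : 0 ≤ ρ * t ^ 2 * (t ^ 2 * (ρ * ε / 8)) := by positivity
  have e9 : 0 ≤ t ^ 2 * (ρ * ε) := by positivity
  nlinarith

lemma scalar_bound {f a b R : ℂ} {C t : ℝ} (hf : ‖f‖ ≤ C) (ha : ‖a‖ ≤ C) (hb : ‖b‖ ≤ C)
    (hR : ‖R‖ ≤ C * |t| ^ 3) (ht : |t| ≤ 1) :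
    ‖R + f + t * a + t ^ 2 * b‖ ^ 2 ≤ ‖f‖ ^ 2 + 2 * t * (conj f * a).re +
      t ^ 2 * (‖a‖ ^ 2 + 2 * (conj f * b).re) + 10 * C ^ 2 * |t| ^ 3 := by
  have hC : 0 ≤ C := (norm_nonneg _).trans hf
  have h0 := abs_nonneg t
  set u := f + t * a + t ^ 2 * b with hu
  have h1 : ‖u‖ ≤ 3 * C := by
    refine (norm_add₃_le ..).trans ?_
    rw [norm_mul, norm_mul, norm_pow, norm_real, Real.norm_eq_abs]
    have := mul_le_of_le_one_left (norm_nonneg a) ht
    have := mul_le_of_le_one_left (norm_nonneg b) (pow_le_one₀ h0 ht : |t| ^ 2 ≤ 1)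
    linarith
  have h3 : |t| ^ 3 ≤ 1 := pow_le_one₀ h0 ht
  have h2 : ‖R + f + t * a + t ^ 2 * b‖ ^ 2 ≤ ‖u‖ ^ 2 + 7 * C ^ 2 * |t| ^ 3 := by
    have e : R + f + t * a + t ^ 2 * b = R + u := by rw [hu]; ring
    have e1 : ‖R + u‖ ^ 2 ≤ (C * |t| ^ 3 + ‖u‖) ^ 2 := by
      gcongr; exact (norm_add_le _ _).trans (by gcongr)
    have e2 := mul_le_mul_of_nonneg_left h1 (by positivity : 0 ≤ C * |t| ^ 3)
    have e3 := mul_le_mul_of_nonneg_left h3 (by positivity : 0 ≤ C ^ 2 * |t| ^ 3)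
    rw [e]; nlinarith
  have h4 : ‖u‖ ^ 2 = ‖f‖ ^ 2 + 2 * t * (conj f * a).re +
      t ^ 2 * (‖a‖ ^ 2 + 2 * (conj f * b).re) + (t ^ 4 * ‖b‖ ^ 2 + 2 * t ^ 3 * (conj a * b).re) := by
    simp only [hu, ← Complex.normSq_eq_norm_sq, Complex.normSq_apply, add_re, add_im, mul_re,
      mul_im, ofReal_re, ofReal_im, conj_re, conj_im, ← ofReal_pow]
    ring
  have h5 : t ^ 4 * ‖b‖ ^ 2 ≤ |t| ^ 3 * C ^ 2 := by
    have : t ^ 4 = |t| ^ 3 * |t| := by
      rw [← pow_succ, ← abs_pow, abs_of_nonneg (by norm_num; positivity)]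
    rw [this]
    gcongr
    exact mul_le_of_le_one_right (by positivity) ht
  have h6 : t ^ 3 * (conj a * b).re ≤ |t| ^ 3 * C ^ 2 := by
    refine (le_abs_self _).trans ?_
    rw [abs_mul, abs_pow, sq]
    gcongr
    refine (abs_re_le_norm _).trans ?_
    rw [norm_mul, norm_conj]
    gcongr
  nlinarith

lemma drift_word (m : ℕ) {ω : List (Let A)} (hω : ∃ p ∈ ω, p.2.1 = m)
    {φ : (ℕ → unitary A) → unitary A → ℝ}
    (hφ : ∀ G g, ‖G2 T (update G m g) m 1 ω‖ ≤ φ G g) :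
    V.Drift (fun G g => ‖T.τ (ev (update G m g) ω)‖ ^ 2) (1 / 4) fun G g => 4 * φ G g ^ 2 := by
  obtain ⟨C, hC, h⟩ := exists_bound m ω
  refine ⟨10 * C ^ 2, by positivity, fun G g ε hε => ?_⟩
  set G' := update G m g with hG'
  set f := T.τ (ev G' ω) with hf
  have hε' : 0 < ε / (1 + 2 * C) := by positivity
  filter_upwards [(tendsto_W1 V G' m ω 1).eventually (gt_mem_nhds hε'),
    Metric.tendsto_nhds.mp (tendsto_G2 V G' m ω 1) _ hε'] with r h1 h2 t ht
  simp only [one_mul] at h1 h2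
  have ht0 := ht.1
  have ht1 := ht.2
  have hn : ∀ t' : ℝ, |t'| = t → (nrm t' ^ ω.countP (fun p => p.2.1 = m)) ^ 2 ≤ 1 - t ^ 2 / 2 := by
    intro t' ht'
    have e1 := nrm_sq t'
    rw [← sq_abs t', ht'] at e1
    have e0 : t ^ 2 ≤ 1 := pow_le_one₀ ht0.le ht1
    have e2 : nrm t' ^ 2 ≤ 1 - t ^ 2 / 2 := by
      refine le_of_mul_le_mul_right ?_ (by positivity : 0 < 1 + t ^ 2)
      nlinarith [sq_nonneg t]
    rw [← pow_mul, mul_comm, pow_mul]
    refine (pow_le_of_le_one (by positivity) (by nlinarith) ?_).trans e2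
    exact (List.countP_pos_iff.mpr (by simpa using hω)).ne'
  have key : ∀ i (t' : ℝ), |t'| = t → ‖T.τ (ev (update G m (g * V.U r i t')) ω)‖ ^ 2 ≤
      (1 - t ^ 2 / 2) * (‖f‖ ^ 2 + 2 * t' * (conj f * T.τ (W1 G' m (V.s r i) ω)).re +
        t ^ 2 * (‖T.τ (W1 G' m (V.s r i) ω)‖ ^ 2 + 2 * (conj f * T.τ (W2 G' m (V.s r i) ω)).re) +
          10 * C ^ 2 * t ^ 3) := by
    intro i t' ht'
    obtain ⟨b0, b1, b2, b3⟩ := h G' (V.s r i) t' (V.norm_s r i) (ht' ▸ ht1)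
    have e1 : update G m (g * V.U r i t') = update G' m (G' m * stepU (V.sa r i) (V.sq r i) t') := by
      simp [hG', Avg.U]
    have e2 := scalar_bound ((T.norm_τ_le _).trans b0) ((T.norm_τ_le _).trans b1)
      ((T.norm_τ_le _).trans b2) ((T.norm_τ_le _).trans b3) (ht' ▸ ht1)
    rw [map_sub, map_sub, map_sub, map_smul, map_smul, smul_eq_mul, smul_eq_mul, ← sq_abs t',
      ht'] at e2
    rw [e1, ev_step, map_smul, norm_smul, mul_pow, norm_pow, norm_real, Real.norm_eq_abs,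
      abs_of_nonneg (nrm_nonneg _)]
    refine mul_le_mul (hn t' ht') (le_of_eq_of_le ?_ e2) (by positivity) (by nlinarith)
    congr 2
    ring
  have e1 : V.D r t (fun g => ‖T.τ (ev (update G m g) ω)‖ ^ 2) g ≤ (1 - t ^ 2 / 2) * (‖f‖ ^ 2 +
      t ^ 2 * ((𝔼 i, ‖T.τ (W1 G' m (V.s r i) ω)‖ ^ 2) +
        2 * (conj f * 𝔼 i, T.τ (W2 G' m (V.s r i) ω)).re) + 10 * C ^ 2 * t ^ 3) := by
    rw [Finset.mul_expect, re_expect, Finset.mul_expect, ← Finset.expect_add_distrib,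
      Finset.mul_expect, ← Finset.expect_const (s := (Finset.univ : Finset (V.ι r)))
        Finset.univ_nonempty (‖f‖ ^ 2), ← Finset.expect_add_distrib,
      ← Finset.expect_const (s := (Finset.univ : Finset (V.ι r))) Finset.univ_nonempty
        (10 * C ^ 2 * t ^ 3), ← Finset.expect_add_distrib, Finset.mul_expect]
    refine Finset.expect_le_expect fun i _ => ?_
    linarith [key i t (abs_of_pos ht0), key i (-t) (by rw [abs_neg, abs_of_pos ht0])]
  have e2 : (conj f * 𝔼 i, T.τ (W2 G' m (V.s r i) ω)).re ≤ ‖f‖ * (φ G g + ε / (1 + 2 * C)) := by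
    refine (re_le_norm _).trans ?_
    rw [norm_mul, norm_conj]
    gcongr
    rw [dist_eq_norm] at h2
    linarith [norm_sub_norm_le (𝔼 i, T.τ (W2 G' m (V.s r i) ω)) (G2 T G' m 1 ω), hφ G g]
  have e3 : ‖f‖ ≤ C := (T.norm_τ_le _).trans (h G' 0 0 (by simp) (by simp)).1
  have e4 : 0 ≤ φ G g := (norm_nonneg _).trans (hφ G g)
  have e5 : ε / (1 + 2 * C) + 2 * (C * (ε / (1 + 2 * C))) = ε := by field_simp
  have e6 := mul_le_mul_of_nonneg_right e3 hε'.le
  set Y := ε + 2 * (‖f‖ * φ G g) with hY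
  have e7 : (𝔼 i, ‖T.τ (W1 G' m (V.s r i) ω)‖ ^ 2) +
      2 * (conj f * 𝔼 i, T.τ (W2 G' m (V.s r i) ω)).re ≤ Y := by linarith
  have e0 : t ^ 2 ≤ 1 := pow_le_one₀ ht0.le ht1
  have e8 : (1 - t ^ 2 / 2) * (‖f‖ ^ 2 + t ^ 2 * Y + 10 * C ^ 2 * t ^ 3) ≤
      (1 - t ^ 2 / 2) * ‖f‖ ^ 2 + t ^ 2 * Y + 10 * C ^ 2 * t ^ 3 := by
    have : 0 ≤ t ^ 2 * (t ^ 2 * Y + 10 * C ^ 2 * t ^ 3) := by positivity
    nlinarith
  have e9 : t ^ 2 * Y ≤ t ^ 2 * (ε + ‖f‖ ^ 2 / 4 + 4 * φ G g ^ 2) := by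
    gcongr
    nlinarith [sq_nonneg (‖f‖ / 2 - 2 * φ G g)]
  refine e1.trans (le_trans (mul_le_mul_of_nonneg_left ?_ (by linarith)) (e8.trans ?_))
  · gcongr
  · change _ ≤ (1 - 1 / 4 * t ^ 2) * ‖f‖ ^ 2 + _ + _
    linarith

variable (T) in
/-- Admissible (reduced) words in the first `m` variables. -/
def Adm (m : ℕ) (ω : List (Let A)) : Prop :=
  ω ≠ [] ∧ (ω.IsChain fun p q => p.2.1 = q.2.1 → p.2.2 ≠ q.2.2 → T.τ q.1 = 0) ∧ ∀ p ∈ ω, p.2.1 < m

lemma inner_cases {m : ℕ} {p₀ p : Let A} {π ω : List (Let A)}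
    (h : Adm T (m + 1) (p₀ :: (π ++ p :: ω))) (h₀ : p₀.2.1 = m) (hp : p.2.1 = m) :
    (∀ G, T.τ (lb G m p₀ * ev G π * la G m p) = 0) ∨ ∃ ω', Adm T (m + 1) ω' ∧
      ω'.length ≤ π.length + 1 ∧ ∀ G, T.τ (lb G m p₀ * ev G π * la G m p) = T.τ (ev G ω') := by
  obtain ⟨x₀, j₀, e₀⟩ := p₀
  obtain ⟨x, j, e⟩ := p
  obtain ⟨-, hc, hm⟩ := h
  simp only at h₀ hp
  subst h₀
  subst hp
  have hπ : ∀ q ∈ π, q.2.1 < j + 1 := fun q hq => hm q (by simp [hq])
  by_cases he : e₀ = e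
  · subst he
    right
    cases e₀
    · refine ⟨(x, j, false) :: π, ⟨by simp, ?_, by simpa using hπ⟩, by simp, fun G => ?_⟩
      · have := (List.cons_append ▸ hc :).left_of_append
        cases π with
        | nil => simp
        | cons q π => simpa using this
      · rw [T.comm]
        simp [la, lb, ev, pw, mul_assoc]
    · refine ⟨π ++ [(x, j, true)], ⟨by simp, ?_, fun q hq => hm q ?_⟩, by simp, fun G => ?_⟩
      · have := hc.tail
        rw [List.tail_cons, List.append_cons] at this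
        exact this.left_of_append
      · simp only [List.mem_append, List.mem_cons] at hq ⊢
        tauto
      · simp [la, lb, ev_append, ev]
  · have e1 : ∀ G : ℕ → unitary A, T.τ (lb G j (x₀, j, e₀) * ev G π * la G j (x, j, e)) =
        T.τ (x * ev G π) := by
      intro G
      cases e₀ <;> cases e
      · exact absurd rfl he
      · simp only [la, lb, pw, true_and, if_true, Bool.true_eq_false, if_false]
        rw [← mul_assoc, T.comm, ← mul_assoc, ← mul_assoc, (G j).2.2, one_mul, T.comm]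
      · simp only [la, lb, true_and, if_true, Bool.true_eq_false, if_false, one_mul]
        rw [T.comm]
      · exact absurd rfl he
    cases π with
    | nil =>
      left
      intro G
      rw [e1, ev, mul_one]
      exact (List.isChain_cons_cons.mp hc).1 rfl he
    | cons q π =>
      right
      refine ⟨(x * q.1, q.2) :: π, ⟨by simp, ?_, by simpa using hπ⟩, by simp, fun G => ?_⟩
      · have := hc.tail.left_of_append
        cases π with
        | nil => simp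
        | cons q' π => simpa using this
      · rw [e1]; simp [ev, mul_assoc]

lemma ctrl_adm {m : ℕ} (hF : ∀ ω, Adm T m ω → Tendsto (fun G => T.τ (ev G ω)) F (𝓝 0)) (L : ℕ) :
    ∀ ω, Adm T (m + 1) ω → ω.length ≤ L →
      V.Ctrl F fun G g => ‖T.τ (ev (update G m g) ω)‖ := by
  induction L with
  | zero => exact fun ω h hl => absurd (List.length_eq_zero_iff.mp (by omega)) h.1
  | succ L ih =>
    have c0 : V.Ctrl F fun _ _ => 0 := Avg.Ctrl.of_null tendsto_const_nhds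
    have hGf : ∀ (p₀ : Let A), p₀.2.1 = m → ∀ (ω π : List (Let A)),
        Adm T (m + 1) (p₀ :: (π ++ ω)) → (π ++ ω).length ≤ L → ∃ φ, V.Ctrl F φ ∧ ∀ G g z,
          ‖Gf T (update G m g) m z (lb (update G m g) m p₀ * ev (update G m g) π) ω‖ ≤
            ‖z‖ * φ G g := by
      intro p₀ h₀ ω
      induction ω with
      | nil => exact fun _ _ _ => ⟨_, c0, fun _ _ _ => by simp [Gf]⟩
      | cons p ω ih' =>
        intro π hadm hl
        obtain ⟨φ, hφ, h⟩ := ih' (π ++ [p]) (by simpa using hadm) (by simpa using hl)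
        obtain ⟨C, hC, hb⟩ := exists_bound m ω
        have : ∃ φ', V.Ctrl F φ' ∧ ∀ G g, ‖sg m p‖ * ‖T.τ (lb (update G m g) m p₀ *
            ev (update G m g) π * la (update G m g) m p)‖ ≤ φ' G g := by
          by_cases hp : p.2.1 = m
          · rcases inner_cases hadm h₀ hp with h1 | ⟨ω', h1, h2, h3⟩
            · exact ⟨_, c0, fun G g => by simp [h1]⟩
            · refine ⟨_, ih ω' h1 (by simp at hl; omega), fun G g => ?_⟩
              rw [h3]
              exact mul_le_of_le_one_left (norm_nonneg _) (norm_sg m p)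
          · exact ⟨_, c0, fun G g => by simp [sg, hp]⟩
        obtain ⟨φ', hφ', h'⟩ := this
        refine ⟨_, hφ.add hφ' C, fun G g z => ?_⟩
        have e1 := h G g z
        rw [ev_append, ev, ev, mul_one, ← la_mul_lb _ m, ← mul_assoc] at e1
        rw [Gf, mul_add]
        refine (norm_add_le _ _).trans (add_le_add e1 ?_)
        have e2 : ‖T.τ (lb (update G m g) m p * ev (update G m g) ω * z)‖ ≤ 1 * C * ‖z‖ :=
          (T.norm_τ_le _).trans (norm_mul_le_of_le (norm_mul_le_of_le (norm_lb _ _ _)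
            (hb _ 0 0 (by simp) (by simp)).1) le_rfl)
        rw [norm_mul, norm_mul, mul_left_comm]
        refine (mul_le_mul e2 (h' G g) (by positivity) (by positivity)).trans_eq (by ring)
    have hG2 : ∀ ω : List (Let A), (ω = [] ∨ Adm T (m + 1) ω) → ω.length ≤ L + 1 →
        ∃ φ, V.Ctrl F φ ∧ ∀ G g z, ‖G2 T (update G m g) m z ω‖ ≤ ‖z‖ * φ G g ∧ 0 ≤ φ G g := by
      intro ω
      induction ω with
      | nil => exact fun _ _ => ⟨_, c0, fun _ _ _ => by simp [G2]⟩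
      | cons p ω ih' =>
        intro hadm hl
        have hadm : Adm T (m + 1) (p :: ω) := hadm.resolve_left (by simp)
        obtain ⟨φ, hφ, h⟩ := ih' (by
          by_cases h : ω = []
          · exact .inl h
          · exact .inr ⟨h, hadm.2.1.tail, fun q hq => hadm.2.2 q (by simp [hq])⟩)
          (by simp at hl; omega)
        have : ∃ φ', V.Ctrl F φ' ∧ ∀ G g z, ‖sg m p‖ *
            ‖Gf T (update G m g) m z (lb (update G m g) m p) ω‖ ≤ ‖z‖ * |φ' G g| := by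
          by_cases hp : p.2.1 = m
          · obtain ⟨φ', hφ', h'⟩ := hGf p hp ω [] hadm (by simpa using hl)
            refine ⟨_, hφ', fun G g z => ?_⟩
            have := h' G g z
            rw [ev, mul_one] at this
            refine (mul_le_of_le_one_left (norm_nonneg _) (norm_sg m p)).trans (this.trans ?_)
            gcongr
            exact le_abs_self _
          · exact ⟨_, c0, fun G g z => by simp [sg, hp]⟩
        obtain ⟨φ', hφ', h'⟩ := this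
        have hφ'' : V.Ctrl F fun G g => |φ' G g| := by simpa [Avg.Ctrl] using hφ'
        refine ⟨_, (c0.add hφ ‖p.1‖).add hφ'' ‖p.1‖, fun G g z => ⟨?_, ?_⟩⟩
        · have e0 := (h G g z).2
          have e1 : ‖z * (la (update G m g) m p * lb (update G m g) m p)‖ ≤ ‖z‖ * (‖p.1‖ * 1) :=
            norm_mul_le_of_le le_rfl (norm_mul_le_of_le (norm_la _ _ _) (norm_lb _ _ _))
          have e2 : ‖z * la (update G m g) m p‖ ≤ ‖z‖ * ‖p.1‖ :=
            norm_mul_le_of_le le_rfl (norm_la _ _ _)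
          rw [G2]
          refine (norm_add_le _ _).trans ?_
          rw [norm_mul]
          have e3 := (h G g _).1.trans (mul_le_mul_of_nonneg_right e1 e0)
          have e4 := (h' G g _).trans (mul_le_mul_of_nonneg_right e2 (abs_nonneg _))
          linarith
        · have := (h G g z).2
          positivity
    intro ω hadm hl
    by_cases hω : ∃ p ∈ ω, p.2.1 = m
    · obtain ⟨φ, hφ, h⟩ := hG2 ω (.inr hadm) hl
      exact hφ.of_drift (drift_word m hω fun G g => (h G g 1).1.trans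
        (mul_le_of_le_one_left (h G g 1).2 (norm_unitary_le (one_mem _))))
    · push Not at hω
      have h1 := hF ω ⟨hadm.1, hadm.2.1, fun p hp => by
        have := hadm.2.2 p hp
        have := hω p hp
        omega⟩
      have h2 := Avg.Ctrl.of_null (V := V) (tendsto_zero_iff_norm_tendsto_zero.mp h1)
      have h3 : ∀ (G : ℕ → unitary A) g, ev (update G m g) ω = ev G ω := fun G g =>
        ev_congr fun p hp => update_of_ne (hω p hp) _ _
      simpa only [h3] using h2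

/-- The coset representatives. -/
def cc (v : unitary A) (G : ℕ → unitary A) : ℕ → unitary A
  | 0 => 1
  | j + 1 => G j * v

include V in
theorem exists_free (v : unitary A) (m : ℕ) : ∃ F : Filter (ℕ → unitary A), F.NeBot ∧
    (∀ᶠ G in F, ∀ j < m, star (cc v G j : A) * G j ∈ Q) ∧
      ∀ ω, Adm T m ω → Tendsto (fun G => T.τ (ev G ω)) F (𝓝 0) := by
  induction m with
  | zero =>
    refine ⟨⊤, inferInstance, by simp, fun ω h => ?_⟩
    obtain ⟨p, hp⟩ := List.exists_mem_of_ne_nil ω h.1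
    exact absurd (h.2.2 p hp) (by simp)
  | succ m ih =>
    obtain ⟨F, hF, h1, h2⟩ := ih
    let J := {x : Set (ℕ → unitary A) × ((ℕ → unitary A) → unitary A → ℝ) × ℝ //
      x.1 ∈ F ∧ V.Lyap F x.2.1 ∧ 0 < x.2.2}
    let S : J → Set ((ℕ → unitary A) × unitary A) := fun x =>
      {y | y.1 ∈ x.1.1 ∧ star (cc v y.1 m : A) * y.2 ∈ Q ∧ x.1.2.1 y.1 y.2 < x.1.2.2}
    have hne : (⨅ x, 𝓟 (S x)).NeBot := by
      refine iInf_neBot_of_directed ?_ fun x => principal_neBot_iff.mpr ?_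
      · rintro ⟨⟨s, Ψ, ε⟩, hs, hΨ, hε⟩ ⟨⟨s', Ψ', ε'⟩, hs', hΨ', hε'⟩
        refine ⟨⟨⟨s ∩ s', _, min ε ε'⟩, inter_mem hs hs', hΨ.add hΨ', lt_min hε hε'⟩,
          principal_mono.mpr ?_, principal_mono.mpr ?_⟩
        · rintro y ⟨a, b, c⟩
          exact ⟨a.1, b, by linarith [hΨ'.1 y.1 y.2, min_le_left ε ε']⟩
        · rintro y ⟨a, b, c⟩
          exact ⟨a.2, b, by linarith [hΨ.1 y.1 y.2, min_le_right ε ε']⟩
      · obtain ⟨⟨s, Ψ, ε⟩, hs, ⟨-, ρ, hρ, η, hη, hΨ⟩, hε⟩ := x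
        obtain ⟨G, hG, hG'⟩ := (Eventually.and hs
          (hη.eventually (gt_mem_nhds (by positivity : 0 < ρ * ε / 2)))).exists
        obtain ⟨g, hg, hg'⟩ := hΨ.exists_lt hρ (cc v G m) hε hG'
        exact ⟨(G, g), hG, hg, hg'⟩
    have hS : ∀ x, S x ∈ ⨅ x, 𝓟 (S x) := fun x => mem_iInf_of_mem x (mem_principal_self _)
    refine ⟨map (fun y => update y.1 m y.2) (⨅ x, 𝓟 (S x)), inferInstance, ?_, fun ω hω => ?_⟩
    · rw [eventually_map]
      filter_upwards [hS ⟨⟨_, _, 1⟩, h1, V.lyap_zero, one_pos⟩] with y hy j hj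
      have e1 : cc v (update y.1 m y.2) j = cc v y.1 j := by
        cases j with
        | zero => rfl
        | succ j => simp only [cc]; rw [update_of_ne (by omega)]
      rw [e1]
      rcases Nat.lt_succ_iff_lt_or_eq.mp hj with hj | rfl
      · rw [update_of_ne hj.ne]
        exact hy.1 j hj
      · rw [update_self]
        exact hy.2.1
    · obtain ⟨Ψ, hΨ, C, hC, η, hη, h⟩ := ctrl_adm (V := V) h2 _ ω hω le_rfl
      rw [tendsto_map'_iff, Metric.tendsto_nhds]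
      intro ε hε
      have hε1 : 0 < ε ^ 2 / 2 := by positivity
      have hε2 : 0 < ε ^ 2 / (2 * (C + 1)) := by positivity
      filter_upwards [hS ⟨⟨_, _, _⟩, hη.eventually (gt_mem_nhds hε1), hΨ, hε2⟩] with y hy
      rw [dist_zero_right]
      refine lt_of_pow_lt_pow_left₀ 2 hε.le ?_
      have e1 := h y.1 y.2
      have e2 : η y.1 < ε ^ 2 / 2 := hy.1
      have e3 : Ψ y.1 y.2 < ε ^ 2 / (2 * (C + 1)) := hy.2.2
      rw [lt_div_iff₀ (by positivity)] at e3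
      have e4 := hΨ.1 y.1 y.2
      simp only [comp_apply]
      nlinarith

end Vale.Agent.P085
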