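import Vale.Agent.P085.Step
import Mathlib.Topology.Baire.CompleteMetrizable
import Mathlib.Topology.Baire.Lemmas
import Mathlib.Topology.Algebra.StarSubalgebra
import Mathlib.Analysis.CStarAlgebra.ContinuousFunctionalCalculus.Range

/-! Generic unitaries generate. -/

namespace Vale.Agent.P085

open scoped Topology ComplexStarModule
open Filter

variable {A : Type*} [CStarAlgebra A] {T : Tr A} {Q : StarSubalgebra ℂ A}

lemma Tr.re_mul_nonneg [PartialOrder A] [StarOrderedRing A] (T : Tr A) {a b : A} (ha : 0 ≤ a)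
    (hb : 0 ≤ b) : 0 ≤ (T.τ (a * b)).re := by
  obtain ⟨s, rfl⟩ := CStarAlgebra.nonneg_iff_eq_star_mul_self.mp ha
  rw [mul_assoc, T.comm]
  exact T.re_nonneg (star_right_conjugate_nonneg hb s)

lemma Tr.n2_sub_realPart (T : Tr A) {c : A} (hc : star c = c) (y : A) :
    T.n2 (c - ℜ y) ≤ T.n2 (c - y) := by
  have : c - ℜ y = (2⁻¹ : ℂ) • ((c - y) + star (c - y)) := by
    rw [realPart_apply_coe, star_sub, hc, ← Complex.coe_smul]
    push_cast
    module
  rw [this, T.n2_smul]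
  have := T.n2_add_le (c - y) (star (c - y))
  rw [T.n2_star] at this
  rw [norm_inv, Complex.norm_ofNat]
  linarith

lemma realPart_mem {N : StarSubalgebra ℂ A} {y : A} (hy : y ∈ N) : (ℜ y : A) ∈ N := by
  rw [realPart_apply_coe, ← Complex.coe_smul]
  exact N.smul_mem (add_mem hy (star_mem hy)) _

lemma exists_clamp {N : StarSubalgebra ℂ A} (hN : IsClosed (N : Set A)) {c y : A}
    (hc : star c = c) (hy : y ∈ N) :
    ∃ z ∈ N, star z = z ∧ ‖z‖ ≤ ‖c‖ ∧ T.n2 (c - z) ≤ T.n2 (c - y) := by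
  let _ := CStarAlgebra.spectralOrder A
  have _ := CStarAlgebra.spectralOrderedRing A
  set r := ‖c‖
  have hr : 0 ≤ r := norm_nonneg _
  set x : A := ((ℜ y : selfAdjoint A) : A)
  have hx : IsSelfAdjoint x := (ℜ y).2
  set z := cfc (fun t : ℝ => max (-r) (min t r)) x with hz
  set p := cfc (fun t : ℝ => max (t - r) 0) x with hp
  set q := cfc (fun t : ℝ => max (-r - t) 0) x with hq
  have hzs : IsSelfAdjoint z := cfc_predicate _ _
  refine ⟨z, cfc_mem (𝕜' := ℂ) _ (realPart_mem hy), hzs, norm_cfc_le hr fun t _ => ?_,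
    le_trans ?_ (T.n2_sub_realPart hc y)⟩
  · rw [Real.norm_eq_abs, abs_le]
    exact ⟨le_max_left _ _, max_le (by linarith) (min_le_right _ _)⟩
  · have e1 : x - z = p - q := by
      conv_lhs => rw [← cfc_id' ℝ x]
      rw [← cfc_sub .., ← cfc_sub ..]
      exact cfc_congr fun t _ => by grind
    have e2 : z * p = r • p := by
      rw [← cfc_mul .., ← cfc_const_mul ..]
      exact cfc_congr fun t _ => by
        rcases le_total t r with h | h
        · simp [h]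
        · simp [h, hr]
    have e3 : z * q = (-r) • q := by
      rw [← cfc_mul .., ← cfc_const_mul ..]
      exact cfc_congr fun t _ => by
        rcases le_total t (-r) with h | h
        · simp [h]
        · simp [h]
    have hc' : IsSelfAdjoint c := hc
    have f1 := T.re_mul_nonneg (sub_nonneg.mpr hc'.le_algebraMap_norm_self)
      (cfc_nonneg (a := x) (f := fun t : ℝ => max (t - r) 0) fun t _ => le_max_right _ _)
    have f2 := T.re_mul_nonneg (sub_nonneg.mpr hc'.neg_algebraMap_norm_le_self)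
      (cfc_nonneg (a := x) (f := fun t : ℝ => max (-r - t) 0) fun t _ => le_max_right _ _)
    have e4 : star (c - z) * (x - z) = -((algebraMap ℝ A r - c) * p) -
        (c - -algebraMap ℝ A r) * q := by
      rw [star_sub, hc, hzs.star_eq, e1, sub_mul, mul_sub z, e2, e3,
        Algebra.algebraMap_eq_smul_one]
      simp only [sub_mul, mul_sub, neg_mul, smul_mul_assoc, one_mul]
      module
    have e5 := T.n2_sub_sq (c - z) (x - z)
    rw [e4, map_sub, map_neg, Complex.sub_re, Complex.neg_re, sub_sub_sub_cancel_right] at e5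
    refine abs_le_of_sq_le_sq' ?_ (T.n2_nonneg _) |>.2
    nlinarith [sq_nonneg (T.n2 (x - z))]

lemma exists_follow (v : unitary A) {y : A}
    (hy : y ∈ StarAlgebra.adjoin ℂ (insert (v : A) (Q : Set A))) : ∃ f : unitary A → A,
      (∀ v' : unitary A, f v' ∈ StarAlgebra.adjoin ℂ (insert (v' : A) (Q : Set A))) ∧ (∃ C, ∀ v', ‖f v'‖ ≤ C) ∧
      Tendsto (fun v' : unitary A => T.n2 (y - f v')) (comap (fun v' : unitary A => T.n2 (v' - v)) (𝓝 0))
        (𝓝 0) := by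
  induction hy using StarAlgebra.adjoin_induction with
  | mem x hx =>
    rcases hx with rfl | hx
    · exact ⟨fun v' => v', fun v' => StarAlgebra.subset_adjoin _ _ (.inl rfl),
        ⟨1, fun v' => norm_unitary_le v'.2⟩, by
          simpa only [T.n2_sub_rev (v : A)] using tendsto_comap⟩
    · exact ⟨fun _ => x, fun v' => StarAlgebra.subset_adjoin _ _ (.inr hx), ⟨_, fun _ => le_rfl⟩,
        by simpa [T.n2_zero] using tendsto_const_nhds⟩
  | algebraMap r =>
    exact ⟨fun _ => _, fun v' => algebraMap_mem _ r, ⟨_, fun _ => le_rfl⟩,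
      by simpa [T.n2_zero] using tendsto_const_nhds⟩
  | add a b _ _ ha hb =>
    obtain ⟨f, f1, ⟨C, f2⟩, f3⟩ := ha
    obtain ⟨g, g1, ⟨D, g2⟩, g3⟩ := hb
    refine ⟨fun v' => f v' + g v', fun v' => add_mem (f1 v') (g1 v'),
      ⟨C + D, fun v' => norm_add_le_of_le (f2 v') (g2 v')⟩,
      squeeze_zero (fun _ => T.n2_nonneg _) (fun v' => ?_) (by simpa using f3.add g3)⟩
    rw [add_sub_add_comm]
    exact T.n2_add_le _ _
  | mul a b _ _ ha hb =>
    obtain ⟨f, f1, ⟨C, f2⟩, f3⟩ := ha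
    obtain ⟨g, g1, ⟨D, g2⟩, g3⟩ := hb
    refine ⟨fun v' => f v' * g v', fun v' => mul_mem (f1 v') (g1 v'),
      ⟨C * D, fun v' => norm_mul_le_of_le (f2 v') (g2 v')⟩,
      squeeze_zero (fun _ => T.n2_nonneg _) (fun v' => ?_)
        (by simpa using (f3.mul_const ‖b‖).add (g3.const_mul C))⟩
    rw [show a * b - f v' * g v' = (a - f v') * b + f v' * (b - g v') by noncomm_ring]
    exact (T.n2_add_le _ _).trans (add_le_add (T.n2_mul_le' _ _) ((T.n2_mul_le _ _).trans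
      (mul_le_mul_of_nonneg_right (f2 v') (T.n2_nonneg _))))
  | star a _ ha =>
    obtain ⟨f, f1, ⟨C, f2⟩, f3⟩ := ha
    exact ⟨fun v' => star (f v'), fun v' => star_mem (f1 v'), ⟨C, by simpa using f2⟩,
      by simpa only [← star_sub, T.n2_star] using f3⟩

variable (Q) in
/-- The C*-algebra generated by `Q` and `v`. -/
noncomputable def CV (v : unitary A) : StarSubalgebra ℂ A :=
  (StarAlgebra.adjoin ℂ (insert (v : A) (Q : Set A))).topologicalClosure

lemma follow (v : unitary A) {y : A} (hy : y ∈ CV Q v) {ε : ℝ} (hε : 0 < ε) :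
    ∃ δ > 0, ∀ v' : unitary A, T.n2 (v' - v) < δ → ∃ y' ∈ CV Q v', T.n2 (y - y') < ε := by
  obtain ⟨y₀, h₀, h₁⟩ := Metric.mem_closure_iff.mp hy _ (half_pos hε)
  obtain ⟨f, f1, -, f3⟩ := exists_follow (T := T) v h₀
  obtain ⟨s, hs, hs'⟩ := mem_comap.mp (f3.eventually (gt_mem_nhds (half_pos hε)))
  obtain ⟨δ, hδ, hδ'⟩ := Metric.mem_nhds_iff.mp hs
  refine ⟨δ, hδ, fun v' hv' => ⟨f v', StarSubalgebra.le_topologicalClosure _ (f1 v'), ?_⟩⟩
  have h2 : T.n2 (y₀ - f v') < ε / 2 := hs' (hδ' (by simpa [abs_of_nonneg (T.n2_nonneg _)]))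
  rw [dist_eq_norm] at h₁
  linarith [T.n2_triangle y y₀ (f v'), T.n2_le_norm (y - y₀)]

lemma exists_near (V : Avg T Q) {c : A} (hc : star c = c) (hc1 : ‖c‖ ≤ 1 / 4) (v₀ : unitary A)
    {δ ε : ℝ} (hδ : 0 < δ) (hε : 0 < ε) :
    ∃ v : unitary A, T.n2 (v - v₀) < δ ∧ ∃ y ∈ CV Q v, T.n2 (c - y) < ε := by
  by_contra! H
  set S := {r | ∃ v : unitary A, T.n2 (v - v₀) < δ ∧ ∃ y ∈ CV Q v, r = T.n2 (c - y) ^ 2}
  have hS : S.Nonempty := ⟨_, v₀, by simpa [T.n2_zero], 0, zero_mem _, rfl⟩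
  have hb : BddBelow S := ⟨0, by rintro _ ⟨v, -, y, -, rfl⟩; positivity⟩
  set γ := ε ^ 4 / 5000 with hγ
  have hγ0 : 0 < γ := by positivity
  obtain ⟨_, ⟨v, hv, y, hy, rfl⟩, h1⟩ := exists_lt_of_csInf_lt hS
    (lt_add_of_pos_right (sInf S) (by positivity : 0 < γ ^ 2 / 2))
  obtain ⟨z, hz, hzs, hz1, hz2⟩ := exists_clamp (T := T)
    (StarSubalgebra.isClosed_topologicalClosure _) hc hy
  set a := T.τ (c - z) with ha
  have hx : star (c - z) = c - z := by rw [star_sub, hc, hzs]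
  have ha' : (a.re : ℂ) = a := Complex.ext rfl (T.im_τ_sa hx).symm
  have hx1 : ‖c - z‖ ≤ 1 / 2 := by linarith [norm_sub_le c z]
  set k := c - z - a • 1 with hk
  have hk0 : T.τ k = 0 := by rw [hk, map_sub, map_smul, T.one, ← ha]; simp
  have hks : star k = k := by
    rw [hk, star_sub, hx, star_smul, star_one, ← ha', Complex.star_def, Complex.conj_ofReal]
  have hk1 : ‖k‖ ≤ 1 := by
    have e1 := norm_sub_le (c - z) (a • 1)
    have e2 : ‖a • (1 : A)‖ ≤ ‖a‖ := by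
      rw [norm_smul]; exact mul_le_of_le_one_right (norm_nonneg _) (norm_unitary_le (one_mem _))
    linarith [T.norm_τ_le (c - z)]
  have hk2 : T.n2 k ^ 2 ≤ T.n2 (c - y) ^ 2 := by
    have e1 := T.n2_sub_sq (c - z) (a • 1)
    rw [T.n2_smul, T.n2_one, hx, mul_smul_comm, mul_one, map_smul, ← ha, ← ha', smul_eq_mul,
      ← Complex.ofReal_mul, Complex.ofReal_re, Complex.norm_real, mul_one, Real.norm_eq_abs,
      sq_abs, ha'] at e1
    have := T.n2_nonneg (c - z)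
    nlinarith [sq_nonneg a.re]
  have hy1 : z + a • 1 ∈ CV Q v := add_mem hz ((CV Q v).smul_mem (one_mem _) _)
  have hk3 : ε ≤ T.n2 k := by simpa [hk, sub_sub] using H v hv _ hy1
  obtain ⟨δ', hδ', h2⟩ := follow (T := T) v hy1 (by positivity : 0 < γ ^ 2 / 8)
  obtain ⟨v', hv', w, hw, hw1, hw2⟩ := one_step V v hks hk0 hk1
    (lt_min hδ' (sub_pos.mpr hv)) (hε.trans_le hk3)
  obtain ⟨y', hy', h3⟩ := h2 v' (hv'.trans_le (min_le_left _ _))
  have h4 : sInf S ≤ T.n2 (c - (y' + (γ : ℂ) • w)) ^ 2 := csInf_le hb ⟨v', by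
    linarith [T.n2_triangle (v' : A) v v₀, min_le_right δ' (δ - T.n2 (v - v₀))], _,
    add_mem hy' ((CV Q v').smul_mem (StarSubalgebra.le_topologicalClosure _ hw1) _), rfl⟩
  have h5 := T.n2_sub_sq k ((γ : ℂ) • w)
  have h6 : T.n2 w = 1 := by simpa [T.n2_one] using T.n2_unitary_mul hw 1
  rw [T.n2_smul, h6, hks, mul_smul_comm, map_smul, smul_eq_mul, Complex.re_ofReal_mul,
    Complex.norm_real, Real.norm_of_nonneg hγ0.le] at h5
  have h7 : γ ≤ (T.τ (k * w)).re := le_trans (by rw [hγ]; gcongr) hw2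
  have h8 := T.n2_add_le (k - (γ : ℂ) • w) (z + a • 1 - y')
  rw [show k - (γ : ℂ) • w + (z + a • 1 - y') = c - (y' + (γ : ℂ) • w) by rw [hk]; abel] at h8
  have h9 : T.n2 k ≤ 1 := (T.n2_le_norm _).trans hk1
  have h10 : γ ≤ 1 := by rw [hγ]; linarith [pow_le_one₀ (n := 4) hε.le (hk3.trans h9)]
  have h11 : T.n2 (k - (γ : ℂ) • w) ^ 2 ≤ T.n2 k ^ 2 - γ ^ 2 := by nlinarith
  have h12 : T.n2 (k - (γ : ℂ) • w) ≤ 1 := by
    refine abs_le_of_sq_le_sq' ?_ zero_le_one |>.2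
    nlinarith [T.n2_nonneg k]
  have h13 : T.n2 (c - (y' + (γ : ℂ) • w)) ^ 2 ≤ (T.n2 (k - (γ : ℂ) • w) + γ ^ 2 / 8) ^ 2 := by
    have := T.n2_nonneg (c - (y' + (γ : ℂ) • w))
    gcongr
    linarith
  have h14 : γ ^ 2 ≤ 1 := pow_le_one₀ hγ0.le h10
  have h15 : 0 < γ ^ 2 := by positivity
  nlinarith

/-- Bounded sets are complete in the 2-norm. -/
def Tr.Complete (T : Tr A) : Prop := ∀ (x : ℕ → A) (R : ℝ), (∀ n, ‖x n‖ ≤ R) →
  CauchySeq (fun n => T.to2 (x n)) → ∃ y, Tendsto (fun n => T.n2 (x n - y)) atTop (𝓝 0)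

/-- Closed under bounded 2-norm limits. -/
def Tr.Closed (T : Tr A) (N : Set A) : Prop := ∀ (x : ℕ → A) (R : ℝ) (y : A),
  (∀ n, x n ∈ N ∧ ‖x n‖ ≤ R) → Tendsto (fun n => T.n2 (x n - y)) atTop (𝓝 0) → y ∈ N

lemma Tr.Closed.isClosed {N : Set A} (h : T.Closed N) : IsClosed N := by
  refine isSeqClosed_iff_isClosed.mp fun x y hx hy => ?_
  obtain ⟨R, hR⟩ := hy.norm.bddAbove_range
  exact h x R y (fun n => ⟨hx n, hR ⟨n, rfl⟩⟩) (squeeze_zero (fun _ => T.n2_nonneg _)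
    (fun _ => T.n2_le_norm _) (tendsto_iff_norm_sub_tendsto_zero.mp hy))

lemma Tr.lim_mul (hf : ∀ a, T.n2 a = 0 → a = 0) {x x' : ℕ → A} {R : ℝ} {y y' z : A}
    (hx : ∀ n, ‖x n‖ ≤ R) (h : Tendsto (fun n => T.n2 (x n - y)) atTop (𝓝 0))
    (h' : Tendsto (fun n => T.n2 (x' n - y')) atTop (𝓝 0))
    (h'' : Tendsto (fun n => T.n2 (x n * x' n - z)) atTop (𝓝 0)) : y * y' = z := by
  refine sub_eq_zero.mp (hf _ (le_antisymm (ge_of_tendsto' (by
    simpa using ((h.mul_const ‖y'‖).add (h'.const_mul R)).add h'') fun n => ?_) (T.n2_nonneg _)))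
  rw [show y * y' - z = x n * x' n - z - ((x n - y) * y' + x n * (x' n - y')) by noncomm_ring]
  linarith [T.n2_sub_le (x n * x' n - z) ((x n - y) * y' + x n * (x' n - y')),
    T.n2_add_le ((x n - y) * y') (x n * (x' n - y')), T.n2_mul_le' (x n - y) y',
    T.n2_mul_le (x n) (x' n - y'), mul_le_mul_of_nonneg_right (hx n) (T.n2_nonneg (x' n - y'))]

/-- The unitary group with the 2-metric. -/
structure UT (T : Tr A) where
  u : unitary A

noncomputable instance : PseudoMetricSpace (UT T) :=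
  PseudoMetricSpace.induced (fun u => T.to2 u.u) inferInstance

lemma UT.dist_eq (u v : UT T) : dist u v = T.n2 (u.u - v.u) := by
  rw [Tr.n2, map_sub, ← dist_eq_norm]; rfl

theorem exists_gen (V : Avg T Q) (hf : ∀ a, T.n2 a = 0 → a = 0) (hc : T.Complete)
    (hs : ∃ c : ℕ → A, DenseRange fun n => T.to2 (c n)) : ∃ v ∈ unitary A,
      ∀ N : StarSubalgebra ℂ A, T.Closed N → Q ≤ N → v ∈ N → N = ⊤ := by
  have : CompleteSpace (UT T) := Metric.complete_of_cauchySeq_tendsto fun u hu => by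
    obtain ⟨y, hy⟩ := hc (fun n => (u n).u) 1 (fun n => norm_unitary_le (u n).u.2)
      ((uniformContinuous_comap (f := fun u : UT T => T.to2 u.u)).comp_cauchySeq hu)
    have hy' : Tendsto (fun n => T.n2 (star ((u n).u : A) - star y)) atTop (𝓝 0) := by
      simpa only [← star_sub, T.n2_star] using hy
    refine ⟨⟨y, Tr.lim_mul hf (fun n => norm_unitary_le (Unitary.star_mem (u n).u.2)) hy' hy
      (by simp [T.n2_zero]), Tr.lim_mul hf (fun n => norm_unitary_le (u n).u.2) hy hy'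
      (by simp [T.n2_zero])⟩, tendsto_iff_dist_tendsto_zero.mpr (hy.congr fun n => ?_)⟩
    rw [UT.dist_eq]
  obtain ⟨c, hcd⟩ := hs
  let d : ℕ × Bool → A := fun p => if p.2 then ℜ (c p.1) else ℑ (c p.1)
  have hd : ∀ p, star (d p) = d p := by
    rintro ⟨n, _ | _⟩
    · exact (ℑ (c n)).2
    · exact (ℜ (c n)).2
  let O : (ℕ × Bool) × ℕ → Set (UT T) := fun p => {v | ∃ y ∈ CV Q v.u,
    T.n2 (((4 * ‖d p.1‖ + 1 : ℝ) : ℂ)⁻¹ • d p.1 - y) < 1 / (p.2 + 1)}
  have hO : Dense (⋂ p, O p) := by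
    refine dense_iInter_of_isOpen (fun p => Metric.isOpen_iff.mpr ?_) fun p =>
      Metric.dense_iff.mpr fun v δ hδ => ?_
    · rintro v ⟨y, hy, h⟩
      obtain ⟨δ, hδ, h'⟩ := follow (T := T) v.u hy (sub_pos.mpr h)
      refine ⟨δ, hδ, fun v' hv' => ?_⟩
      obtain ⟨y', hy', h''⟩ := h' v'.u ((UT.dist_eq _ _).symm.trans_lt hv')
      exact ⟨y', hy', by linarith [T.n2_triangle (((4 * ‖d p.1‖ + 1 : ℝ) : ℂ)⁻¹ • d p.1) y y']⟩
    · obtain ⟨v', h1, h2⟩ := exists_near V (c := ((4 * ‖d p.1‖ + 1 : ℝ) : ℂ)⁻¹ • d p.1)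
        (by rw [star_smul, hd, Complex.star_def, map_inv₀, Complex.conj_ofReal]) (by
          rw [norm_smul, norm_inv, Complex.norm_real, Real.norm_of_nonneg (by positivity),
            inv_mul_le_iff₀ (by positivity)]
          linarith) v.u hδ (Nat.one_div_pos_of_nat (n := p.2))
      exact ⟨⟨v'⟩, (UT.dist_eq _ _).trans_lt h1, h2⟩
  obtain ⟨⟨v⟩, hv⟩ := @Dense.nonempty _ _ _ ⟨⟨1⟩⟩ hO
  rw [Set.mem_iInter] at hv
  refine ⟨v.1, v.2, fun N hN hQ hvN => ?_⟩
  have h1 : CV Q v ≤ N := StarSubalgebra.topologicalClosure_minimal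
    (StarAlgebra.adjoin_le (Set.insert_subset hvN hQ)) hN.isClosed
  set K := (Submodule.map T.to2.toLinearMap N.toSubalgebra.toSubmodule).topologicalClosure
  have hK : ∀ a, T.to2 a ∈ K ↔ ∀ ε > 0, ∃ y ∈ N, T.n2 (a - y) < ε := fun a => by
    rw [← SetLike.mem_coe, Submodule.topologicalClosure_coe, Metric.mem_closure_iff]
    simp [dist_eq_norm, Tr.n2]
  have h2 : ∀ p, T.to2 (d p) ∈ K := fun p => by
    have : T.to2 (((4 * ‖d p‖ + 1 : ℝ) : ℂ)⁻¹ • d p) ∈ K := (hK _).mpr fun ε hε => by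
      obtain ⟨n, hn⟩ := exists_nat_one_div_lt hε
      obtain ⟨y, hy, h⟩ := hv (p, n)
      exact ⟨y, h1 hy, h.trans hn⟩
    rwa [map_smul, K.smul_mem_iff (by
      exact_mod_cast (by positivity : (4 * ‖d p‖ + 1 : ℝ)⁻¹ ≠ 0))] at this
  have h3 : ∀ a, T.to2 a ∈ K := fun a => by
    refine closure_minimal ?_ (Submodule.isClosed_topologicalClosure _) (hcd (T.to2 a))
    rintro _ ⟨n, rfl⟩
    have := K.add_mem (h2 (n, true)) (K.smul_mem Complex.I (h2 (n, false)))
    rwa [← map_smul, ← map_add, show d (n, true) + Complex.I • d (n, false) = c n from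
      realPart_add_I_smul_imaginaryPart _] at this
  have h4 : ∀ a, star a = a → a ∈ N := fun a ha => by
    choose y hy hy' using fun n : ℕ => (hK a).mp (h3 a) _ (Nat.one_div_pos_of_nat (n := n))
    choose z hz using fun n => exists_clamp (T := T) hN.isClosed ha (hy n)
    refine hN z ‖a‖ a (fun n => ⟨(hz n).1, (hz n).2.2.1⟩) (squeeze_zero (fun _ => T.n2_nonneg _)
      (fun n => ?_) tendsto_one_div_add_atTop_nhds_zero_nat)
    rw [T.n2_sub_rev]
    exact (hz n).2.2.2.trans (hy' n).le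
  rw [eq_top_iff]
  intro a _
  rw [← realPart_add_I_smul_imaginaryPart a]
  exact add_mem (h4 _ (ℜ a).2) (N.smul_mem (h4 _ (ℑ a).2) _)

end Vale.Agent.P085
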