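import Vale.Agent.P085.Free
import Mathlib.GroupTheory.FreeGroup.Reduce

/-! Vanishing of mixed moments. -/

namespace Vale.Agent.P085

open scoped Topology
open Filter

variable {A : Type*} [CStarAlgebra A] {T : Tr A} {M : ℕ}

/-- The representation of the free group. -/
noncomputable def rho (G : ℕ → unitary A) (β : FreeGroup (Fin M)) : A :=
  (FreeGroup.lift (fun a : Fin M => G a) β : unitary A)

lemma rho_mul (G : ℕ → unitary A) (β β' : FreeGroup (Fin M)) :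
    rho G (β * β') = rho G β * rho G β' := by simp [rho]

lemma rho_one (G : ℕ → unitary A) : rho G (1 : FreeGroup (Fin M)) = 1 := by simp [rho]

lemma rho_inv (G : ℕ → unitary A) (β : FreeGroup (Fin M)) : rho G β⁻¹ = star (rho G β) := by
  rw [rho, map_inv, ← Unitary.star_eq_inv]; rfl

lemma norm_rho (G : ℕ → unitary A) (β : FreeGroup (Fin M)) : ‖rho G β‖ ≤ 1 :=
  norm_unitary_le (SetLike.coe_mem _)

lemma ev_map (G : ℕ → unitary A) (L : List (Fin M × Bool)) :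
    ev G (L.map fun a => (1, a.1, a.2)) = rho G (FreeGroup.mk L) := by
  induction L with
  | nil => simp [ev, ← FreeGroup.one_eq_mk, rho_one]
  | cons a L ih =>
    rw [List.map_cons, ev, ih, ← List.singleton_append, ← FreeGroup.mul_mk, rho_mul, one_mul]
    congr 1
    obtain ⟨a, e⟩ := a
    cases e <;> simp [rho, pw, ← Unitary.star_eq_inv]

variable (T M) in
/-- Functions represented by admissible words. -/
def Rep (f : (ℕ → unitary A) → A) : Prop := ∃ ω, Adm T M ω ∧ ∀ G, ev G ω = f G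

lemma exists_word (y : A) {β : FreeGroup (Fin M)} (hβ : β ≠ 1) :
    ∃ p ω, Adm T M (p :: ω) ∧ p.1 = y ∧ ∀ G, ev G (p :: ω) = y * rho G β := by
  have h1 := FreeGroup.isReduced_toWord (x := β)
  have h2 := FreeGroup.mk_toWord (x := β)
  rcases h : β.toWord with _ | ⟨a, L⟩
  · exact absurd (FreeGroup.toWord_eq_nil_iff.mp h) hβ
  rw [h] at h1 h2
  refine ⟨(y, a.1, a.2), L.map fun a => (1, a.1, a.2), ⟨by simp, ?_, ?_⟩, rfl, fun G => ?_⟩
  · have : ((a :: L).map fun a : Fin M × Bool => ((1 : A), (a.1 : ℕ), a.2)).IsChain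
        fun p q => p.2.1 = q.2.1 → p.2.2 ≠ q.2.2 → T.τ q.1 = 0 := by
      rw [List.isChain_map]
      exact h1.imp fun a b h h' h'' => absurd (h (Fin.ext h')) h''
    cases L with
    | nil => simp
    | cons b L => simpa using this
  · simp only [List.mem_cons, List.mem_map]
    rintro p (rfl | ⟨b, -, rfl⟩)
    · exact a.1.2
    · exact b.1.2
  · rw [← h2, ← ev_map]
    simp [ev, mul_assoc]

lemma Rep.base (y : A) {β : FreeGroup (Fin M)} (hβ : β ≠ 1) : Rep T M fun G => y * rho G β := by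
  obtain ⟨p, ω, h, -, h'⟩ := exists_word (T := T) y hβ
  exact ⟨_, h, h'⟩

lemma Rep.mul {f : (ℕ → unitary A) → A} (hf : Rep T M f) {y : A} (hy : T.τ y = 0)
    {β : FreeGroup (Fin M)} (hβ : β ≠ 1) : Rep T M fun G => f G * (y * rho G β) := by
  obtain ⟨p, ω, h, hp, h'⟩ := exists_word (T := T) y hβ
  obtain ⟨ω₀, h₀, h₀'⟩ := hf
  refine ⟨ω₀ ++ p :: ω, ⟨by simp, List.isChain_append.mpr ⟨h₀.2.1, h.2.1, ?_⟩, fun q hq => ?_⟩,
    fun G => by rw [ev_append, h₀', h']⟩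
  · intro a _ b hb _ _
    simp only [List.head?_cons, Option.mem_def, Option.some.injEq] at hb
    rw [← hb, hp, hy]
  · exact (List.mem_append.mp hq).elim (h₀.2.2 q) (h.2.2 q)

variable {F : Filter (ℕ → unitary A)}
  (hF : ∀ ω, Adm T M ω → Tendsto (fun G => T.τ (ev G ω)) F (𝓝 0)) {k : A} (hk : T.τ k = 0)

include hF in
lemma Rep.tendsto {f : (ℕ → unitary A) → A} (hf : Rep T M f) :
    Tendsto (fun G => T.τ (f G)) F (𝓝 0) := by
  obtain ⟨ω, h, h'⟩ := hf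
  simpa only [h'] using hF ω h

include hF hk in
lemma four_aux {β₁ β₂ β₃ β₄ : FreeGroup (Fin M)} (h₁ : β₁ ≠ 1) (h₄ : β₄ ≠ 1) :
    Tendsto (fun G => T.τ (k * rho G β₁ * (k * rho G β₂) * (k * rho G β₃) * (k * rho G β₄))) F
      (𝓝 0) := by
  by_cases h₂ : β₂ = 1 <;> by_cases h₃ : β₃ = 1
  · refine (((Rep.base (k * k * k) h₄).mul hk h₁).tendsto hF).congr fun G => ?_
    rw [T.comm]
    simp [h₂, h₃, rho_one, mul_assoc]
  · refine ((((Rep.base (k * k) h₃).mul hk h₄).mul hk h₁).tendsto hF).congr fun G => ?_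
    rw [T.comm]
    simp [h₂, rho_one, mul_assoc]
  · refine ((((Rep.base (k * k) h₄).mul hk h₁).mul hk h₂).tendsto hF).congr fun G => ?_
    rw [mul_assoc, T.comm]
    simp [h₃, rho_one, mul_assoc]
  · exact ((((Rep.base k h₁).mul hk h₂).mul hk h₃).mul hk h₄).tendsto hF

include hF hk in
lemma four {β₁ β₂ β₃ β₄ : FreeGroup (Fin M)} (h₁ : β₁ ≠ 1 ∨ β₃ ≠ 1) (h₂ : β₂ ≠ 1 ∨ β₄ ≠ 1) :
    Tendsto (fun G => T.τ (k * rho G β₁ * (k * rho G β₂) * (k * rho G β₃) * (k * rho G β₄))) F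
      (𝓝 0) := by
  have cyc : ∀ {β₁ β₂ β₃ β₄ : FreeGroup (Fin M)}, Tendsto (fun G => T.τ (k * rho G β₂ *
      (k * rho G β₃) * (k * rho G β₄) * (k * rho G β₁))) F (𝓝 0) → Tendsto (fun G =>
        T.τ (k * rho G β₁ * (k * rho G β₂) * (k * rho G β₃) * (k * rho G β₄))) F (𝓝 0) :=
    fun h => h.congr fun G => by rw [T.comm]; simp only [mul_assoc]
  rcases h₁ with h₁ | h₁ <;> rcases h₂ with h₂ | h₂
  · exact cyc (four_aux hF hk h₂ h₁)
  · exact four_aux hF hk h₁ h₂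
  · exact cyc (cyc (four_aux hF hk h₁ h₂))
  · exact cyc (cyc (cyc (four_aux hF hk h₂ h₁)))

lemma quad_bound {X : Type*} (S : Finset X) (t : X → A) (e : X → X → ℝ)
    (u u' : X → X → ℂ) {κ η N : ℝ} (hκ : 0 ≤ κ) (hu : ∀ x y, ‖u x y‖ ≤ κ)
    (hu' : ∀ x y, ‖u' x y‖ ≤ κ) (he : ∀ x y, 0 ≤ e x y) (hN : ∑ x ∈ S, ∑ y ∈ S, e x y ≤ N)
    (h : ∀ x₁ ∈ S, ∀ x₂ ∈ S, ∀ x₃ ∈ S, ∀ x₄ ∈ S, ‖T.τ (t x₁ * t x₂ * (t x₃ * t x₄))‖ ≤
      e x₁ x₂ * e x₃ x₄ + e x₂ x₃ * e x₄ x₁ + η) :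
    ‖T.τ ((∑ x ∈ S, ∑ y ∈ S, u' x y • (t x * t y)) * ∑ x ∈ S, ∑ y ∈ S, u x y • (t x * t y))‖ ≤
      κ ^ 2 * (2 * N ^ 2 + S.card ^ 4 * η) := by
  set E := ∑ x ∈ S, ∑ y ∈ S, e x y with hE
  have hE0 : 0 ≤ E := Finset.sum_nonneg fun _ _ => Finset.sum_nonneg fun _ _ => he _ _
  have e1 : ∑ x₁ ∈ S, ∑ x₂ ∈ S, ∑ x₃ ∈ S, ∑ x₄ ∈ S, e x₁ x₂ * e x₃ x₄ = E ^ 2 := by
    simp only [← Finset.mul_sum, ← Finset.sum_mul, ← hE, sq]
  have e2 : ∑ x₁ ∈ S, ∑ x₂ ∈ S, ∑ x₃ ∈ S, ∑ x₄ ∈ S, e x₂ x₃ * e x₄ x₁ = E ^ 2 := by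
    simp only [← Finset.mul_sum, ← Finset.sum_mul, ← hE, sq]
    rw [Finset.sum_comm]
  calc _ ≤ ∑ x₁ ∈ S, ∑ x₂ ∈ S, ∑ x₃ ∈ S, ∑ x₄ ∈ S,
        κ ^ 2 * (e x₁ x₂ * e x₃ x₄ + e x₂ x₃ * e x₄ x₁ + η) := by
        simp only [Finset.sum_mul, map_sum]
        refine norm_sum_le_of_le _ fun x₁ h₁ => norm_sum_le_of_le _ fun x₂ h₂ => ?_
        simp only [Finset.mul_sum, map_sum]
        refine norm_sum_le_of_le _ fun x₃ h₃ => norm_sum_le_of_le _ fun x₄ h₄ => ?_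
        rw [smul_mul_smul_comm, map_smul, norm_smul, norm_mul, sq]
        exact mul_le_mul (mul_le_mul (hu' _ _) (hu _ _) (norm_nonneg _) hκ) (h _ h₁ _ h₂ _ h₃ _ h₄)
          (norm_nonneg _) (by positivity)
    _ = κ ^ 2 * (2 * E ^ 2 + S.card ^ 4 * η) := by
        simp only [← Finset.mul_sum _ _ (κ ^ 2)]
        simp only [Finset.sum_add_distrib, e1, e2, Finset.sum_const, nsmul_eq_mul]
        ring
    _ ≤ _ := by gcongr

end Vale.Agent.P085
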