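import Vale.Agent.P085.Factor

/-! Averaging over pairs of anticommuting symmetries. -/

namespace Vale.Agent.P085

open scoped Topology ComplexStarModule ComplexConjugate
open Filter

variable {A : Type*} [CStarAlgebra A] {T : Tr A} {X Z : A}

/-- Averaging over a symmetry. -/
noncomputable def avg (σ : A) : A →ₗ[ℂ] A :=
  (2⁻¹ : ℂ) • (LinearMap.id + LinearMap.mulLeftRight ℂ (σ, σ))

lemma avg_apply (σ y : A) : avg σ y = (2⁻¹ : ℂ) • (y + σ * y * σ) := rfl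

lemma sym_mem_unitary {σ : A} (h1 : star σ = σ) (h2 : σ * σ = 1) : σ ∈ unitary A :=
  ⟨by rw [h1, h2], by rw [h1, h2]⟩

lemma Tr.τ_conj (T : Tr A) {σ : A} (h2 : σ * σ = 1) (y : A) : T.τ (σ * y * σ) = T.τ y := by
  rw [T.comm, ← mul_assoc, h2, one_mul]

lemma Tr.τ_avg (T : Tr A) {σ : A} (h2 : σ * σ = 1) (y : A) : T.τ (avg σ y) = T.τ y := by
  rw [avg_apply, map_smul, map_add, T.τ_conj h2, smul_eq_mul]; ring

lemma Tr.n2_conj (T : Tr A) {σ : A} (h1 : star σ = σ) (h2 : σ * σ = 1) (y : A) :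
    T.n2 (σ * y * σ) = T.n2 y := by
  rw [T.n2_mul_unitary (sym_mem_unitary h1 h2), T.n2_unitary_mul (sym_mem_unitary h1 h2)]

lemma Tr.n2_avg_le (T : Tr A) {σ : A} (h1 : star σ = σ) (h2 : σ * σ = 1) (y : A) :
    T.n2 (avg σ y) ≤ T.n2 y := by
  rw [avg_apply, T.n2_smul, norm_inv, Complex.norm_ofNat]
  linarith [T.n2_add_le y (σ * y * σ), T.n2_conj h1 h2 y]

lemma Tr.n2_avg_sq (T : Tr A) {σ : A} (h1 : star σ = σ) (h2 : σ * σ = 1) (y : A) :
    T.n2 (avg σ y) ^ 2 = T.n2 y ^ 2 / 2 + (T.τ (star y * (σ * y * σ))).re / 2 := by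
  rw [avg_apply, T.n2_smul, mul_pow, T.n2_add_sq, T.n2_conj h1 h2]
  norm_num
  ring

lemma avg_one {σ : A} (h2 : σ * σ = 1) : avg σ 1 = 1 := by
  rw [avg_apply, mul_one, h2]; module

lemma avg_mem {N : StarSubalgebra ℂ A} {σ y : A} (hσ : σ ∈ N) (hy : y ∈ N) : avg σ y ∈ N :=
  N.smul_mem (add_mem hy (mul_mem (mul_mem hσ hy) hσ)) _

lemma Tr.τ_anti (T : Tr A) {σ y : A} (h2 : σ * σ = 1) (h : σ * y = -(y * σ)) : T.τ y = 0 := by
  have := T.τ_conj h2 y
  rw [h, neg_mul, mul_assoc, h2, mul_one, map_neg] at this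
  linear_combination (-2⁻¹ : ℂ) * this

/-- Averaging over a pair. -/
noncomputable def EP (X Z : A) : A →ₗ[ℂ] A := avg X ∘ₗ avg Z

lemma EP_apply (y : A) : EP X Z y = avg X (avg Z y) := rfl

namespace Pauli

lemma XX' (h : Pauli X Z) (y : A) : X * (X * y) = y := by rw [← mul_assoc, h.XX, one_mul]

lemma ZZ' (h : Pauli X Z) (y : A) : Z * (Z * y) = y := by rw [← mul_assoc, h.ZZ, one_mul]

lemma anti' (h : Pauli X Z) (y : A) : Z * (X * y) = -(X * (Z * y)) := by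
  rw [← mul_assoc, h.anti, neg_mul, mul_assoc]

lemma dec (h : Pauli X Z) (y : A) : y = EP X Z y + Z * EP X Z (Z * y) +
    X * (EP X Z (X * y) + Z * EP X Z (Z * (X * y))) := by
  simp only [EP_apply, avg_apply, mul_add, add_mul, mul_smul_comm, smul_mul_assoc, mul_assoc,
    h.XX', h.ZZ', h.anti', h.anti, mul_neg, neg_mul, neg_neg]
  module

lemma avg_eq (h : Pauli X Z) (y : A) : avg Z y = EP X Z y + Z * EP X Z (Z * y) := by
  simp only [EP_apply, avg_apply, mul_add, add_mul, mul_smul_comm, smul_mul_assoc, mul_assoc,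
    h.ZZ', h.anti', h.anti, mul_neg, neg_neg]
  module

lemma commX (h : Pauli X Z) (y : A) : X * EP X Z y = EP X Z y * X := by
  simp only [EP_apply, avg_apply, mul_add, add_mul, mul_smul_comm, smul_mul_assoc, mul_assoc,
    h.XX', h.XX, mul_one]
  module

lemma commZ (h : Pauli X Z) (y : A) : Z * EP X Z y = EP X Z y * Z := by
  simp only [EP_apply, avg_apply, mul_add, add_mul, mul_smul_comm, smul_mul_assoc, mul_assoc,
    h.ZZ', h.anti', h.anti, h.ZZ, mul_neg, neg_mul, neg_neg, mul_one]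
  module

lemma τ_EP (h : Pauli X Z) (y : A) : T.τ (EP X Z y) = T.τ y := by
  rw [EP_apply, T.τ_avg h.XX, T.τ_avg h.ZZ]

lemma n2_EP (h : Pauli X Z) (y : A) : T.n2 (EP X Z y) ≤ T.n2 y :=
  (T.n2_avg_le h.sX h.XX _).trans (T.n2_avg_le h.sZ h.ZZ _)

lemma EP_one (h : Pauli X Z) : EP X Z 1 = 1 := by rw [EP_apply, avg_one h.ZZ, avg_one h.XX]

end Pauli

lemma EP_eq {y : A} (h : Pauli X Z) (h1 : X * y = y * X) (h2 : Z * y = y * Z) : EP X Z y = y := by
  have : avg Z y = y := by rw [avg_apply, h2, mul_assoc, h.ZZ, mul_one]; module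
  rw [EP_apply, this, avg_apply, h1, mul_assoc, h.XX, mul_one]; module

/-- Block diagonal elements. -/
noncomputable def dg (Z a b : A) : A := (2⁻¹ : ℂ) • (a + b + Z * (a - b))

lemma dg_mul (hZ : Z * Z = 1) {a b : A} (c d : A) (ha : Z * a = a * Z) (hb : Z * b = b * Z) :
    dg Z a b * dg Z c d = dg Z (a * c) (b * d) := by
  have ha' : ∀ y, a * (Z * y) = Z * (a * y) := fun y => by rw [← mul_assoc, ← ha, mul_assoc]
  have hb' : ∀ y, b * (Z * y) = Z * (b * y) := fun y => by rw [← mul_assoc, ← hb, mul_assoc]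
  have hZ' : ∀ y, Z * (Z * y) = y := fun y => by rw [← mul_assoc, hZ, one_mul]
  simp only [dg, mul_add, add_mul, mul_sub, sub_mul, mul_smul_comm, smul_mul_assoc, mul_assoc, ha',
    hb', hZ']
  module

lemma dg_star (hZ : star Z = Z) {a b : A} (ha : Z * a = a * Z) (hb : Z * b = b * Z) :
    star (dg Z a b) = dg Z (star a) (star b) := by
  simp only [dg, mul_sub, ha, hb, star_smul, star_add, star_sub, star_mul, hZ]
  simp

lemma dg_self (a : A) : dg Z a a = a := by rw [dg, sub_self, mul_zero]; module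

lemma dg_comm {a b : A} (ha : Z * a = a * Z) (hb : Z * b = b * Z) :
    Z * dg Z a b = dg Z a b * Z := by
  simp only [dg, mul_add, add_mul, mul_sub, sub_mul, mul_smul_comm, smul_mul_assoc, mul_assoc,
    ← ha, ← hb]

lemma Pauli.mul_dg (h : Pauli X Z) {a b : A} (ha : X * a = a * X) (hb : X * b = b * X) :
    X * dg Z a b = dg Z b a * X := by
  simp only [dg, mul_add, add_mul, mul_sub, sub_mul, mul_smul_comm, smul_mul_assoc, mul_assoc,
    ← ha, ← hb, h.anti']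
  module

lemma Pauli.τ_dg (h : Pauli X Z) {a b : A} (ha : X * a = a * X) (hb : X * b = b * X) :
    T.τ (dg Z a b) = (T.τ a + T.τ b) / 2 := by
  have := T.τ_anti (y := Z * (a - b)) h.XX (by
    rw [mul_assoc, sub_mul, ← ha, ← hb, ← mul_sub, h.anti', neg_neg])
  rw [dg, map_smul, map_add, this, map_add, smul_eq_mul]; ring

lemma dg_mem {N : StarSubalgebra ℂ A} {a b : A} (hZ : Z ∈ N) (ha : a ∈ N) (hb : b ∈ N) :
    dg Z a b ∈ N := N.smul_mem (add_mem (add_mem ha hb) (mul_mem hZ (sub_mem ha hb))) _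

/-- Subfactors. -/
structure Good (T : Tr A) (N : StarSubalgebra ℂ A) : Prop where
  faithful : ∀ a, T.n2 a = 0 → a = 0
  complete : T.Complete
  closed : T.Closed N
  prime : ∀ a ∈ N, ∀ b ∈ N, (∀ x ∈ N, a * x * b = 0) → a = 0 ∨ b = 0
  infd : ∀ W : Submodule ℂ A, FiniteDimensional ℂ W → ∃ a ∈ N, a ∉ W
  rp : ∀ a ∈ N, star a = a → ∃ e ∈ N, IsStarProjection e ∧ ∀ y ∈ N, y * a = 0 ↔ y * e = 0

lemma II1.good (h : II1 T) : Good T ⊤ :=
  ⟨h.faithful, h.complete, fun _ _ _ _ _ => trivial, by simpa using h.prime, by simpa using h.infd,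
    by simpa using h.rp⟩

/-- Restriction of a trace. -/
noncomputable def Tr.res (T : Tr A) (N : StarSubalgebra ℂ A) [IsClosed (N : Set A)] : Tr N where
  τ := T.τ ∘ₗ N.subtype.toAlgHom.toLinearMap
  comm a b := T.comm a b
  pos a := T.pos a
  one := T.one

lemma Tr.res_n2 (T : Tr A) (N : StarSubalgebra ℂ A) [IsClosed (N : Set A)] (a : N) :
    (T.res N).n2 a = T.n2 a := by
  rw [← sq_eq_sq₀ (Tr.n2_nonneg _ _) (T.n2_nonneg _), T.n2_sq, Tr.n2_sq]
  rfl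

lemma Good.II1 {N : StarSubalgebra ℂ A} (h : Good T N) [IsClosed (N : Set A)] : II1 (T.res N) := by
  refine ⟨fun a ha => Subtype.ext (h.faithful a (by rwa [T.res_n2] at ha)), fun x R hx hc => ?_,
    fun a b hab => ?_, fun W hW => ?_, fun a ha => ?_⟩
  · obtain ⟨y, hy⟩ := h.complete (fun n => x n) R hx (by
      rw [Metric.cauchySeq_iff] at hc ⊢
      simp only [dist_eq_norm, ← map_sub] at hc ⊢
      exact fun ε hε => (hc ε hε).imp fun M hM m hm n hn =>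
        (T.res_n2 N (x m - x n)).symm.trans_lt (hM m hm n hn))
    refine ⟨⟨y, h.closed _ R y (fun n => ⟨(x n).2, hx n⟩) hy⟩, ?_⟩
    simp only [T.res_n2]
    exact hy
  · exact (h.prime a a.2 b b.2 fun x hx => congrArg Subtype.val (hab ⟨x, hx⟩)).imp Subtype.ext
      Subtype.ext
  · obtain ⟨a, ha, ha'⟩ := h.infd (W.map N.subtype.toAlgHom.toLinearMap) inferInstance
    exact ⟨⟨a, ha⟩, fun h => ha' ⟨_, h, rfl⟩⟩
  · obtain ⟨e, he, he1, he2⟩ := h.rp a a.2 (congrArg Subtype.val ha)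
    exact ⟨⟨e, he⟩, ⟨Subtype.ext he1.1, Subtype.ext he1.2⟩, fun y => by
      rw [Subtype.ext_iff, Subtype.ext_iff]; exact he2 y y.2⟩

lemma Good.exists_pauli {N : StarSubalgebra ℂ A} (h : Good T N) :
    ∃ X ∈ N, ∃ Z ∈ N, Pauli X Z := by
  have := h.closed.isClosed
  obtain ⟨X, Z, hP⟩ := h.II1.exists_pauli
  exact ⟨X, X.2, Z, Z.2, congrArg Subtype.val hP.sX, congrArg Subtype.val hP.XX,
    congrArg Subtype.val hP.sZ, congrArg Subtype.val hP.ZZ, congrArg Subtype.val hP.anti⟩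

lemma Good.dixmier {N : StarSubalgebra ℂ A} (h : Good T N) {y z : A} (hy : y ∈ N) (hz : z ∈ N)
    {ε : ℝ} (hε : 0 < ε) : ∃ w ∈ N, w ∈ unitary A ∧
      (T.τ (z * (star w * y * w))).re < (T.τ z * T.τ y).re + ε := by
  have := h.closed.isClosed
  obtain ⟨w, hw, hw'⟩ := h.II1.dixmier ⟨y, hy⟩ ⟨z, hz⟩ hε
  exact ⟨w, w.2, ⟨congrArg Subtype.val hw.1, congrArg Subtype.val hw.2⟩, hw'⟩

/-- Relative commutant of a pair. -/
def rel (N : StarSubalgebra ℂ A) (X Z : A) : StarSubalgebra ℂ A :=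
  N ⊓ StarSubalgebra.centralizer ℂ {X, Z}

lemma Pauli.mem_rel (h : Pauli X Z) {N : StarSubalgebra ℂ A} {y : A} :
    y ∈ rel N X Z ↔ y ∈ N ∧ X * y = y * X ∧ Z * y = y * Z := by
  simp [rel, StarSubalgebra.mem_centralizer_iff, h.sX, h.sZ]

lemma Pauli.EP_mem (h : Pauli X Z) {N : StarSubalgebra ℂ A} (hX : X ∈ N) (hZ : Z ∈ N) {y : A}
    (hy : y ∈ N) : EP X Z y ∈ rel N X Z :=
  h.mem_rel.mpr ⟨avg_mem hX (avg_mem hZ hy), h.commX y, h.commZ y⟩

lemma Pauli.induction (h : Pauli X Z) {N : StarSubalgebra ℂ A} (hX : X ∈ N) (hZ : Z ∈ N)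
    {p : A → Prop} (h0 : ∀ y ∈ rel N X Z, p y ∧ p (Z * y) ∧ p (X * y) ∧ p (X * (Z * y)))
    (h1 : ∀ y z, p y → p z → p (y + z)) {y : A} (hy : y ∈ N) : p y := by
  rw [h.dec y, mul_add]
  exact h1 _ _ (h1 _ _ (h0 _ (h.EP_mem hX hZ hy)).1 (h0 _ (h.EP_mem hX hZ (mul_mem hZ hy))).2.1)
    (h1 _ _ (h0 _ (h.EP_mem hX hZ (mul_mem hX hy))).2.2.1
      (h0 _ (h.EP_mem hX hZ (mul_mem hZ (mul_mem hX hy)))).2.2.2)

lemma comm_of_rp {N : StarSubalgebra ℂ A} {σ a e : A} (hσ : σ ∈ N) (h1 : star σ = σ)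
    (ha : σ * a = a * σ) (he : e ∈ N) (he1 : IsStarProjection e)
    (he2 : ∀ y ∈ N, y * a = 0 ↔ y * e = 0) : σ * e = e * σ := by
  have h3 := (he2 ((1 - e) * σ) (mul_mem (sub_mem (one_mem _) he) hσ)).mp (by
    rw [mul_assoc, ha, ← mul_assoc, (he2 _ (sub_mem (one_mem _) he)).mpr he1.one_sub_mul_self,
      zero_mul])
  rw [sub_mul, sub_mul, one_mul, sub_eq_zero] at h3
  have h4 := congrArg star h3
  simp only [star_mul, h1, he1.isSelfAdjoint.star_eq, ← mul_assoc] at h4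
  exact h3.trans h4.symm

lemma Good.rel {N : StarSubalgebra ℂ A} (h : Good T N) (hP : Pauli X Z) (hX : X ∈ N) (hZ : Z ∈ N) :
    Good T (rel N X Z) := by
  have hc : ∀ (x : ℕ → A) (y σ : A), (∀ n, σ * x n = x n * σ) →
      Tendsto (fun n => T.n2 (x n - y)) atTop (𝓝 0) → σ * y = y * σ := fun x y σ hx hy =>
    Tr.lim_mul h.faithful (x := fun _ => σ) (fun _ => le_rfl) (by simp [T.n2_zero]) hy
      (squeeze_zero (g := fun n => T.n2 (x n - y) * ‖σ‖) (fun _ => T.n2_nonneg _)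
        (fun n => by rw [hx, ← sub_mul]; exact T.n2_mul_le' _ _) (by simpa using hy.mul_const ‖σ‖))
  refine ⟨h.faithful, h.complete, fun x R y hx hy => ?_, fun a ha b hb hab => ?_, fun W hW => ?_,
    fun a ha hs => ?_⟩
  · simp only [SetLike.mem_coe, hP.mem_rel] at hx ⊢
    exact ⟨h.closed x R y (fun n => ⟨(hx n).1.1, (hx n).2⟩) hy, hc x y X (fun n => (hx n).1.2.1) hy,
      hc x y Z (fun n => (hx n).1.2.2) hy⟩
  · rw [hP.mem_rel] at ha
    refine h.prime a ha.1 b (hP.mem_rel.mp hb).1 fun x hx => hP.induction hX hZ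
      (p := fun x => a * x * b = 0) (fun y hy => ?_) (fun y z hy hz => ?_) hx
    · have := hab y hy
      simp only [← mul_assoc, ← ha.2.1, ← ha.2.2, mul_assoc X a Z]
      simp only [mul_assoc] at this ⊢
      simp [this]
    · rw [mul_add, add_mul, hy, hz, add_zero]
  · by_contra! H
    obtain ⟨a, ha, ha'⟩ := h.infd (W ⊔ W.map (LinearMap.mulLeft ℂ Z) ⊔
      (W.map (LinearMap.mulLeft ℂ X) ⊔ W.map (LinearMap.mulLeft ℂ X ∘ₗ LinearMap.mulLeft ℂ Z)))
      inferInstance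
    refine ha' (hP.induction hX hZ (fun y hy => ?_) (fun y z => add_mem) ha)
    have := H y hy
    exact ⟨Submodule.mem_sup_left (Submodule.mem_sup_left this),
      Submodule.mem_sup_left (Submodule.mem_sup_right ⟨y, this, rfl⟩),
      Submodule.mem_sup_right (Submodule.mem_sup_left ⟨y, this, rfl⟩),
      Submodule.mem_sup_right (Submodule.mem_sup_right ⟨y, this, rfl⟩)⟩
  · rw [hP.mem_rel] at ha
    obtain ⟨e, he, he1, he2⟩ := h.rp a ha.1 hs
    exact ⟨e, hP.mem_rel.mpr ⟨he, comm_of_rp hX hP.sX ha.2.1 he he1 he2,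
      comm_of_rp hZ hP.sZ ha.2.2 he he1 he2⟩, he1, fun y hy => he2 y (hP.mem_rel.mp hy).1⟩

lemma Good.exists_pair {N : StarSubalgebra ℂ A} (h : Good T N) {y : A} (hy : y ∈ N)
    (h0 : T.τ y = 0) : ∃ X ∈ N, ∃ Z ∈ N, Pauli X Z ∧
      T.n2 (EP X Z y) ^ 2 ≤ 3 / 4 * T.n2 y ^ 2 := by
  obtain ⟨X, hX, Z, hZ, hP⟩ := h.exists_pauli
  rcases (T.n2_nonneg y).eq_or_lt with hn | hn
  · refine ⟨X, hX, Z, hZ, hP, ?_⟩
    rw [h.faithful y hn.symm, map_zero, T.n2_zero]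
    norm_num
  have ha := add_mem (hP.EP_mem hX hZ hy) (hP.EP_mem hX hZ (mul_mem hZ hy))
  have hb := sub_mem (hP.EP_mem hX hZ hy) (hP.EP_mem hX hZ (mul_mem hZ hy))
  set a := EP X Z y + EP X Z (Z * y) with ha'
  set b := EP X Z y - EP X Z (Z * y) with hb'
  have e1 : avg Z y = dg Z a b := by
    rw [hP.avg_eq, dg, ha', hb', add_sub_sub_cancel, mul_add]; module
  have e2 : T.τ b = -T.τ a := by
    rw [ha', hb', map_sub, map_add, hP.τ_EP, h0]; ring
  obtain ⟨w, hw, hu, hw'⟩ := (h.rel hP hX hZ).dixmier hb (star_mem ha) (half_pos (pow_pos hn 2))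
  have hw2 := hP.mem_rel.mp (star_mem hw)
  have c1 := hP.mem_rel.mp (mul_mem ha (star_mem hw))
  have c2 := hP.mem_rel.mp (mul_mem hb hw)
  have c3 := hP.mem_rel.mp (mul_mem (star_mem ha) (mul_mem (star_mem hw) (mul_mem hb hw)))
  have c4 := hP.mem_rel.mp (mul_mem (star_mem hb) (mul_mem hw (mul_mem ha (star_mem hw))))
  have c5 := hP.mem_rel.mp (star_mem ha)
  have c6 := hP.mem_rel.mp (star_mem hb)
  rw [hP.mem_rel] at hw ha hb
  have hP' : Pauli (dg Z (star w) w * X) Z := by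
    refine ⟨?_, ?_, hP.sZ, hP.ZZ, ?_⟩
    · rw [star_mul, dg_star hP.sZ hw2.2.2 hw.2.2, hP.sX, star_star, hP.mul_dg hw.2.1 hw2.2.1]
    · rw [mul_assoc, ← mul_assoc X, hP.mul_dg hw2.2.1 hw.2.1, mul_assoc, hP.XX, mul_one,
        dg_mul hP.ZZ _ _ hw2.2.2 hw.2.2, hu.1, hu.2, dg_self]
    · rw [← mul_assoc, dg_comm hw2.2.2 hw.2.2, mul_assoc, hP.anti, mul_neg, mul_assoc]
  refine ⟨_, mul_mem (dg_mem hZ hw2.1 hw.1) hX, Z, hZ, hP', ?_⟩
  have e3 : (T.τ (star (dg Z a b) * (dg Z (star w) w * X * dg Z a b * (dg Z (star w) w * X)))).re =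
      (T.τ (star a * (star w * b * w))).re := by
    rw [mul_assoc, mul_assoc, ← mul_assoc (dg Z a b), dg_mul hP.ZZ _ _ ha.2.2 hb.2.2, ← mul_assoc X,
      hP.mul_dg c1.2.1 c2.2.1, mul_assoc, hP.XX, mul_one, dg_mul hP.ZZ _ _ hw2.2.2 hw.2.2,
      dg_star hP.sZ ha.2.2 hb.2.2, dg_mul hP.ZZ _ _ c5.2.2 c6.2.2, hP.τ_dg c3.2.1 c4.2.1]
    have : T.τ (star b * (w * (a * star w))) = conj (T.τ (star a * (star w * (b * w)))) := by
      rw [← T.map_star]
      simp only [star_mul, star_star, mul_assoc]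
      rw [T.comm (star w)]
      simp only [mul_assoc]
    rw [this, mul_assoc]
    simp
  rw [EP_apply, T.n2_avg_sq hP'.sX hP'.XX, e1, e3]
  rw [T.map_star, e2, mul_neg, ← Complex.normSq_eq_conj_mul_self, Complex.neg_re,
    Complex.ofReal_re] at hw'
  have e4 := pow_le_pow_left₀ (T.n2_nonneg _) (T.n2_avg_le hP.sZ hP.ZZ y) 2
  rw [e1] at e4
  linarith [Complex.normSq_nonneg (T.τ a)]

end Vale.Agent.P085
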