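import Vale.Agent.P085.Tr

/-! A sewing estimate for long products of unitaries close to the identity. -/

namespace Vale.Agent.P085

variable {A : Type*} [CStarAlgebra A] {T : Tr A}

lemma exists_skew_inv {a : A} (ha : star a = -a) :
    ∃ R : A, (1 - a) * R = 1 ∧ R * (1 - a) = 1 ∧ ‖R‖ ≤ 1 := by
  let _ := CStarAlgebra.spectralOrder A
  have _ := CStarAlgebra.spectralOrderedRing A
  have h1 : (1 : A) ≤ 1 + star a * a := le_add_of_nonneg_right (star_mul_self_nonneg a)
  obtain ⟨u, hu⟩ := CStarAlgebra.isUnit_of_le (a := (1 : A)) h1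
  have e1 : (1 - a) * (1 + a) = u := by rw [hu, ha]; noncomm_ring
  have e2 : (1 + a) * (1 - a) = u := by rw [hu, ha]; noncomm_ring
  have f1 : (1 - a) * ((1 + a) * ↑u⁻¹) = 1 := by rw [← mul_assoc, e1, u.mul_inv]
  have f2 : (↑u⁻¹ * (1 + a)) * (1 - a) = 1 := by rw [mul_assoc, e2, u.inv_mul]
  refine ⟨_, f1, left_inv_eq_right_inv f2 f1 ▸ f2, ?_⟩
  set R := (1 + a) * ↑u⁻¹
  have h2 := star_left_conjugate_le_conjugate h1 R
  have h3 : star R * (1 + star a * a) * R = star ((1 - a) * R) * ((1 - a) * R) := by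
    rw [← hu, ← e2, star_mul (1 - a), star_sub, star_one, ha]; noncomm_ring
  rw [h3, f1, star_one, mul_one, mul_one,
    ← CStarAlgebra.norm_le_one_iff_of_nonneg _ (star_mul_self_nonneg R),
    CStarRing.norm_star_mul_self] at h2
  nlinarith [norm_nonneg R]

lemma exists_cayley {b : A} (hb : star b = -b) : ∃ U ∈ unitary A, ∃ R : A, ‖R‖ ≤ 1 ∧
    U = 1 + b * R ∧ U = 1 + b + (2⁻¹ : ℂ) • (b * b) + (4⁻¹ : ℂ) • (b * b * (b * R)) := by
  set a := (2⁻¹ : ℂ) • b with ha
  have ha' : star a = -a := by simp [ha, hb]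
  obtain ⟨R, h1, h2, h3⟩ := exists_skew_inv ha'
  have h1' : star R * (1 + a) = 1 := by simpa [ha'] using congrArg star h1
  have h2' : (1 + a) * star R = 1 := by simpa [ha'] using congrArg star h2
  have hR : R = 1 + a * R := by rw [← h1]; noncomm_ring
  have hb2 : b = a + a := by rw [ha]; module
  have hU : (1 + a) * R = 1 + b * R := by
    rw [add_mul, one_mul, hb2, add_mul, ← add_assoc, ← hR]
  refine ⟨(1 + a) * R, ⟨?_, ?_⟩, R, h3, hU, ?_⟩
  · rw [star_mul, star_add, star_one, ha', ← sub_eq_add_neg, mul_assoc, ← mul_assoc (1 - a),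
      show (1 - a) * (1 + a) = (1 + a) * (1 - a) by noncomm_ring, mul_assoc, h1, mul_one, h1']
  · have : (1 + a) * R = R * (1 + a) := by
      calc (1 + a) * R = R * (1 - a) * ((1 + a) * R) := by rw [h2, one_mul]
        _ = R * (1 + a) * ((1 - a) * R) := by noncomm_ring
        _ = _ := by rw [h1, mul_one]
    rw [this, star_mul, star_add, star_one, ha', ← sub_eq_add_neg, mul_assoc,
      ← mul_assoc (1 + a), show (1 + a) * (1 - a) = (1 - a) * (1 + a) by noncomm_ring, mul_assoc,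
      h2', mul_one, h2]
  · have e : R = 1 + a + a * a * R := by
      calc R = 1 + a * R := hR
        _ = 1 + a * (1 + a * R) := by rw [← hR]; exact hR
        _ = _ := by noncomm_ring
    rw [hU]
    conv_lhs => rw [e]
    simp only [ha, mul_add, mul_one, mul_smul_comm, smul_mul_assoc, mul_assoc]
    module

/-- Ordered product. -/
def PP (U : ℕ → A) (a : ℕ) : ℕ → A
  | 0 => 1
  | n + 1 => PP U a n * U (a + n)

/-- First order term. -/
def HH (b : ℕ → A) (a n : ℕ) : A := ∑ j ∈ Finset.range n, b (a + j)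

/-- Second order term. -/
noncomputable def BB (b : ℕ → A) (a n : ℕ) : A :=
  ∑ j ∈ Finset.range n, (HH b a j * b (a + j) + (2⁻¹ : ℂ) • (b (a + j) * b (a + j)))

lemma PP_add (U : ℕ → A) (a n k : ℕ) : PP U a (n + k) = PP U a n * PP U (a + n) k := by
  induction k with
  | zero => simp [PP]
  | succ k ih => rw [← add_assoc, PP, PP, ih, mul_assoc, add_assoc]

lemma HH_add (b : ℕ → A) (a n k : ℕ) : HH b a (n + k) = HH b a n + HH b (a + n) k := by
  simp [HH, Finset.sum_range_add, add_assoc]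

lemma BB_add (b : ℕ → A) (a n k : ℕ) :
    BB b a (n + k) = BB b a n + BB b (a + n) k + HH b a n * HH b (a + n) k := by
  simp only [BB, Finset.sum_range_add, HH_add, add_mul, ← add_assoc, Finset.sum_add_distrib]
  rw [HH, HH, Finset.mul_sum]
  abel

lemma PP_mem {U : ℕ → A} (hU : ∀ j, U j ∈ unitary A) (a n : ℕ) : PP U a n ∈ unitary A := by
  induction n with
  | zero => exact one_mem _
  | succ n ih => exact mul_mem ih (hU _)

lemma n2_skew_le {H : A} (hH : star H = -H) {s q : ℝ} (h : T.n2 (H * H) ≤ s) (hs : s ≤ q ^ 4) :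
    T.n2 H ≤ q ^ 2 := by
  refine abs_le_of_sq_le_sq' ?_ (by positivity) |>.2
  rw [T.n2_sq, hH, neg_mul, map_neg]
  have := (Complex.re_le_norm (-T.τ (H * H))).trans_eq (norm_neg _)
  nlinarith [T.norm_τ_le_n2 (H * H)]

theorem sewing {U b : ℕ → A} (hU : ∀ j, U j ∈ unitary A) (hb : ∀ j, star (b j) = -b j)
    (hUb : ∀ j, ∃ R : A, ‖R‖ ≤ 1 ∧
      U j = 1 + b j + (2⁻¹ : ℂ) • (b j * b j) + (4⁻¹ : ℂ) • (b j * b j * (b j * R)))
    {m : ℕ} {c : ℝ} (hc : 0 ≤ c) (h : ∀ a n, a + n ≤ m →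
      T.n2 (HH b a n * HH b a n) ≤ c * n ∧ T.n2 (BB b a n) ≤ c * n) (l : ℕ) :
    ∀ q : ℝ, 0 < q → 25 * q ≤ 1 → c * 2 ^ l ≤ q ^ 4 → ∀ a, a + 2 ^ l ≤ m →
      T.N1 (PP U a (2 ^ l) - 1 - HH b a (2 ^ l) - BB b a (2 ^ l)) (25 * (c * 2 ^ l) * q) := by
  have hH : ∀ a n, star (HH b a n) = -HH b a n := fun a n => by simp [HH, hb]
  induction l with
  | zero =>
    intro q hq hq1 hs a ha
    obtain ⟨R, hR, e⟩ := hUb a
    have h1 := (h a 1 ha).1
    simp only [HH, Finset.sum_range_one, add_zero, Nat.cast_one, pow_zero] at h1 hs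
    have h2 := n2_skew_le (hb a) h1 hs
    have h3 : T.n2 (b a * R) ≤ q ^ 2 := (T.n2_mul_le' _ _).trans
      ((mul_le_of_le_one_right (T.n2_nonneg _) hR).trans h2)
    have h4 := (Tr.N1.of_mul h1 h3).mul_left (by positivity) (a := (4⁻¹ : ℂ) • 1) (d := 1) (by
      rw [norm_smul]
      refine mul_le_one₀ (by norm_num) (norm_nonneg _) (norm_unitary_le (one_mem _)))
    convert h4.mono (c' := 25 * (c * 2 ^ 0) * q) ?_ using 1
    · simp [PP, HH, BB, e]; abel
    · have : 0 ≤ c * q := by positivity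
      nlinarith
  | succ l ih =>
    intro q hq hq1 hs a ha
    set s := c * 2 ^ l with hsd
    have hs0 : 0 ≤ s := by positivity
    set q' := 50 / 59 * q with hq'
    have hq0 : 0 < q' := by positivity
    have hs' : s ≤ q' ^ 4 := by
      rw [pow_succ, ← mul_assoc] at hs
      rw [hq', mul_pow]
      nlinarith [pow_pos hq 4]
    rw [pow_succ, mul_two] at ha
    have hq1' : 25 * q' ≤ 1 := by linarith
    have hl : 0 < 2 ^ l := by positivity
    have r1 := ih q' hq0 hq1' hs' a (by omega)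
    have r2 := ih q' hq0 hq1' hs' (a + 2 ^ l) (by omega)
    obtain ⟨a1, a2⟩ := h a (2 ^ l) (by omega)
    obtain ⟨a3, a4⟩ := h (a + 2 ^ l) (2 ^ l) (by omega)
    rw [Nat.cast_pow, Nat.cast_ofNat, ← hsd] at a1 a2 a3 a4
    have hP := PP_mem hU (a + 2 ^ l) (2 ^ l)
    have hH1 := hH a (2 ^ l)
    have hH2 := hH (a + 2 ^ l) (2 ^ l)
    rw [pow_succ, mul_two, PP_add, HH_add, BB_add]
    set P1 := PP U a (2 ^ l)
    set P := PP U (a + 2 ^ l) (2 ^ l)
    set H1 := HH b a (2 ^ l)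
    set H2 := HH b (a + 2 ^ l) (2 ^ l)
    set B1 := BB b a (2 ^ l)
    set B2 := BB b (a + 2 ^ l) (2 ^ l)
    have n1 : T.N1 (P - 1 - H2) (2 * s) := by
      convert ((Tr.N1.of_n2 a4).add r2).mono (c' := 2 * s) (by nlinarith) using 1
      abel
    have n2 : T.n2 (P - 1) ≤ 2 * q' ^ 2 := by
      refine abs_le_of_sq_le_sq' ?_ (by positivity) |>.2
      have e1 := T.n2_sub_sq P 1
      have e2 := (Complex.re_le_norm (-T.τ (P - 1 - H2))).trans_eq (norm_neg _)
      have e3 := n1.norm_τ (by positivity)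
      have e4 : T.n2 P = 1 := by simpa [T.n2_one] using T.n2_unitary_mul hP 1
      rw [mul_one, T.map_star, Complex.conj_re, e4, T.n2_one] at e1
      rw [map_sub, map_sub, Complex.neg_re, Complex.sub_re, Complex.sub_re, T.re_τ_skew hH2, T.one,
        Complex.one_re, ← T.one, ← map_sub, ← map_sub] at e2
      nlinarith
    have n3 : T.n2 (P - 1 - H2) ≤ 3 * q' ^ 2 := by
      linarith [T.n2_sub_le (P - 1) H2, n2_skew_le hH2 a3 hs']
    obtain ⟨R, hR, -, hR'⟩ := exists_skew_inv (a := ((q' : ℂ)⁻¹) • H1) (by simp [hH1])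
    have hqc : (q' : ℂ) ≠ 0 := by exact_mod_cast hq0.ne'
    have e1 : H1 * R = (q' : ℂ) • (R - 1) := by
      rw [← hR, sub_mul, one_mul, sub_sub_cancel, smul_mul_assoc, smul_smul,
        mul_inv_cancel₀ hqc, one_smul]
    have n4 : ‖H1 * R‖ ≤ q' * 2 := by
      rw [e1, norm_smul, Complex.norm_real, Real.norm_of_nonneg hq0.le]
      gcongr
      linarith [norm_sub_le R 1, norm_unitary_le (one_mem (unitary A))]
    have n5 := n1.mul_left (by positivity) n4
    have n6 := (Tr.N1.of_mul a1 ((T.n2_mul_le R (P - 1 - H2)).trans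
      (mul_le_mul hR' n3 (T.n2_nonneg _) zero_le_one))).mul_left (by positivity)
      (a := (-(q' : ℂ)⁻¹) • 1) (d := q'⁻¹) (by
        rw [norm_smul, norm_neg, norm_inv, Complex.norm_real, Real.norm_of_nonneg hq0.le]
        exact mul_le_of_le_one_right (by positivity) (norm_unitary_le (one_mem _)))
    have n7 := r1.mul_right (by positivity) (norm_unitary_le hP)
    have n8 := Tr.N1.of_mul a2 n2
    have e2 : H1 * R * (P - 1 - H2) + (-(q' : ℂ)⁻¹) • 1 * (H1 * H1 * (R * (P - 1 - H2))) =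
        H1 * (P - 1 - H2) := by
      generalize P - 1 - H2 = Z
      conv_rhs => rw [← mul_one H1, ← hR]
      simp only [sub_mul, mul_sub, one_mul, smul_mul_assoc, mul_smul_comm, mul_assoc]
      module
    convert ((n7.add r2).add ((n5.add n6).add n8)).mono (c' := 25 * (c * 2 ^ (l + 1)) * q) ?_
      using 1
    · rw [e2]; noncomm_ring
    · have e3 : q'⁻¹ * (s * (1 * (3 * q' ^ 2))) = 3 * (s * q') := by field_simp
      have e4 : 0 ≤ s * q' := by positivity
      have e5 : s * (2 * q' ^ 2) ≤ 2 * (s * q') := by nlinarith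
      have e6 : c * 2 ^ (l + 1) * q = 59 / 25 * (s * q') := by rw [hq', hsd]; ring
      rw [e3]
      nlinarith

theorem sewing' {U b : ℕ → A} (hU : ∀ j, U j ∈ unitary A) (hb : ∀ j, star (b j) = -b j)
    (hUb : ∀ j, ∃ R : A, ‖R‖ ≤ 1 ∧
      U j = 1 + b j + (2⁻¹ : ℂ) • (b j * b j) + (4⁻¹ : ℂ) • (b j * b j * (b j * R)))
    {l : ℕ} {c : ℝ} (hc : 0 ≤ c) (h : ∀ a n, a + n ≤ 2 ^ l →
      T.n2 (HH b a n * HH b a n) ≤ c * n ∧ T.n2 (BB b a n) ≤ c * n)
    (hs : c * 2 ^ l ≤ (1 / 25) ^ 4) :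
    T.N1 (PP U 0 (2 ^ l) - 1 - HH b 0 (2 ^ l)) (2 * (c * 2 ^ l)) := by
  have h1 := sewing hU hb hUb hc h l (1 / 25) (by norm_num) (by norm_num) hs 0 (by simp)
  have h2 := (h 0 (2 ^ l) (by simp)).2
  rw [Nat.cast_pow, Nat.cast_ofNat] at h2
  convert ((Tr.N1.of_n2 h2).add h1).mono (c' := 2 * (c * 2 ^ l)) (by linarith) using 1
  abel

end Vale.Agent.P085
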