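import Vale.Agent.P085.Tower

/-! Abstract separable finite factors are singly generated. -/

namespace Vale.Agent.P085

open scoped Topology ComplexStarModule
open Filter

variable {A : Type*} [CStarAlgebra A] {T : Tr A}

lemma extract {N : StarSubalgebra ℂ A} (hN : IsClosed (N : Set A)) {Z r : A} (h1 : star Z = Z)
    (h2 : Z * Z = 1) (hr : star r = r) (hc : Z * r = r * Z) (hn : ‖r‖ < 1) (hm : Z + r ∈ N) :
    Z ∈ N := by
  let _ := CStarAlgebra.spectralOrder A
  have _ := CStarAlgebra.spectralOrderedRing A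
  have e1 : ‖Z * r‖ < 1 := by rwa [CStarRing.norm_mem_unitary_mul _ (sym_mem_unitary h1 h2)]
  have e2 : IsSelfAdjoint (Z * r) := by rw [IsSelfAdjoint, star_mul, h1, hr, hc]
  have e3 : 0 ≤ 1 + Z * r := by
    have := e2.neg_algebraMap_norm_le_self
    rw [neg_le_iff_add_nonneg'] at this
    refine this.trans (add_le_add_left ?_ _)
    rw [← sub_nonneg, ← map_one (algebraMap ℝ A), ← map_sub, Algebra.algebraMap_eq_smul_one]
    exact smul_nonneg (by linarith) zero_le_one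
  have e4 : Z + r = Z * (1 + Z * r) := by rw [mul_add, mul_one, ← mul_assoc, h2, one_mul]
  have e5 : (1 + Z * r) * (1 + Z * r) = (Z + r) * (Z + r) := by
    have : ∀ y, Z * (r * (Z * y)) = r * y := fun y => by
      rw [← mul_assoc, hc, mul_assoc, ← mul_assoc Z, h2, one_mul]
    simp only [mul_add, add_mul, one_mul, mul_one, mul_assoc, this, h2, ← hc]
  have e6 : 1 + Z * r ∈ N := by
    rw [← CFC.sqrt_unique e5 e3, CFC.sqrt_eq_real_sqrt _ (e5 ▸ IsSelfAdjoint.mul_self_nonneg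
      e3.isSelfAdjoint)]
    exact cfcₙ_mem (𝕜' := ℂ) _ (mul_mem hm hm)
  obtain ⟨u, hu⟩ := (N.coe_isUnit (a := ⟨_, e6⟩)).mp (by
    simpa using isUnit_one_sub_of_norm_lt_one (x := -(Z * r)) (by rwa [norm_neg])) |>.exists_right_inv
  have e7 : (1 + Z * r) * u = 1 := congrArg Subtype.val hu
  have := mul_mem hm u.2
  rwa [e4, mul_assoc, e7, mul_one] at this

lemma exists_sum {Z : ℕ → A} (h1 : ∀ n, star (Z n) = Z n) (h2 : ∀ n, Z n * Z n = 1)
    (hc : ∀ n m, Z n * Z m = Z m * Z n) : ∃ a, star a = a ∧ ∀ N : StarSubalgebra ℂ A,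
      IsClosed (N : Set A) → a ∈ N → ∀ n, Z n ∈ N := by
  have hn : ∀ k n, ‖((3⁻¹ : ℝ) ^ n) • Z (n + k)‖ ≤ 3⁻¹ ^ n := fun k n => by
    rw [norm_smul, norm_pow, norm_inv, Real.norm_ofNat]
    exact mul_le_of_le_one_right (by positivity) (norm_unitary_le (sym_mem_unitary (h1 _) (h2 _)))
  have hg := hasSum_geometric_of_lt_one (r := 3⁻¹) (by norm_num) (by norm_num)
  have hs : ∀ k, Summable fun n => ((3⁻¹ : ℝ) ^ n) • Z (n + k) := fun k =>
    .of_norm_bounded hg.summable (hn k)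
  let a : ℕ → A := fun k => ∑' n, ((3⁻¹ : ℝ) ^ n) • Z (n + k)
  have e1 : ∀ k, star (a k) = a k := fun k => by simp [a, tsum_star, h1]
  have e2 : ∀ k, a k = Z k + (3⁻¹ : ℝ) • a (k + 1) := fun k => by
    simp only [a]
    rw [(hs k).tsum_eq_zero_add, ← (hs (k + 1)).tsum_const_smul]
    simp [smul_smul, pow_succ', add_assoc, add_comm 1 k]
  have e3 : ∀ k N, IsClosed ((N : StarSubalgebra ℂ A) : Set A) → a k ∈ N → Z k ∈ N :=
    fun k N hN h => extract hN (h1 k) (h2 k) (by rw [star_smul, e1, star_trivial])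
      ((Commute.tsum_right _ fun n => Commute.smul_right (hc _ _) _).smul_right _) (by
        have := tsum_of_norm_bounded hg (hn (k + 1))
        rw [norm_smul, norm_inv, Real.norm_ofNat]
        norm_num at this ⊢
        linarith) (e2 k ▸ h)
  refine ⟨a 0, e1 0, fun N hN h n => e3 n N hN ?_⟩
  induction n with
  | zero => exact h
  | succ n ih =>
    have := N.smul_mem (sub_mem ih (e3 n N hN ih)) 3
    rwa [e2 n, add_sub_cancel_left, ← Complex.coe_smul, smul_smul,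
      show (3 : ℂ) * (3⁻¹ : ℝ) = 1 by norm_num, one_smul] at this

lemma II1.exists_four (h : II1 T) (hs : ∃ c : ℕ → A, DenseRange fun n => T.to2 (c n)) :
    ∃ a b c d : A, star a = a ∧ star b = b ∧ star c = c ∧ star d = d ∧
      ∀ N : StarSubalgebra ℂ A, T.Closed N → a ∈ N → b ∈ N → c ∈ N → d ∈ N → N = ⊤ := by
  obtain ⟨X, Z, hT⟩ := exists_tower h hs.choose_spec
  obtain ⟨V⟩ := hT.exists_avg (Q := StarAlgebra.adjoin ℂ (Set.range X ∪ Set.range Z)) fun n =>
    ⟨StarAlgebra.subset_adjoin ℂ _ (by simp), StarAlgebra.subset_adjoin ℂ _ (by simp)⟩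
  obtain ⟨v, -, hv⟩ := exists_gen V h.faithful h.complete hs
  obtain ⟨a, ha, ha'⟩ := exists_sum (fun n => (hT.pauli n).sX) (fun n => (hT.pauli n).XX) hT.commX
  obtain ⟨b, hb, hb'⟩ := exists_sum (fun n => (hT.pauli n).sZ) (fun n => (hT.pauli n).ZZ) hT.commZ
  refine ⟨a, b, ℜ v, ℑ v, ha, hb, (ℜ v).2, (ℑ v).2, fun N hN h1 h2 h3 h4 => hv N hN
    (StarAlgebra.adjoin_le ?_) ?_⟩
  · rintro _ (⟨n, rfl⟩ | ⟨n, rfl⟩)
    exacts [ha' N hN.isClosed h1 n, hb' N hN.isClosed h2 n]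
  · rw [← realPart_add_I_smul_imaginaryPart v]
    exact add_mem h3 (N.smul_mem h4 _)

lemma Pauli.mem_of_dg {X Z : A} (h : Pauli X Z) {N : StarSubalgebra ℂ A} (hX : X ∈ N) (hZ : Z ∈ N)
    {a b : A} (ha : a ∈ rel ⊤ X Z) (hb : b ∈ rel ⊤ X Z) (hab : dg Z a b ∈ N) : a ∈ N ∧ b ∈ N := by
  rw [h.mem_rel] at ha hb
  have h1 := mul_mem (mul_mem hX hab) hX
  rw [h.mul_dg ha.2.1 hb.2.1, mul_assoc, h.XX, mul_one] at h1
  have h2 := add_mem hab h1
  have h3 := mul_mem hZ (sub_mem hab h1)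
  constructor
  · convert N.smul_mem (add_mem h2 h3) 2⁻¹
    simp only [dg, mul_add, mul_sub, mul_smul_comm, h.ZZ']
    module
  · convert N.smul_mem (sub_mem h2 h3) 2⁻¹
    simp only [dg, mul_add, mul_sub, mul_smul_comm, h.ZZ']
    module

theorem II1.exists_single (h : II1 T) (hs : ∃ c : ℕ → A, DenseRange fun n => T.to2 (c n)) :
    ∃ x : A, ∀ N : StarSubalgebra ℂ A, T.Closed N → x ∈ N → N = ⊤ := by
  obtain ⟨X, Z, hP⟩ := h.exists_pauli
  have hG := h.good.rel hP trivial trivial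
  have := hG.closed.isClosed
  obtain ⟨c, hc⟩ := hs
  obtain ⟨a, b, c, d, ha, hb, hc, hd, H⟩ := hG.II1.exists_four
    ⟨fun n => ⟨EP X Z (c n), hP.EP_mem (N := ⊤) trivial trivial trivial⟩, Metric.denseRange_iff.mpr
      fun y ε hε => by
        obtain ⟨y, rfl⟩ := (T.res _).to2.surjective y
        obtain ⟨n, hn⟩ := hc.exists_dist_lt (T.to2 y) hε
        refine ⟨n, ?_⟩
        rw [dist_eq_norm, ← map_sub] at hn ⊢
        refine (T.res_n2 _ _).trans_lt (lt_of_le_of_lt ?_ hn)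
        have hy := hP.mem_rel.mp y.2
        have := hP.n2_EP (T := T) (y - c n)
        rwa [map_sub, EP_eq hP hy.2.1 hy.2.2] at this⟩
  have a1 := hP.mem_rel.mp a.2
  have b1 := hP.mem_rel.mp b.2
  have c1 := hP.mem_rel.mp c.2
  have d1 := hP.mem_rel.mp d.2
  set p := dg Z a b with hp
  set q := dg Z c d with hq
  have hp1 : star p = p := by
    rw [hp, dg_star hP.sZ a1.2.2 b1.2.2]
    exact congrArg₂ (fun x y => dg Z x.1 y.1) ha hb
  have hq1 : star q = q := by
    rw [hq, dg_star hP.sZ c1.2.2 d1.2.2]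
    exact congrArg₂ (fun x y => dg Z x.1 y.1) hc hd
  set r := ((‖p‖ + 1 : ℝ) : ℂ)⁻¹ • p with hr
  have hr1 : star r = r := by rw [hr, star_smul, hp1, Complex.star_def, map_inv₀, Complex.conj_ofReal]
  refine ⟨Z + r + Complex.I • (X + q), fun N hN hx => ?_⟩
  have hx' := star_mem hx
  simp only [star_add, star_smul, hr1, hq1, hP.sX, hP.sZ, Complex.star_def, Complex.conj_I] at hx'
  have e1 : Z + r ∈ N := by
    convert N.smul_mem (add_mem hx hx') 2⁻¹
    module
  have e2 : X + q ∈ N := by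
    have := N.smul_mem (sub_mem hx e1) (-Complex.I)
    rwa [add_sub_cancel_left, smul_smul, neg_mul, Complex.I_mul_I, neg_neg, one_smul] at this
  have hZ : Z ∈ N := extract hN.isClosed hP.sZ hP.ZZ hr1 (by
    rw [hr, mul_smul_comm, smul_mul_assoc, hp, dg_comm a1.2.2 b1.2.2]) (by
      rw [hr, norm_smul, norm_inv, Complex.norm_real, Real.norm_of_nonneg (by positivity),
        inv_mul_lt_iff₀ (by positivity)]
      linarith) e1
  have e3 : p ∈ N := by
    have := N.smul_mem (sub_mem e1 hZ) (‖p‖ + 1 : ℝ)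
    rwa [add_sub_cancel_left, hr, smul_inv_smul₀ (by
      exact_mod_cast (by positivity : (‖p‖ + 1 : ℝ) ≠ 0))] at this
  have e4 : q ∈ N := by
    convert avg_mem hZ e2
    rw [avg_apply, mul_add, add_mul, hP.anti, hq, dg_comm c1.2.2 d1.2.2, neg_mul, mul_assoc,
      mul_assoc, hP.ZZ, mul_one, mul_one]
    module
  have hX : X ∈ N := by simpa using sub_mem e2 e4
  obtain ⟨f1, f2⟩ := hP.mem_of_dg hX hZ a.2 b.2 e3
  obtain ⟨f3, f4⟩ := hP.mem_of_dg hX hZ c.2 d.2 e4
  have e5 := H (N.comap (rel ⊤ X Z).subtype) (fun x R y hx hy =>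
    hN (fun n => x n) R y hx (by simp only [T.res_n2] at hy; exact hy)) f1 f2 f3 f4
  rw [eq_top_iff]
  refine fun y _ => hP.induction (N := ⊤) trivial trivial (fun y hy => ?_) (fun _ _ => add_mem)
    trivial
  have : y ∈ N := e5.ge (x := ⟨y, hy⟩) trivial
  exact ⟨this, mul_mem hZ this, mul_mem hX this, mul_mem hX (mul_mem hZ this)⟩

end Vale.Agent.P085
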