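import Vale.Agent.P085.Moment
import Vale.Agent.P085.Sew

/-! The gradient step. -/

namespace Vale.Agent.P085

open scoped Topology ComplexConjugate
open Filter Finset

variable {A : Type*} [CStarAlgebra A] {T : Tr A}

lemma u_cancel (u : unitary A) (x : A) : star (u : A) * (u * x) = x := by
  rw [← mul_assoc, u.2.1, one_mul]

lemma u_cancel' (u : unitary A) (x : A) : u * (star (u : A) * x) = x := by
  rw [← mul_assoc, u.2.2, one_mul]

/-- Generators. -/
def oo (m j : ℕ) : FreeGroup (Fin (m + 1)) := FreeGroup.of (Fin.ofNat (m + 1) j)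

/-- Left group element. -/
def gL (m : ℕ) (x : ℕ × ℕ × Bool) : FreeGroup (Fin (m + 1)) :=
  oo m x.1 * (oo m x.2.1)⁻¹ * (if x.2.2 then oo m m else 1)

/-- Right group element. -/
def gR (m : ℕ) (x : ℕ × ℕ × Bool) : FreeGroup (Fin (m + 1)) :=
  (if x.2.2 then 1 else (oo m m)⁻¹) * oo m x.2.1 * (oo m x.1)⁻¹

/-- Exponent counting. -/
def chi (m l : ℕ) : FreeGroup (Fin (m + 1)) →* Multiplicative ℤ :=
  FreeGroup.lift fun a => Multiplicative.ofAdd (if a.1 = l then 1 else 0)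

lemma chi_oo {m j : ℕ} (l : ℕ) (hj : j ≤ m) :
    chi m l (oo m j) = Multiplicative.ofAdd (if j = l then 1 else 0) := by
  simp [chi, oo, Nat.mod_eq_of_lt (Nat.lt_succ_of_le hj)]

lemma rho_oo (G : ℕ → unitary A) {m j : ℕ} (hj : j ≤ m) : rho G (oo m j) = G j := by
  simp [rho, oo, Nat.mod_eq_of_lt (Nat.lt_succ_of_le hj)]

lemma chi_gL {m : ℕ} (l : ℕ) {x : ℕ × ℕ × Bool} (h1 : x.1 < m) (h2 : x.2.1 < m) :
    (chi m l (gL m x)).toAdd = (if x.1 = l then 1 else 0) - (if x.2.1 = l then 1 else 0) +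
      (if x.2.2 then (if m = l then 1 else 0) else 0) := by
  obtain ⟨j, i, e⟩ := x
  cases e <;> simp [gL, chi_oo l h1.le, chi_oo l h2.le, chi_oo l le_rfl, sub_eq_add_neg]

lemma chi_gR {m : ℕ} (l : ℕ) {x : ℕ × ℕ × Bool} (h1 : x.1 < m) (h2 : x.2.1 < m) :
    (chi m l (gR m x)).toAdd = (if x.2.1 = l then 1 else 0) - (if x.1 = l then 1 else 0) -
      (if x.2.2 then 0 else (if m = l then 1 else 0)) := by
  obtain ⟨j, i, e⟩ := x
  cases e <;> simp [gR, chi_oo l h1.le, chi_oo l h2.le, chi_oo l le_rfl, sub_eq_add_neg]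
  ring

/-- Coincidence weight. -/
def ee (x y : ℕ × ℕ × Bool) : ℝ := (if x.1 = y.1 ∧ x.2.1 = y.2.1 then 1 else 0) +
  (if x.1 = x.2.1 then 1 else 0) * (if y.1 = y.2.1 then 1 else 0)

lemma ee_nonneg (x y : ℕ × ℕ × Bool) : 0 ≤ ee x y := by unfold ee; positivity

lemma one_le_ee {m : ℕ} {x y : ℕ × ℕ × Bool} (h1 : x.1 < m) (h2 : x.2.1 < m) (h3 : y.1 < m)
    (h4 : y.2.1 < m) (h : gR m x * gL m y = 1) : 1 ≤ ee x y := by
  have key : ∀ l < m, (if x.2.1 = l then (1 : ℤ) else 0) - (if x.1 = l then 1 else 0) +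
      ((if y.1 = l then 1 else 0) - (if y.2.1 = l then 1 else 0)) = 0 := by
    intro l hl
    have := congrArg (fun z => (chi m l z).toAdd) h
    simp only [map_mul, toAdd_mul, chi_gL l h3 h4, chi_gR l h1 h2, map_one, toAdd_one,
      if_neg hl.ne', ite_self] at this
    linarith
  have k1 := key _ h1
  have k2 := key _ h2
  have : (x.1 = y.1 ∧ x.2.1 = y.2.1) ∨ (x.1 = x.2.1 ∧ y.1 = y.2.1) := by
    by_cases hx : x.1 = x.2.1
    · have k3 := key _ h3
      rw [hx, sub_self] at k3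
      split_ifs at k3 <;> omega
    · split_ifs at k1 k2 <;> omega
  unfold ee
  rcases this with h | h
  · rw [if_pos h, le_add_iff_nonneg_right]; positivity
  · rw [if_pos h.1, if_pos h.2, mul_one, le_add_iff_nonneg_left]; positivity

lemma sum_ee (a n m : ℕ) (hn : n ≤ m) :
    ∑ x ∈ range n ×ˢ (range m ×ˢ (univ : Finset Bool)),
      ∑ y ∈ range n ×ˢ (range m ×ˢ (univ : Finset Bool)),
        ee (a + x.1, x.2) (a + y.1, y.2) ≤ 8 * n * m := by
  simp only [ee, sum_add_distrib, ← mul_sum, ← sum_mul]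
  have h1 : ∑ x ∈ range n ×ˢ (range m ×ˢ (univ : Finset Bool)),
      (if a + x.1 = x.2.1 then (1 : ℝ) else 0) ≤ 2 * n := by
    rw [sum_product]
    refine (sum_le_sum (g := fun _ => 2) fun j _ => ?_).trans (by simp [mul_comm])
    rw [sum_product]
    simp only [Fintype.sum_bool, sum_add_distrib, sum_ite_eq]
    split_ifs <;> norm_num
  have h2 : ∑ x ∈ range n ×ˢ (range m ×ˢ (univ : Finset Bool)),
      ∑ y ∈ range n ×ˢ (range m ×ˢ (univ : Finset Bool)),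
        (if a + x.1 = a + y.1 ∧ x.2.1 = y.2.1 then (1 : ℝ) else 0) ≤ 4 * n * m := by
    refine (sum_le_sum (g := fun _ => 2) fun x _ => ?_).trans (by simp; linarith)
    simp only [sum_product, ite_and, add_right_inj, Fintype.sum_bool, sum_add_distrib,
      sum_ite_irrel, sum_const_zero, sum_ite_eq]
    split_ifs <;> norm_num
  have h3 : (0 : ℝ) ≤ ∑ x ∈ range n ×ˢ (range m ×ˢ (univ : Finset Bool)),
      (if a + x.1 = x.2.1 then (1 : ℝ) else 0) := sum_nonneg fun _ _ => by positivity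
  have h4 : (n : ℝ) ≤ m := by exact_mod_cast hn
  have h5 := mul_le_mul h1 h1 h3 (by positivity)
  have h6 := mul_le_mul_of_nonneg_left h4 (by positivity : (0 : ℝ) ≤ n)
  nlinarith

/-- The basic terms. -/
noncomputable def tt (k : A) (m : ℕ) (G : ℕ → unitary A) (x : ℕ × ℕ × Bool) : A :=
  rho G (gL m x) * k * rho G (gR m x)

section

variable {m : ℕ} {F : Filter (ℕ → unitary A)}
  (hF : ∀ ω, Adm T (m + 1) ω → Tendsto (fun G => T.τ (ev G ω)) F (𝓝 0)) {k : A} (hk : T.τ k = 0)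
  (hk1 : ‖k‖ ≤ 1) {η : ℝ} (hη : 0 < η)

include hk1 in
lemma norm_tt (G : ℕ → unitary A) (x : ℕ × ℕ × Bool) : ‖tt k m G x‖ ≤ 1 := by
  simpa [tt] using norm_mul_le_of_le (norm_mul_le_of_le (norm_rho G _) hk1) (norm_rho G _)

include hF hk hk1 hη in
lemma ev_four {x₁ x₂ x₃ x₄ : ℕ × ℕ × Bool} (h₁ : x₁.1 < m ∧ x₁.2.1 < m)
    (h₂ : x₂.1 < m ∧ x₂.2.1 < m) (h₃ : x₃.1 < m ∧ x₃.2.1 < m) (h₄ : x₄.1 < m ∧ x₄.2.1 < m) :
    ∀ᶠ G in F, ‖T.τ (tt k m G x₁ * tt k m G x₂ * (tt k m G x₃ * tt k m G x₄))‖ ≤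
      ee x₁ x₂ * ee x₃ x₄ + ee x₂ x₃ * ee x₄ x₁ + η := by
  have e1 := mul_nonneg (ee_nonneg x₁ x₂) (ee_nonneg x₃ x₄)
  have e2 := mul_nonneg (ee_nonneg x₂ x₃) (ee_nonneg x₄ x₁)
  have e3 : ∀ G, ‖T.τ (tt k m G x₁ * tt k m G x₂ * (tt k m G x₃ * tt k m G x₄))‖ ≤ 1 := fun G =>
    (T.norm_τ_le _).trans (by
      simpa using norm_mul_le_of_le (norm_mul_le_of_le (norm_tt hk1 G x₁) (norm_tt hk1 G x₂))
        (norm_mul_le_of_le (norm_tt hk1 G x₃) (norm_tt hk1 G x₄)))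
  by_cases a : gR m x₁ * gL m x₂ = 1 ∧ gR m x₃ * gL m x₄ = 1
  · refine Eventually.of_forall fun G => ?_
    linarith [e3 G, one_le_mul_of_one_le_of_one_le (one_le_ee h₁.1 h₁.2 h₂.1 h₂.2 a.1)
      (one_le_ee h₃.1 h₃.2 h₄.1 h₄.2 a.2)]
  by_cases b : gR m x₂ * gL m x₃ = 1 ∧ gR m x₄ * gL m x₁ = 1
  · refine Eventually.of_forall fun G => ?_
    linarith [e3 G, one_le_mul_of_one_le_of_one_le (one_le_ee h₂.1 h₂.2 h₃.1 h₃.2 b.1)
      (one_le_ee h₄.1 h₄.2 h₁.1 h₁.2 b.2)]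
  filter_upwards [Metric.tendsto_nhds.mp (four hF hk (not_and_or.mp a) (not_and_or.mp b)) η hη]
    with G hG
  rw [dist_zero_right] at hG
  refine le_trans (le_of_eq ?_) (hG.le.trans (by linarith))
  simp only [tt, rho_mul, mul_assoc]
  rw [T.comm]
  simp only [mul_assoc]

include hF hk hη in
lemma ev_two {x : ℕ × ℕ × Bool} (h : x.1 < m ∧ x.2.1 < m) :
    ∀ᶠ G in F, ‖T.τ (G m * k * tt k m G x) -
      (if x.2.2 = false ∧ x.1 = x.2.1 then T.τ (k * k) else 0)‖ ≤ η := by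
  split_ifs with hx
  · refine Eventually.of_forall fun G => ?_
    have : T.τ (G m * k * tt k m G x) = T.τ (k * k) := by
      rw [mul_assoc, T.comm]
      simp [tt, gL, gR, hx.1, hx.2, rho_one, rho_inv, rho_oo, mul_assoc]
    simp [this, hη.le]
  · have h1 : gL m x ≠ 1 := fun h1 => by
      have k1 := chi_gL x.1 h.1 h.2
      have k2 := chi_gL m h.1 h.2
      rw [h1, map_one, toAdd_one] at k1 k2
      split_ifs at k1 k2 <;> first | omega | simp_all
    have h2 : gR m x * oo m m ≠ 1 := fun h1 => by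
      have k1 := congrArg (fun z => (chi m x.1 z).toAdd) h1
      have k2 := congrArg (fun z => (chi m m z).toAdd) h1
      simp only [map_mul, toAdd_mul, chi_gR _ h.1 h.2, map_one, toAdd_one, chi_oo _ le_rfl,
        toAdd_ofAdd] at k1 k2
      split_ifs at k1 k2 <;> first | omega | simp_all
    filter_upwards [Metric.tendsto_nhds.mp (((Rep.base k h1).mul hk h2).tendsto hF) η hη]
      with G hG
    rw [dist_zero_right] at hG
    refine le_trans (le_of_eq ?_) hG.le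
    rw [mul_assoc, T.comm, sub_zero]
    simp [tt, rho_mul, rho_oo, mul_assoc]

end

/-- Signs. -/
def sn (e : Bool) : ℂ := if e then 1 else -1

lemma norm_sn (e : Bool) : ‖sn e‖ = 1 := by cases e <;> simp [sn]

lemma quad_b {b : ℕ → A} {t : ℕ × ℕ × Bool → A} {lam η : ℝ} {m : ℕ} (hlam0 : 0 ≤ lam)
    (hbs : ∀ j, star (b j) = -b j)
    (hbt : ∀ j < m, b j = ∑ p ∈ range m ×ˢ (univ : Finset Bool), (-lam * sn p.2) • t (j, p))
    (g2 : ∀ x₁ ∈ range m ×ˢ (range m ×ˢ (univ : Finset Bool)),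
      ∀ x₂ ∈ range m ×ˢ (range m ×ˢ (univ : Finset Bool)),
      ∀ x₃ ∈ range m ×ˢ (range m ×ˢ (univ : Finset Bool)),
      ∀ x₄ ∈ range m ×ˢ (range m ×ˢ (univ : Finset Bool)),
      ‖T.τ (t x₁ * t x₂ * (t x₃ * t x₄))‖ ≤ ee x₁ x₂ * ee x₃ x₄ + ee x₂ x₃ * ee x₄ x₁ + η)
    {a n : ℕ} (han : a + n ≤ m) (ω : ℕ → ℕ → ℂ) (hω : ∀ j j', ‖ω j j'‖ ≤ 1) :
    T.n2 (∑ j ∈ range n, ∑ j' ∈ range n, ω j j' • (b (a + j) * b (a + j'))) ^ 2 ≤
      (lam ^ 2) ^ 2 * (2 * (8 * n * m) ^ 2 + (n * (m * 2)) ^ 4 * η) := by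
  set P := range m ×ˢ (univ : Finset Bool) with hP
  have e1 : ∀ ω : ℕ → ℕ → ℂ, ∑ j ∈ range n, ∑ j' ∈ range n, ω j j' • (b (a + j) * b (a + j')) =
      ∑ x ∈ range n ×ˢ P, ∑ y ∈ range n ×ˢ P, (ω x.1 y.1 * ((-lam * sn x.2.2) *
        (-lam * sn y.2.2))) • (t (a + x.1, x.2) * t (a + y.1, y.2)) := by
    intro ω
    rw [sum_product]
    refine sum_congr rfl fun j hj => ?_
    simp only [sum_product (range n)]
    rw [sum_comm (s := P)]
    refine sum_congr rfl fun j' hj' => ?_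
    rw [hbt _ (by have := mem_range.mp hj; omega), hbt _ (by have := mem_range.mp hj'; omega),
      sum_mul_sum]
    simp only [Finset.smul_sum, smul_mul_smul_comm, smul_smul]
  have e2 : star (∑ j ∈ range n, ∑ j' ∈ range n, ω j j' • (b (a + j) * b (a + j'))) =
      ∑ j ∈ range n, ∑ j' ∈ range n, conj (ω j' j) • (b (a + j) * b (a + j')) := by
    rw [sum_comm]
    simp [hbs]
  have e3 : ∀ (z : ℂ) (e e' : Bool), ‖z‖ ≤ 1 → ‖z * ((-lam * sn e) * (-lam * sn e'))‖ ≤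
      lam ^ 2 := fun z e e' hz => by
    simp only [norm_mul, norm_neg, norm_sn, Complex.norm_real, Real.norm_of_nonneg hlam0]
    nlinarith [sq_nonneg lam]
  have hm2 : ∀ x ∈ range n ×ˢ P, (a + x.1, x.2) ∈ range m ×ˢ P := fun x hx => by
    simp only [mem_product, mem_range] at hx ⊢
    exact ⟨by omega, hx.2⟩
  have e4 : ((range n ×ˢ P).card : ℝ) = n * (m * 2) := by simp [hP]
  have hq := quad_bound (T := T) (range n ×ˢ P) (fun x => t (a + x.1, x.2))
    (fun x y => ee (a + x.1, x.2) (a + y.1, y.2))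
    (fun x y => ω x.1 y.1 * ((-lam * sn x.2.2) * (-lam * sn y.2.2)))
    (fun x y => conj (ω y.1 x.1) * ((-lam * sn x.2.2) * (-lam * sn y.2.2))) (sq_nonneg lam)
    (fun x y => e3 _ _ _ (hω _ _)) (fun x y => e3 _ _ _ (by simpa using hω _ _))
    (fun _ _ => ee_nonneg _ _) (sum_ee a n m (by omega)) (η := η)
    fun x₁ h₁ x₂ h₂ x₃ h₃ x₄ h₄ => g2 (a + x₁.1, x₁.2) (hm2 _ h₁) (a + x₂.1, x₂.2) (hm2 _ h₂)
      (a + x₃.1, x₃.2) (hm2 _ h₃) (a + x₄.1, x₄.2) (hm2 _ h₄)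
  rw [T.n2_sq, e2, e1, e1, ← e4]
  exact (Complex.re_le_norm _).trans hq

lemma HB_of_quad {b : ℕ → A} {a n : ℕ} {c : ℝ} (hY : ∀ ω : ℕ → ℕ → ℂ, (∀ j j', ‖ω j j'‖ ≤ 1) →
    T.n2 (∑ j ∈ range n, ∑ j' ∈ range n, ω j j' • (b (a + j) * b (a + j'))) ≤ c) :
    T.n2 (HH b a n * HH b a n) ≤ c ∧ T.n2 (BB b a n) ≤ c := by
  constructor
  · simpa [HH, sum_mul_sum] using hY (fun _ _ => 1) (by simp)
  · convert hY (fun j j' => if j < j' then 1 else if j = j' then 2⁻¹ else 0)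
      (fun j j' => by split_ifs <;> norm_num) using 2
    rw [BB, sum_comm]
    refine sum_congr rfl fun j hj => ?_
    obtain ⟨d, rfl⟩ := Nat.exists_eq_add_of_lt (mem_range.mp hj)
    rw [add_right_comm j d 1, sum_range_add, sum_range_succ, HH, sum_mul,
      sum_eq_zero (s := range d) fun i _ => by rw [if_neg (by omega), if_neg (by omega), zero_smul]]
    simp only [lt_irrefl, if_false, if_true, add_zero]
    congr 1
    exact sum_congr rfl fun i hi => by rw [if_pos (mem_range.mp hi), one_smul]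

lemma first_order {b : ℕ → A} {t : ℕ × ℕ × Bool → A} {lam η : ℝ} {m : ℕ} (hlam0 : 0 ≤ lam)
    (hbt : ∀ j < m, b j = ∑ p ∈ range m ×ˢ (univ : Finset Bool), (-lam * sn p.2) • t (j, p))
    {z : A} {r : ℝ} (g3 : ∀ x ∈ range m ×ˢ (range m ×ˢ (univ : Finset Bool)),
      ‖T.τ (z * t x) - (if x.2.2 = false ∧ x.1 = x.2.1 then (r : ℂ) else 0)‖ ≤ η) :
    m * lam * r - m * (m * 2) * (lam * η) ≤ (T.τ (z * HH b 0 m)).re := by
  set P := range m ×ˢ (univ : Finset Bool) with hP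
  have e3 : T.τ (z * HH b 0 m) = ∑ x ∈ range m ×ˢ P, (-lam * sn x.2.2) * T.τ (z * t x) := by
    rw [HH, sum_product, mul_sum, map_sum]
    refine sum_congr rfl fun j hj => ?_
    rw [zero_add, hbt j (mem_range.mp hj), mul_sum, map_sum]
    simp
  have e4 : ∑ x ∈ range m ×ˢ P, (-lam * sn x.2.2) *
      (if x.2.2 = false ∧ x.1 = x.2.1 then (r : ℂ) else 0) = (m * lam * r : ℝ) := by
    rw [sum_product, sum_congr rfl (g := fun _ => (lam * r : ℂ)) fun j hj => by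
      simp [hP, sum_product, sn, mem_range.mp hj]]
    simp [mul_assoc]
  have e5 : ‖T.τ (z * HH b 0 m) - (m * lam * r : ℝ)‖ ≤ m * (m * 2) * (lam * η) := by
    rw [e3, ← e4, ← sum_sub_distrib]
    refine (norm_sum_le_of_le _ (n := fun _ => lam * η) fun x hx => ?_).trans (le_of_eq ?_)
    · rw [← mul_sub, norm_mul, norm_mul, norm_neg, norm_sn, mul_one, Complex.norm_real,
        Real.norm_of_nonneg hlam0]
      exact mul_le_mul_of_nonneg_left (g3 x hx) hlam0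
    · simp [hP]
  have e6 := (abs_le.mp ((Complex.abs_re_le_norm _).trans e5)).1
  rw [Complex.sub_re, Complex.ofReal_re] at e6
  linarith

/-- The gradient direction. -/
noncomputable def grad (k : A) (lam : ℝ) (m : ℕ) (G : ℕ → unitary A) : A :=
  (-lam : ℂ) • ∑ i ∈ range m, star (G i : A) * (G m * k - k * star (G m : A)) * G i

lemma star_grad {k : A} (hk : star k = k) (lam : ℝ) (m : ℕ) (G : ℕ → unitary A) :
    star (grad k lam m G) = -grad k lam m G := by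
  simp only [grad, star_smul, star_sum, star_mul, star_sub, star_star, hk, ← smul_neg,
    ← sum_neg_distrib, star_neg, Complex.star_def, Complex.conj_ofReal]
  congr 1
  exact sum_congr rfl fun i _ => by noncomm_ring

lemma conj_grad (k : A) (lam : ℝ) {m : ℕ} (G : ℕ → unitary A) {j : ℕ} (hj : j < m) :
    G j * grad k lam m G * star (G j : A) =
      ∑ p ∈ range m ×ˢ (univ : Finset Bool), (-lam * sn p.2) • tt k m G (j, p) := by
  simp only [grad, mul_smul_comm, smul_mul_assoc, mul_sum, sum_mul, sum_product,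
    Finset.smul_sum]
  refine sum_congr rfl fun i hi => ?_
  have hi' := (mem_range.mp hi).le
  simp only [Fintype.sum_bool, tt, gL, gR, sn, rho_mul, rho_inv, rho_oo G hj.le, rho_oo G hi',
    rho_oo G le_rfl, if_true, Bool.false_eq_true, if_false, rho_one, mul_sub, sub_mul, mul_assoc,
    one_mul, mul_one]
  module

lemma mem_adjoin_PP {Q : StarSubalgebra ℂ A} {v U : unitary A} {G : ℕ → unitary A} {m : ℕ}
    (g1 : ∀ j < m + 1, star (cc v G j : A) * G j ∈ Q) :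
    PP (fun j => G j * U * star (G j : A)) 0 m * G m ∈
      StarAlgebra.adjoin ℂ (insert ((U * v : unitary A) : A) (Q : Set A)) := by
  have hQN : ∀ x ∈ Q, x ∈ StarAlgebra.adjoin ℂ (insert ((U * v : unitary A) : A) (Q : Set A)) :=
    fun x hx => StarAlgebra.subset_adjoin _ _ (.inr hx)
  induction m with
  | zero => simpa [PP, cc] using hQN _ (g1 0 (by omega))
  | succ j ih =>
    have := mul_mem (mul_mem (ih fun i hi => g1 i (by omega))
      (StarAlgebra.subset_adjoin ℂ _ (.inl rfl))) (hQN _ (g1 (j + 1) (by omega)))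
    convert this using 1
    simp [PP, cc, mul_assoc, u_cancel']

lemma exists_good {Q : StarSubalgebra ℂ A} (V : Avg T Q) (v : unitary A) {k : A} (hk : star k = k)
    (hk0 : T.τ k = 0) (hk1 : ‖k‖ ≤ 1) {m : ℕ} (hm : 0 < m) {θ η : ℝ} (hθ : 0 ≤ θ) (hη : 0 < η)
    (hη1 : η * m ^ 4 ≤ 1) : ∃ (G : ℕ → unitary A) (b₀ : A), star b₀ = -b₀ ∧
      (∀ j < m + 1, star (cc v G j : A) * G j ∈ Q) ∧ ‖T.τ (k * G m)‖ ≤ η ∧
      θ * T.n2 k ^ 2 / 2 - θ * m * η ≤
        (T.τ (G m * k * HH (fun j => G j * b₀ * star (G j : A)) 0 m)).re ∧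
      ∀ a n, a + n ≤ m → T.n2 (HH (fun j => G j * b₀ * star (G j : A)) a n *
        HH (fun j => G j * b₀ * star (G j : A)) a n) ≤ 3 * θ ^ 2 / m * n ∧
        T.n2 (BB (fun j => G j * b₀ * star (G j : A)) a n) ≤ 3 * θ ^ 2 / m * n := by
  obtain ⟨F, hne, hQ, hF⟩ := exists_free (V := V) v (m + 1)
  have hS : ∀ x ∈ range m ×ˢ (range m ×ˢ (univ : Finset Bool)), x.1 < m ∧ x.2.1 < m := by simp
  obtain ⟨G, ⟨⟨g1, g2⟩, g3⟩, g4⟩ := (((hQ.and ((eventually_all_finset _).mpr fun x₁ h₁ =>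
    (eventually_all_finset _).mpr fun x₂ h₂ => (eventually_all_finset _).mpr fun x₃ h₃ =>
      (eventually_all_finset _).mpr fun x₄ h₄ =>
        ev_four hF hk0 hk1 hη (hS _ h₁) (hS _ h₂) (hS _ h₃) (hS _ h₄))).and
    ((eventually_all_finset _).mpr fun x hx => ev_two hF hk0 hη (hS x hx))).and
    (Metric.tendsto_nhds.mp ((Rep.base k (β := oo m m) (FreeGroup.of_ne_one _)).tendsto hF)
      η hη)).exists
  rw [dist_zero_right, rho_oo G le_rfl] at g4
  have hm0 : (0 : ℝ) < m := by exact_mod_cast hm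
  have hlam0 : 0 ≤ θ / (2 * m) := by positivity
  have hb := star_grad hk (θ / (2 * m)) m G
  refine ⟨G, _, hb, g1, g4.le, ?_, fun a n han => HB_of_quad fun ω hω => ?_⟩
  · have e := T.n2_sq' k
    rw [hk] at e
    refine le_of_eq_of_le ?_ (first_order hlam0 (fun j hj => conj_grad k _ G hj) (e ▸ g3))
    field_simp
  · refine abs_le_of_sq_le_sq' ?_ (by positivity) |>.2
    refine (quad_b hlam0 (fun j => by simp [hb, mul_assoc]) (fun j hj => conj_grad k _ G hj) g2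
      han ω hω).trans ?_
    have hn : (n : ℝ) ≤ m := by exact_mod_cast (by omega : n ≤ m)
    have e5 : η * (n * m) ^ 2 ≤ 1 := by
      have : (n * m : ℝ) ^ 2 ≤ (m * m) ^ 2 := by gcongr
      nlinarith
    have e6 : ((θ / (2 * m)) ^ 2) ^ 2 * (2 * (8 * n * m) ^ 2 + (n * (m * 2)) ^ 4 * η) =
        (θ ^ 2 / m * n) ^ 2 * (8 + η * (n * m) ^ 2) := by
      field_simp; ring
    rw [e6, show (3 * θ ^ 2 / m * n) ^ 2 = (θ ^ 2 / m * n) ^ 2 * 9 by ring]
    gcongr
    linarith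

theorem one_step {Q : StarSubalgebra ℂ A} (V : Avg T Q) (v : unitary A) {k : A} (hk : star k = k)
    (hk0 : T.τ k = 0) (hk1 : ‖k‖ ≤ 1) {δ : ℝ} (hδ : 0 < δ) (hκ : 0 < T.n2 k) :
    ∃ v' : unitary A, T.n2 (v' - v) < δ ∧ ∃ w ∈ unitary A,
      w ∈ StarAlgebra.adjoin ℂ (insert (v' : A) (Q : Set A)) ∧
        T.n2 k ^ 4 / 5000 ≤ (T.τ (k * w)).re := by
  have hκ1 : T.n2 k ≤ 1 := (T.n2_le_norm k).trans hk1
  generalize hκd : T.n2 k = κ at *
  obtain ⟨θ, hθ⟩ : ∃ θ, θ = κ ^ 2 / 2000 := ⟨_, rfl⟩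
  have hθ0 : 0 < θ := by rw [hθ]; positivity
  have hθ1 : θ ≤ 1 / 2000 := by rw [hθ]; gcongr; exact pow_le_one₀ hκ.le hκ1
  obtain ⟨l, hl⟩ := pow_unbounded_of_one_lt (1 / δ ^ 2) (one_lt_two (α := ℝ))
  obtain ⟨m, hm⟩ : ∃ m, m = 2 ^ l := ⟨_, rfl⟩
  have hm' : (m : ℝ) = 2 ^ l := by simp [hm]
  have hm1 : (1 : ℝ) ≤ m := by rw [hm']; exact one_le_pow₀ one_le_two
  obtain ⟨η, hηd⟩ : ∃ η, η = κ ^ 4 / (200000 * (m : ℝ) ^ 4) := ⟨_, rfl⟩
  have hη : 0 < η := by rw [hηd]; positivity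
  have hη1 : η * m ^ 4 = κ ^ 4 / 200000 := by rw [hηd]; field_simp
  obtain ⟨G, b₀, hb₀, g1, g2, g3, g4⟩ := exists_good V v hk hk0 hk1 (m := m) (by rw [hm]; positivity)
    hθ0.le hη (by linarith [pow_le_one₀ (n := 4) hκ.le hκ1])
  obtain ⟨c, hc⟩ : ∃ c, c = 3 * θ ^ 2 / m := ⟨_, rfl⟩
  rw [← hc] at g4
  have hc0 : 0 ≤ c := by rw [hc]; positivity
  have hcm : c * m = 3 * θ ^ 2 := by rw [hc]; field_simp
  obtain ⟨U, hU, R, hR, hU1, hU2⟩ := exists_cayley hb₀
  have hbs : ∀ j, star (G j * b₀ * star (G j : A)) = -(G j * b₀ * star (G j : A)) := fun j => by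
    simp [hb₀, mul_assoc]
  have hUUu : ∀ j, G j * U * star (G j : A) ∈ unitary A := fun j =>
    mul_mem (mul_mem (G j).2 hU) (Unitary.star_mem (G j).2)
  have hsew := sewing' (T := T) hUUu hbs (fun j => ⟨G j * R * star (G j : A), by
      simpa using norm_mul_le_of_le (norm_mul_le_of_le (norm_unitary_le (G j).2) hR)
        (norm_unitary_le (Unitary.star_mem (G j).2)), by
      rw [hU2]
      simp [mul_add, add_mul, mul_assoc, u_cancel]⟩) hc0 (hm ▸ g4) (by rw [← hm', hcm]; nlinarith)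
  rw [← hm', ← hm, hcm] at hsew
  have hmem : PP (fun j => G j * U * star (G j : A)) 0 m * G m ∈ StarAlgebra.adjoin ℂ
      (insert ((⟨U, hU⟩ * v : unitary A) : A) (Q : Set A)) := mem_adjoin_PP (U := ⟨U, hU⟩) g1
  refine ⟨(⟨U, hU⟩ : unitary A) * v, ?_, _, mul_mem (PP_mem hUUu 0 m) (G m).2, hmem, ?_⟩
  · have e1 : ((⟨U, hU⟩ * v : unitary A) : A) - v = b₀ * R * v := by
      change U * v - v = _
      rw [hU1, add_mul, one_mul, add_sub_cancel_left]
    have e2 : T.n2 b₀ = T.n2 (G 0 * b₀ * star (G 0 : A)) := by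
      rw [T.n2_mul_unitary (Unitary.star_mem (G 0).2), T.n2_unitary_mul (G 0).2]
    have e3 := (g4 0 1 (by exact_mod_cast hm1)).1
    simp only [HH, range_one, sum_singleton, add_zero, Nat.cast_one, mul_one] at e3
    have e4 : c < δ ^ 2 := by
      rw [← hm', div_lt_iff₀ (by positivity)] at hl
      refine lt_of_mul_lt_mul_right ?_ (by positivity : (0 : ℝ) ≤ m)
      nlinarith
    have e5 := n2_skew_le (hbs 0) e3 (q := √(√c)) (by
      rw [show (4 : ℕ) = 2 * 2 by rfl, pow_mul, Real.sq_sqrt (by positivity), Real.sq_sqrt hc0])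
    rw [Real.sq_sqrt (by positivity)] at e5
    rw [e1, T.n2_mul_unitary v.2]
    refine (T.n2_mul_le' _ _).trans_lt ((mul_le_of_le_one_right (T.n2_nonneg _) hR).trans_lt ?_)
    rw [e2]
    exact e5.trans_lt ((Real.sqrt_lt' hδ).mpr e4)
  · generalize PP (fun j => G j * U * star (G j : A)) 0 m = P at *
    generalize HH (fun j => G j * b₀ * star (G j : A)) 0 m = H at *
    have e1 : T.τ (k * (P * G m)) = T.τ (k * G m) + T.τ (G m * k * H) +
        T.τ (G m * k * (P - 1 - H)) := by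
      rw [← mul_assoc, T.comm, T.comm k, ← map_add, ← map_add]
      congr 1
      noncomm_ring
    have e2 := (hsew (G m * k)).trans (mul_le_of_le_one_left (by positivity) (by
      simpa using norm_mul_le_of_le (norm_unitary_le (G m).2) hk1))
    have e7 := (abs_le.mp ((Complex.abs_re_le_norm _).trans e2)).1
    have e8 := (abs_le.mp ((Complex.abs_re_le_norm _).trans g2)).1
    rw [e1, Complex.add_re, Complex.add_re]
    have e9 : η * m ≤ η * m ^ 4 := by gcongr; exact le_self_pow₀ hm1 (by norm_num)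
    have e10 : η ≤ η * m := le_mul_of_one_le_right hη.le hm1
    have e11 : θ * m * η ≤ η * m := by nlinarith [mul_pos hη (by positivity : (0 : ℝ) < m)]
    have e12 : θ * κ ^ 2 / 2 = κ ^ 4 / 4000 := by rw [hθ]; ring
    have e13 : θ ^ 2 = κ ^ 4 / 4000000 := by rw [hθ]; ring
    have e14 : 0 < κ ^ 4 := by positivity
    rw [hκd] at g3
    linarith

end Vale.Agent.P085
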