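import Vale.Agent.P085.Pair

/-! An irreducible tower of commuting pairs, and the averaging family. -/

namespace Vale.Agent.P085

open scoped Topology ComplexStarModule ComplexConjugate BigOperators InnerProductSpace
open Filter

variable {A : Type*} [CStarAlgebra A] {T : Tr A}

/-- Iterated averaging. -/
noncomputable def EE (X Z : ℕ → A) : ℕ → A →ₗ[ℂ] A
  | 0 => LinearMap.id
  | r + 1 => EP (X r) (Z r) ∘ₗ EE X Z r

/-- A sequence of commuting pairs with trivial relative commutant. -/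
structure Tower (T : Tr A) (X Z : ℕ → A) : Prop where
  pauli : ∀ n, Pauli (X n) (Z n)
  comm : ∀ n m, n < m → (X n * X m = X m * X n ∧ Z n * X m = X m * Z n) ∧
    X n * Z m = Z m * X n ∧ Z n * Z m = Z m * Z n
  lim : ∀ y, Tendsto (fun r => T.n2 (EE X Z r y - T.τ y • 1)) atTop (𝓝 0)

lemma tendsto_of_contract {u : ℕ → ℝ} (h0 : ∀ n, 0 ≤ u n) (h1 : ∀ n, u (n + 1) ≤ u n)
    (h2 : ∀ n, ∃ m ≥ n, u (m + 1) ^ 2 ≤ 3 / 4 * u m ^ 2) : Tendsto u atTop (𝓝 0) := by
  have ha := antitone_nat_of_succ_le h1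
  have hb : BddBelow (Set.range u) := ⟨0, by rintro _ ⟨n, rfl⟩; exact h0 n⟩
  have hl := tendsto_atTop_ciInf ha hb
  have h3 : 0 ≤ ⨅ n, u n := le_ciInf h0
  have h4 : (⨅ n, u n) ^ 2 ≤ 3 / 4 * (⨅ n, u n) ^ 2 :=
    ge_of_tendsto' ((hl.pow 2).const_mul _) fun n => by
      obtain ⟨m, hm, h⟩ := h2 n
      have := pow_le_pow_left₀ h3 (ciInf_le hb (m + 1)) 2
      have := pow_le_pow_left₀ (h0 m) (ha hm) 2
      linarith
  rwa [show ⨅ n, u n = 0 by nlinarith] at hl

lemma exists_tower (h : II1 T) {c : ℕ → A} (hc : DenseRange fun n => T.to2 (c n)) :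
    ∃ X Z : ℕ → A, Tower T X Z := by
  let St := {s : StarSubalgebra ℂ A × (A →ₗ[ℂ] A) // Good T s.1 ∧ (∀ y, s.2 y ∈ s.1) ∧
    ∀ y, T.τ (s.2 y) = T.τ y}
  let d : ℕ → A := fun k => c k - T.τ (c k) • 1
  choose x hx z hz hP hn using fun (n : ℕ) (s : St) => s.2.1.exists_pair (s.2.2.1 (d n.unpair.1))
    (by rw [s.2.2.2]; simp [d, T.one])
  let s : ℕ → St := fun n => Nat.rec ⟨(⊤, LinearMap.id), h.good, fun _ => trivial, fun _ => rfl⟩
    (fun n s => ⟨(rel s.1.1 (x n s) (z n s), EP (x n s) (z n s) ∘ₗ s.1.2),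
      s.2.1.rel (hP n s) (hx n s) (hz n s), fun y => (hP n s).EP_mem (hx n s) (hz n s) (s.2.2.1 y),
      fun y => ((hP n s).τ_EP _).trans (s.2.2.2 y)⟩) n
  let X : ℕ → A := fun n => x n (s n)
  let Z : ℕ → A := fun n => z n (s n)
  have hP' : ∀ n, Pauli (X n) (Z n) := fun n => hP n (s n)
  have e1 : ∀ n, (s n).1.2 = EE X Z n := fun n => by
    induction n with
    | zero => rfl
    | succ n ih => rw [EE, ← ih]
  have e2 : Antitone fun n => (s n).1.1 := antitone_nat_of_succ_le fun n => inf_le_left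
  have e3 : ∀ y n, T.n2 (EE X Z (n + 1) y) ≤ T.n2 (EE X Z n y) := fun y n => (hP' n).n2_EP _
  have e4 : ∀ n, EE X Z n 1 = 1 := fun n => by
    induction n with
    | zero => rfl
    | succ n ih => rw [EE, LinearMap.comp_apply, ih, (hP' n).EP_one]
  refine ⟨X, Z, hP', fun n m hnm => ⟨((hP' n).mem_rel.mp (e2 hnm (hx m (s m)))).2,
    ((hP' n).mem_rel.mp (e2 hnm (hz m (s m)))).2⟩, fun y => ?_⟩
  have e5 : ∀ k, Tendsto (fun r => T.n2 (EE X Z r (d k))) atTop (𝓝 0) := fun k =>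
    tendsto_of_contract (fun _ => T.n2_nonneg _) (e3 _) fun n =>
      ⟨k.pair n, Nat.right_le_pair k n, by
        have := hn (k.pair n) (s (k.pair n))
        rwa [e1, Nat.unpair_pair] at this⟩
  rw [Metric.tendsto_atTop]
  intro ε hε
  obtain ⟨k, hk⟩ := hc.exists_dist_lt (T.to2 y) (by positivity : 0 < ε / 3)
  rw [dist_eq_norm, ← map_sub] at hk
  obtain ⟨r, hr⟩ := Metric.tendsto_atTop.mp (e5 k) (ε / 3) (by positivity)
  refine ⟨r, fun n hn => ?_⟩
  have f1 := hr n hn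
  rw [Real.dist_0_eq_abs, abs_of_nonneg (T.n2_nonneg _)] at f1 ⊢
  have f2 : T.n2 (EE X Z n (y - c k)) ≤ T.n2 (y - c k) :=
    antitone_nat_of_succ_le (f := fun n => T.n2 (EE X Z n (y - c k))) (e3 _) (Nat.zero_le n)
  have f3 : T.n2 (T.τ (y - c k) • 1) ≤ T.n2 (y - c k) := by
    rw [T.n2_smul, T.n2_one, mul_one]; exact T.norm_τ_le_n2 _
  have f4 : EE X Z n y - T.τ y • 1 = EE X Z n (d k) + (EE X Z n (y - c k) - T.τ (y - c k) • 1) := by
    simp only [d, map_sub, map_smul, e4, sub_smul]; abel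
  rw [f4]
  change T.n2 _ < _ at hk
  linarith [T.n2_add_le (EE X Z n (d k)) (EE X Z n (y - c k) - T.τ (y - c k) • 1),
    T.n2_sub_le (EE X Z n (y - c k)) (T.τ (y - c k) • 1)]

variable {X Z : ℕ → A}

lemma Tower.commZ (h : Tower T X Z) (n m : ℕ) : Z n * Z m = Z m * Z n := by
  rcases lt_trichotomy n m with h1 | rfl | h1
  exacts [(h.comm _ _ h1).2.2, rfl, (h.comm _ _ h1).2.2.symm]

lemma Tower.commX (h : Tower T X Z) (n m : ℕ) : X n * X m = X m * X n := by
  rcases lt_trichotomy n m with h1 | rfl | h1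
  exacts [(h.comm _ _ h1).1.1, rfl, (h.comm _ _ h1).1.1.symm]

lemma Tower.commXZ (h : Tower T X Z) {n m : ℕ} (hnm : n ≠ m) : X n * Z m = Z m * X n := by
  rcases lt_or_gt_of_ne hnm with h1 | h1
  exacts [(h.comm _ _ h1).2.1, (h.comm _ _ h1).1.2.symm]

lemma Tower.orthonormal (h : Tower T X Z) : Orthonormal ℂ fun n => T.to2 (Z n) := by
  rw [orthonormal_iff_ite]
  intro n m
  rw [T.inner_to2, (h.pauli n).sZ]
  split_ifs with hnm
  · rw [← hnm, (h.pauli n).ZZ, T.one]
  · refine T.τ_anti (h.pauli n).XX ?_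
    rw [mul_assoc, ← h.commXZ hnm, (h.pauli n).anti', neg_neg]

lemma conj_mul_comm {σ s : A} (h : σ * s = s * σ) (T : Tr A) (y z : A) :
    T.τ (z * (σ * s) * y * (σ * s)) = T.τ (σ * z * σ * s * y * s) := by
  conv_lhs => rw [h, ← mul_assoc, T.comm, ← h]
  simp only [mul_assoc]

/-- The four symmetries of a pair. -/
noncomputable def pau (X Z : A) : Fin 4 → A := ![1, X, Z, Complex.I • (X * Z)]

lemma Pauli.pau {X Z : A} (h : Pauli X Z) (a : Fin 4) :
    star (pau X Z a) = pau X Z a ∧ pau X Z a * pau X Z a = 1 := by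
  fin_cases a <;>
    simp [Vale.Agent.P085.pau, h.sX, h.sZ, h.XX, h.ZZ, h.anti, mul_assoc, h.anti', smul_smul]

lemma Pauli.expect {X Z : A} (h : Pauli X Z) (T : Tr A) (y z : A) :
    𝔼 a, T.τ (Vale.Agent.P085.pau X Z a * z * Vale.Agent.P085.pau X Z a * y) =
      T.τ (z * EP X Z y) := by
  have : ∀ σ, T.τ (σ * z * σ * y) = T.τ (z * (σ * y * σ)) := fun σ => by
    rw [mul_assoc, mul_assoc, T.comm]; simp only [mul_assoc]
  simp only [this, Fintype.expect_eq_sum_div_card, Fin.sum_univ_four]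
  simp [Vale.Agent.P085.pau, EP_apply, avg_apply, mul_add, add_mul, mul_assoc, h.anti]
  ring_nf
  simp
  ring

lemma Tower.exists_fam (h : Tower T X Z) {Q : StarSubalgebra ℂ A} (hQ : ∀ n, X n ∈ Q ∧ Z n ∈ Q)
    (r : ℕ) : ∃ (ι : Type) (_ : Fintype ι) (_ : Nonempty ι) (s : ι → A), (∀ i, s i ∈ Q ∧
      star (s i) = s i ∧ s i * s i = 1 ∧ ∀ m, r ≤ m → X m * s i = s i * X m ∧
        Z m * s i = s i * Z m) ∧ ∀ y z, 𝔼 i, T.τ (z * s i * y * s i) = T.τ (z * EE X Z r y) := by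
  induction r with
  | zero => exact ⟨Unit, inferInstance, inferInstance, fun _ => 1, by simp, by simp [EE]⟩
  | succ r ih =>
    obtain ⟨ι, _, _, s, hs, hs'⟩ := ih
    have hc : ∀ y, X r * y = y * X r → Z r * y = y * Z r → ∀ a,
        Commute (pau (X r) (Z r) a) y := fun y h1 h2 a => by
      fin_cases a
      exacts [Commute.one_left y, h1, h2, (Commute.mul_left h1 h2).smul_left _]
    have hc' := fun i => hc _ ((hs i).2.2.2 r le_rfl).1 ((hs i).2.2.2 r le_rfl).2
    refine ⟨Fin 4 × ι, inferInstance, inferInstance, fun p => pau (X r) (Z r) p.1 * s p.2,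
      fun p => ⟨mul_mem ?_ (hs _).1, ?_, ?_, fun m hm => ⟨?_, ?_⟩⟩, fun y z => ?_⟩
    · obtain ⟨a, i⟩ := p
      fin_cases a
      exacts [one_mem _, (hQ r).1, (hQ r).2, Q.smul_mem (mul_mem (hQ r).1 (hQ r).2) _]
    · rw [star_mul, (hs _).2.1, ((h.pauli r).pau _).1, ← (hc' _ _).eq]
    · rw [(hc' _ _).symm.mul_mul_mul_comm, (hs _).2.2.1, ((h.pauli r).pau _).2, mul_one]
    · exact ((hc _ (h.comm r m hm).1.1 (h.comm r m hm).1.2 _).symm.mul_right
        ((hs _).2.2.2 m (Nat.le_of_succ_le hm)).1).eq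
    · exact ((hc _ (h.comm r m hm).2.1 (h.comm r m hm).2.2 _).symm.mul_right
        ((hs _).2.2.2 m (Nat.le_of_succ_le hm)).2).eq
    · rw [← Finset.univ_product_univ, Finset.expect_product]
      simp only [conj_mul_comm (hc' _ _).eq, hs']
      exact (h.pauli r).expect T _ z

lemma Tower.exists_avg (h : Tower T X Z) {Q : StarSubalgebra ℂ A} (hQ : ∀ n, X n ∈ Q ∧ Z n ∈ Q) :
    Nonempty (Avg T Q) := by
  choose ι _ _ s hs hs' using h.exists_fam hQ
  have hc : ∀ r i (j : Fin (r + 1)), Commute (Z (r + j)) (s r i) := fun r i j =>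
    ((hs r i).2.2.2 _ (Nat.le_add_right _ _)).2
  refine ⟨⟨fun r => Fin (r + 1) × ι r, fun _ => inferInstance, fun _ => inferInstance,
    fun r p => Z (r + p.1) * s r p.2, fun r p => mul_mem (hQ _).2 (hs _ _).1, fun r p => ?_,
    fun r p => ?_, fun y z => ?_, fun y => ?_⟩⟩
  · rw [star_mul, (hs _ _).2.1, (h.pauli _).sZ, (hc _ _ _).eq]
  · rw [(hc _ _ _).symm.mul_mul_mul_comm, (hs _ _).2.2.1, (h.pauli _).ZZ, mul_one]
  · refine tendsto_iff_norm_sub_tendsto_zero.mpr (squeeze_zero (fun _ => norm_nonneg _)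
      (fun r => ?_) (by simpa using (h.lim y).const_mul (T.n2 z)))
    rw [← Finset.univ_product_univ, Finset.expect_product]
    simp only [conj_mul_comm (hc _ _ _).eq, hs']
    rw [← Finset.expect_const (s := (Finset.univ : Finset (Fin (r + 1)))) Finset.univ_nonempty
      (T.τ z * T.τ y), ← Finset.expect_sub_distrib]
    refine (RCLike.norm_expect_le (K := ℂ)).trans (Finset.expect_le Finset.univ_nonempty
      fun j _ => ?_)
    rw [← T.n2_conj (h.pauli (r + j)).sZ (h.pauli _).ZZ z, ← T.τ_conj (h.pauli (r + j)).ZZ z]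
    refine le_trans (le_of_eq ?_) (T.norm_τ_mul _ _)
    rw [mul_sub, map_sub, mul_smul_comm, mul_one, map_smul, smul_eq_mul, mul_comm (T.τ y)]
  · refine squeeze_zero (fun r => Finset.expect_nonneg fun _ _ => by positivity) (fun r => ?_)
      (by simpa using tendsto_one_div_add_atTop_nhds_zero_nat.const_mul (T.n2 y ^ 2))
    rw [← Finset.univ_product_univ, Finset.expect_product, Finset.expect_comm]
    refine Finset.expect_le Finset.univ_nonempty fun i _ => ?_
    have := (h.orthonormal.comp (fun j : Fin (r + 1) => r + j) fun a b hab =>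
      Fin.ext (Nat.add_left_cancel hab)).sum_inner_products_le (T.to2 (s r i * y))
      (s := Finset.univ)
    simp only [Function.comp, T.inner_to2, (h.pauli _).sZ] at this
    change _ ≤ T.n2 _ ^ 2 at this
    rw [T.n2_unitary_mul (sym_mem_unitary (hs r i).2.1 (hs r i).2.2.1)] at this
    rw [Fintype.expect_eq_sum_div_card, Fintype.card_fin, div_eq_mul_inv]
    push_cast
    gcongr
    refine le_trans (le_of_eq ?_) this
    exact Finset.sum_congr rfl fun j _ => by rw [T.comm, mul_assoc]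

end Vale.Agent.P085
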