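import Mathlib.Analysis.CStarAlgebra.ContinuousFunctionalCalculus.Order
import Mathlib.Analysis.InnerProductSpace.Orthonormal
import Mathlib.Analysis.SpecialFunctions.ContinuousFunctionalCalculus.Rpow.Basic

/-! Tracial states, the 2-norm and the 1-norm. -/

namespace Vale.Agent.P085

open scoped ComplexOrder InnerProductSpace ComplexConjugate

/-- A tracial state. -/
structure Tr (A : Type*) [CStarAlgebra A] where
  τ : A →ₗ[ℂ] ℂ
  comm : ∀ a b, τ (a * b) = τ (b * a)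
  pos : ∀ a, 0 ≤ τ (star a * a)
  one : τ 1 = 1

variable {A : Type*} [CStarAlgebra A] (T : Tr A)

lemma norm_unitary_le {u : A} (hu : u ∈ unitary A) : ‖u‖ ≤ 1 := by
  nontriviality A
  exact (CStarRing.norm_of_mem_unitary hu).le

namespace Tr

lemma map_star (a : A) : T.τ (star a) = conj (T.τ a) := by
  have h0 := (T.pos a).2
  have h1 := (T.pos (1 + a)).2
  have h2 := (T.pos (1 + Complex.I • a)).2
  simp only [star_add, star_one, star_smul, add_mul, mul_add, one_mul, mul_one, map_add, T.one,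
    smul_mul_smul_comm, map_smul, smul_eq_mul, Complex.add_im, Complex.one_im, Complex.zero_im,
    Complex.mul_im, Complex.star_def, Complex.conj_re, Complex.conj_im, Complex.I_re, Complex.I_im,
    Complex.mul_re] at h0 h1 h2
  apply Complex.ext
  · simp only [Complex.conj_re]; linarith
  · simp only [Complex.conj_im]; linarith

/-- The algebra with the 2-seminorm. -/
def L2 (_ : Tr A) := A

instance : AddCommGroup T.L2 := inferInstanceAs (AddCommGroup A)
noncomputable instance : Module ℂ T.L2 := inferInstanceAs (Module ℂ A)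

/-- The identity map. -/
noncomputable def to2 : A ≃ₗ[ℂ] T.L2 := LinearEquiv.refl ℂ _

/-- The inner product core. -/
noncomputable abbrev core : PreInnerProductSpace.Core ℂ T.L2 where
  inner a b := T.τ (star (T.to2.symm a) * T.to2.symm b)
  conj_inner_symm a b := by rw [← T.map_star]; simp
  re_inner_nonneg a := (T.pos _).1
  add_left _ _ _ := by rw [map_add, star_add, add_mul, map_add]
  smul_left := by simp

noncomputable instance : SeminormedAddCommGroup T.L2 :=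
  InnerProductSpace.Core.toSeminormedAddCommGroup (c := T.core)

noncomputable instance : InnerProductSpace ℂ T.L2 := InnerProductSpace.ofCore T.core

lemma inner_to2 (a b : A) : ⟪T.to2 a, T.to2 b⟫_ℂ = T.τ (star a * b) := rfl

/-- The 2-norm. -/
noncomputable def n2 (a : A) : ℝ := ‖T.to2 a‖

lemma n2_nonneg (a : A) : 0 ≤ T.n2 a := norm_nonneg _

lemma n2_sq (a : A) : T.n2 a ^ 2 = (T.τ (star a * a)).re := by
  rw [← T.inner_to2, n2, ← inner_self_eq_norm_sq (𝕜 := ℂ)]; rfl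

lemma n2_sq' (a : A) : T.τ (star a * a) = (T.n2 a ^ 2 : ℝ) := by
  rw [T.n2_sq]
  exact Complex.ext rfl (by simpa using (T.pos a).2.symm)

lemma n2_add_le (a b : A) : T.n2 (a + b) ≤ T.n2 a + T.n2 b := by
  rw [n2, map_add]; exact norm_add_le _ _

lemma n2_sub_le (a b : A) : T.n2 (a - b) ≤ T.n2 a + T.n2 b := by
  rw [n2, map_sub]; exact norm_sub_le _ _

lemma n2_neg (a : A) : T.n2 (-a) = T.n2 a := by rw [n2, map_neg, norm_neg]; rfl

lemma n2_sub_rev (a b : A) : T.n2 (a - b) = T.n2 (b - a) := by rw [← T.n2_neg, neg_sub]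

lemma n2_triangle (a b c : A) : T.n2 (a - c) ≤ T.n2 (a - b) + T.n2 (b - c) := by
  simpa using T.n2_add_le (a - b) (b - c)

lemma n2_smul (c : ℂ) (a : A) : T.n2 (c • a) = ‖c‖ * T.n2 a := by
  rw [n2, map_smul, norm_smul]; rfl

lemma n2_zero : T.n2 0 = 0 := by rw [n2, map_zero, norm_zero]

lemma n2_one : T.n2 1 = 1 := by
  have := T.n2_sq 1
  rw [star_one, one_mul, T.one, Complex.one_re] at this
  nlinarith [T.n2_nonneg 1]

lemma n2_star (a : A) : T.n2 (star a) = T.n2 a := by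
  rw [← sq_eq_sq₀ (T.n2_nonneg _) (T.n2_nonneg _), T.n2_sq, T.n2_sq, star_star, T.comm]

lemma norm_τ_star_mul (a b : A) : ‖T.τ (star a * b)‖ ≤ T.n2 a * T.n2 b :=
  norm_inner_le_norm (𝕜 := ℂ) (T.to2 a) (T.to2 b)

lemma norm_τ_mul (a b : A) : ‖T.τ (a * b)‖ ≤ T.n2 a * T.n2 b := by
  simpa [T.n2_star] using T.norm_τ_star_mul (star a) b

lemma norm_τ_le_n2 (a : A) : ‖T.τ a‖ ≤ T.n2 a := by
  simpa [T.n2_one] using T.norm_τ_mul 1 a

lemma re_nonneg [PartialOrder A] [StarOrderedRing A] {a : A} (ha : 0 ≤ a) : 0 ≤ (T.τ a).re := by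
  obtain ⟨b, rfl⟩ := CStarAlgebra.nonneg_iff_eq_star_mul_self.mp ha
  exact (T.pos b).1

lemma n2_mul_le (a b : A) : T.n2 (a * b) ≤ ‖a‖ * T.n2 b := by
  let _ := CStarAlgebra.spectralOrder A
  have _ := CStarAlgebra.spectralOrderedRing A
  have h : star b * (star a * a) * b ≤ ‖star a * a‖ • (star b * b) :=
    CStarAlgebra.star_left_conjugate_le_norm_smul
  have h2 := T.re_nonneg (sub_nonneg.mpr h)
  rw [map_sub, CStarRing.norm_star_mul_self, ← Complex.coe_smul, map_smul, smul_eq_mul,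
    Complex.sub_re, Complex.re_ofReal_mul, ← T.n2_sq] at h2
  apply abs_le_of_sq_le_sq' _ (mul_nonneg (norm_nonneg _) (T.n2_nonneg _)) |>.2
  rw [T.n2_sq, star_mul, ← mul_assoc, mul_assoc (star b)]
  nlinarith

lemma n2_mul_le' (a b : A) : T.n2 (a * b) ≤ T.n2 a * ‖b‖ := by
  rw [← T.n2_star, star_mul, mul_comm]
  simpa [T.n2_star] using T.n2_mul_le (star b) (star a)

lemma n2_le_norm (a : A) : T.n2 a ≤ ‖a‖ := by
  simpa [T.n2_one] using T.n2_mul_le a 1

lemma norm_τ_le (a : A) : ‖T.τ a‖ ≤ ‖a‖ := (T.norm_τ_le_n2 a).trans (T.n2_le_norm a)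

lemma n2_add_sq (a b : A) :
    T.n2 (a + b) ^ 2 = T.n2 a ^ 2 + 2 * (T.τ (star a * b)).re + T.n2 b ^ 2 := by
  rw [n2, map_add, @norm_add_sq ℂ]; rfl

lemma n2_sub_sq (a b : A) :
    T.n2 (a - b) ^ 2 = T.n2 a ^ 2 - 2 * (T.τ (star a * b)).re + T.n2 b ^ 2 := by
  rw [n2, map_sub, @norm_sub_sq ℂ]; rfl

lemma n2_unitary_mul {u : A} (hu : u ∈ unitary A) (a : A) : T.n2 (u * a) = T.n2 a := by
  rw [← sq_eq_sq₀ (T.n2_nonneg _) (T.n2_nonneg _), T.n2_sq, T.n2_sq, star_mul, mul_assoc,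
    ← mul_assoc (star u), hu.1, one_mul]

lemma n2_mul_unitary {u : A} (hu : u ∈ unitary A) (a : A) : T.n2 (a * u) = T.n2 a := by
  rw [← T.n2_star, star_mul, T.n2_unitary_mul (Unitary.star_mem hu), T.n2_star]

lemma n2_sum_le {ι : Type*} (s : Finset ι) (f : ι → A) :
    T.n2 (∑ i ∈ s, f i) ≤ ∑ i ∈ s, T.n2 (f i) := by
  rw [n2, map_sum]; exact norm_sum_le _ _

lemma re_τ_skew {a : A} (ha : star a = -a) : (T.τ a).re = 0 := by
  have := congrArg Complex.re (T.map_star a)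
  rw [ha, map_neg, Complex.neg_re, Complex.conj_re] at this
  linarith

lemma im_τ_sa {a : A} (ha : star a = a) : (T.τ a).im = 0 := by
  have := congrArg Complex.im (T.map_star a)
  rw [ha, Complex.conj_im] at this
  linarith

/-- The 1-norm of `x` is at most `c`. -/
def N1 (x : A) (c : ℝ) : Prop := ∀ y, ‖T.τ (y * x)‖ ≤ ‖y‖ * c

variable {T}

lemma N1.add {x x' : A} {c c' : ℝ} (h : T.N1 x c) (h' : T.N1 x' c') : T.N1 (x + x') (c + c') := by
  intro y
  rw [mul_add, map_add, mul_add]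
  exact (norm_add_le _ _).trans (add_le_add (h y) (h' y))

lemma N1.mono {x : A} {c c' : ℝ} (h : T.N1 x c) (h' : c ≤ c') : T.N1 x c' :=
  fun y => (h y).trans (by gcongr)

lemma N1.mul_left {x : A} {c d : ℝ} (h : T.N1 x c) (hc : 0 ≤ c) {a : A} (ha : ‖a‖ ≤ d) :
    T.N1 (a * x) (d * c) := by
  intro y
  rw [← mul_assoc, ← mul_assoc]
  refine (h _).trans ?_
  gcongr
  exact (norm_mul_le _ _).trans (by gcongr)

lemma N1.mul_right {x : A} {c d : ℝ} (h : T.N1 x c) (hc : 0 ≤ c) {a : A} (ha : ‖a‖ ≤ d) :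
    T.N1 (x * a) (d * c) := by
  intro y
  rw [← mul_assoc, T.comm, ← mul_assoc, ← mul_assoc]
  refine (h _).trans ?_
  gcongr
  rw [mul_comm ‖y‖]
  exact (norm_mul_le _ _).trans (by gcongr)

lemma N1.of_mul {a b : A} {c d : ℝ} (ha : T.n2 a ≤ c) (hb : T.n2 b ≤ d) : T.N1 (a * b) (c * d) := by
  intro y
  rw [← mul_assoc, ← mul_assoc]
  refine (T.norm_τ_mul _ _).trans ?_
  have := T.n2_nonneg a
  have := T.n2_nonneg b
  gcongr
  · exact mul_nonneg (norm_nonneg _) (by linarith)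
  · exact (T.n2_mul_le _ _).trans (by gcongr)

lemma N1.of_n2 {a : A} {c : ℝ} (ha : T.n2 a ≤ c) : T.N1 a c := by
  simpa using N1.of_mul (T := T) T.n2_one.le ha

lemma N1.norm_τ {a : A} {c : ℝ} (ha : T.N1 a c) (hc : 0 ≤ c) : ‖T.τ a‖ ≤ c := by
  have := ha 1
  rw [one_mul] at this
  exact this.trans (mul_le_of_le_one_left hc (norm_unitary_le (one_mem _)))

end Tr

end Vale.Agent.P085
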