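import Vale.Agent.P085.Tr
import Mathlib.Algebra.Order.BigOperators.Expect
import Mathlib.Data.Complex.BigOperators

/-! Words in unitaries and their second order expansion. -/

namespace Vale.Agent.P085

open scoped BigOperators ComplexConjugate Topology
open Filter Complex

variable {A : Type*} [CStarAlgebra A]

/-- Families of symmetries in `Q` that average like a free semicircular element. -/
structure Avg (T : Tr A) (Q : StarSubalgebra ℂ A) where
  ι : ℕ → Type
  fin : ∀ r, Fintype (ι r)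
  ne : ∀ r, Nonempty (ι r)
  s : ∀ r, ι r → A
  mem : ∀ r i, s r i ∈ Q
  sa : ∀ r i, star (s r i) = s r i
  sq : ∀ r i, s r i * s r i = 1
  h1 : ∀ y z, Tendsto (fun r => 𝔼 i, T.τ (z * s r i * y * s r i)) atTop (𝓝 (T.τ z * T.τ y))
  h2 : ∀ y, Tendsto (fun r => 𝔼 i, ‖T.τ (y * s r i)‖ ^ 2) atTop (𝓝 0)

attribute [instance] Avg.fin Avg.ne

/-- A letter: a coefficient, a variable and a sign. -/
abbrev Let (A : Type*) := A × ℕ × Bool

/-- A unitary or its inverse. -/
def pw (g : unitary A) (e : Bool) : A := if e then g else star g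

lemma norm_pw (g : unitary A) (e : Bool) : ‖pw g e‖ ≤ 1 := by
  cases e
  · simpa [pw] using norm_unitary_le g.2
  · simpa [pw] using norm_unitary_le g.2

/-- Evaluation of a word. -/
def ev (G : ℕ → unitary A) : List (Let A) → A
  | [] => 1
  | p :: ω => p.1 * pw (G p.2.1) p.2.2 * ev G ω

lemma ev_append (G : ℕ → unitary A) (ω ω' : List (Let A)) :
    ev G (ω ++ ω') = ev G ω * ev G ω' := by
  induction ω with
  | nil => simp [ev]
  | cons p ω ih => simp [ev, ih, mul_assoc]

lemma ev_congr {G G' : ℕ → unitary A} {ω : List (Let A)} (h : ∀ p ∈ ω, G p.2.1 = G' p.2.1) :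
    ev G ω = ev G' ω := by
  induction ω with
  | nil => rfl
  | cons p ω ih =>
    rw [ev, ev, h p (by simp), ih fun q hq => h q (by simp [hq])]

section expand

variable (G : ℕ → unitary A) (m : ℕ)

/-- Left part of a letter. -/
def la (p : Let A) : A := if p.2.1 = m ∧ p.2.2 = false then p.1 else p.1 * pw (G p.2.1) p.2.2

/-- Right part of a letter. -/
def lb (p : Let A) : A := if p.2.1 = m ∧ p.2.2 = false then star (G m : A) else 1

/-- Sign of a letter. -/
def sg (p : Let A) : ℂ := if p.2.1 = m then (if p.2.2 then I else -I) else 0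

lemma la_mul_lb (p : Let A) : la G m p * lb G m p = p.1 * pw (G p.2.1) p.2.2 := by
  unfold la lb
  split_ifs with h
  · simp [pw, h.1, h.2]
  · simp

lemma norm_la (p : Let A) : ‖la G m p‖ ≤ ‖p.1‖ := by
  unfold la
  split_ifs
  · rfl
  · exact (norm_mul_le _ _).trans (mul_le_of_le_one_right (norm_nonneg _) (norm_pw _ _))

lemma norm_lb (p : Let A) : ‖lb G m p‖ ≤ 1 := by
  unfold lb
  split_ifs
  · simpa using norm_unitary_le (G m).2
  · exact norm_unitary_le (one_mem _)

omit [CStarAlgebra A] in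
lemma norm_sg (p : Let A) : ‖sg m p‖ ≤ 1 := by
  unfold sg
  split_ifs <;> simp

variable (s : A)

/-- The perturbed word, up to normalization. -/
noncomputable def Wt (t : ℝ) : List (Let A) → A
  | [] => 1
  | p :: ω => la G m p * (1 + (t * sg m p) • s) * lb G m p * Wt t ω

/-- The first order term. -/
noncomputable def W1 : List (Let A) → A
  | [] => 0
  | p :: ω => la G m p * lb G m p * W1 ω + sg m p • (la G m p * s * lb G m p * ev G ω)

/-- The second order term. -/
noncomputable def W2 : List (Let A) → A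
  | [] => 0
  | p :: ω => la G m p * lb G m p * W2 ω + sg m p • (la G m p * s * lb G m p * W1 G m s ω)

end expand

lemma norm_mul3 {a s b w : A} {K C : ℝ} (ha : ‖a‖ ≤ K) (hs : ‖s‖ ≤ 1) (hb : ‖b‖ ≤ 1)
    (hw : ‖w‖ ≤ C) : ‖a * s * b * w‖ ≤ K * C := by
  have h1 : ‖a * s‖ ≤ K * 1 := norm_mul_le_of_le ha hs
  have h2 : ‖a * s * b‖ ≤ K * 1 * 1 := norm_mul_le_of_le h1 hb
  simpa using norm_mul_le_of_le h2 hw

lemma exists_bound (m : ℕ) (ω : List (Let A)) : ∃ C : ℝ, 0 ≤ C ∧ ∀ (G : ℕ → unitary A) (s : A)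
    (t : ℝ), ‖s‖ ≤ 1 → |t| ≤ 1 → ‖ev G ω‖ ≤ C ∧ ‖W1 G m s ω‖ ≤ C ∧ ‖W2 G m s ω‖ ≤ C ∧
      ‖Wt G m s t ω - ev G ω - (t : ℂ) • W1 G m s ω - (t : ℂ) ^ 2 • W2 G m s ω‖ ≤ C * |t| ^ 3 := by
  induction ω with
  | nil => exact ⟨1, zero_le_one, fun G s t _ _ => by
      simpa [ev, W1, W2, Wt] using norm_unitary_le (one_mem (unitary A))⟩
  | cons p ω ih =>
    obtain ⟨C, hC, h⟩ := ih
    refine ⟨3 * (‖p.1‖ * C), by positivity, fun G s t hs ht => ?_⟩
    obtain ⟨h0, h1, h2, h3⟩ := h G s t hs ht
    have hK : 0 ≤ ‖p.1‖ * C := by positivity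
    have ha := norm_la G m p
    have hb := norm_lb G m p
    have hσ := norm_sg m p
    have h11 : ‖(1 : A)‖ ≤ 1 := norm_unitary_le (one_mem _)
    have e1 : ∀ {w : A} {D : ℝ}, ‖w‖ ≤ D → ‖la G m p * lb G m p * w‖ ≤ ‖p.1‖ * D := fun hw => by
      simpa using norm_mul3 ha h11 hb hw
    have e2 : ∀ {w : A} {D : ℝ}, ‖w‖ ≤ D →
        ‖sg m p • (la G m p * s * lb G m p * w)‖ ≤ ‖p.1‖ * D := fun hw => by
      rw [norm_smul]
      exact (mul_le_of_le_one_left (norm_nonneg _) hσ).trans (norm_mul3 ha hs hb hw)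
    refine ⟨?_, ?_, ?_, ?_⟩
    · rw [ev, ← la_mul_lb G m]
      linarith [e1 h0]
    · rw [W1]
      linarith [norm_add_le (la G m p * lb G m p * W1 G m s ω)
        (sg m p • (la G m p * s * lb G m p * ev G ω)), e1 h1, e2 h0]
    · rw [W2]
      linarith [norm_add_le (la G m p * lb G m p * W2 G m s ω)
        (sg m p • (la G m p * s * lb G m p * W1 G m s ω)), e1 h2, e2 h1]
    · set R := Wt G m s t ω - ev G ω - (t : ℂ) • W1 G m s ω - (t : ℂ) ^ 2 • W2 G m s ω with hR
      have hW : Wt G m s t ω = R + ev G ω + (t : ℂ) • W1 G m s ω + (t : ℂ) ^ 2 • W2 G m s ω := by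
        rw [hR]; abel
      have key : Wt G m s t (p :: ω) - ev G (p :: ω) - (t : ℂ) • W1 G m s (p :: ω) -
          (t : ℂ) ^ 2 • W2 G m s (p :: ω) = la G m p * lb G m p * R +
            (t : ℂ) • sg m p • (la G m p * s * lb G m p * R) +
            (t : ℂ) ^ 3 • sg m p • (la G m p * s * lb G m p * W2 G m s ω) := by
        rw [Wt, W1, W2, ev, ← la_mul_lb G m, hW]
        simp only [mul_add, add_mul, mul_one, mul_smul_comm, smul_mul_assoc]
        module
      rw [key]
      refine (norm_add₃_le ..).trans ?_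
      rw [norm_smul (t : ℂ), norm_smul ((t : ℂ) ^ 3), norm_pow, Complex.norm_real,
        Real.norm_eq_abs]
      have f1 := e1 h3
      have f2 := (mul_le_of_le_one_left (norm_nonneg _) ht).trans (e2 h3)
      have f3 := mul_le_mul_of_nonneg_left (e2 h2) (pow_nonneg (abs_nonneg t) 3)
      nlinarith

/-- The normalizing factor. -/
noncomputable def nrm (t : ℝ) : ℝ := (√(1 + t ^ 2))⁻¹

lemma nrm_sq (t : ℝ) : nrm t ^ 2 * (1 + t ^ 2) = 1 := by
  rw [nrm, inv_pow, Real.sq_sqrt (by positivity)]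
  field_simp

lemma nrm_nonneg (t : ℝ) : 0 ≤ nrm t := by unfold nrm; positivity

/-- The perturbing unitary. -/
noncomputable def stepU {s : A} (h1 : star s = s) (h2 : s * s = 1) (t : ℝ) : unitary A :=
  ⟨(nrm t : ℂ) • (1 + (t * I) • s), by
    have h : ((nrm t : ℂ) * nrm t) * (1 + t * t) = 1 := by
      have := nrm_sq t
      exact_mod_cast (by nlinarith : nrm t * nrm t * (1 + t * t) = 1)
    constructor <;>
    · simp only [star_smul, star_add, star_one, h1, smul_mul_smul_comm, mul_add, add_mul, one_mul,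
        mul_one, h2, Complex.star_def, Complex.conj_ofReal, map_mul, Complex.conj_I]
      match_scalars
      · linear_combination h - (nrm t : ℂ) ^ 2 * t ^ 2 * I_mul_I
      · ring⟩

lemma ev_step (G : ℕ → unitary A) (m : ℕ) {s : A} (h1 : star s = s) (h2 : s * s = 1) (t : ℝ)
    (ω : List (Let A)) : ev (Function.update G m (G m * stepU h1 h2 t)) ω =
      ((nrm t : ℂ) ^ ω.countP (fun p => p.2.1 = m)) • Wt G m s t ω := by
  induction ω with
  | nil => simp [ev, Wt]
  | cons p ω ih =>
    obtain ⟨x, j, e⟩ := p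
    rw [ev, ih, Wt]
    by_cases hj : j = m
    · subst hj
      cases e
      · simp [-smul_add, -Complex.coe_smul, la, lb, sg, pw, stepU, h1, pow_succ, mul_assoc, smul_smul]
      · simp [-smul_add, -Complex.coe_smul, la, lb, sg, pw, stepU, pow_succ, mul_assoc, smul_smul]
    · simp [la, lb, sg, hj]

section limits

variable {T : Tr A} {Q : StarSubalgebra ℂ A} (V : Avg T Q) (G : ℕ → unitary A) (m : ℕ)

lemma Avg.norm_s (r : ℕ) (i : V.ι r) : ‖V.s r i‖ ≤ 1 :=
  norm_unitary_le ⟨by rw [V.sa, V.sq], by rw [V.sa, V.sq]⟩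

lemma tendsto_W1 (ω : List (Let A)) (z : A) :
    Tendsto (fun r => 𝔼 i, ‖T.τ (z * W1 G m (V.s r i) ω)‖ ^ 2) atTop (𝓝 0) := by
  induction ω generalizing z with
  | nil => simp [W1]
  | cons p ω ih =>
    have h := ((ih (z * (la G m p * lb G m p))).const_mul 2).add
      ((V.h2 (lb G m p * ev G ω * z * la G m p)).const_mul 2)
    simp only [mul_zero, add_zero] at h
    refine squeeze_zero (fun r => Finset.expect_nonneg fun _ _ => by positivity) (fun r => ?_) h
    rw [Finset.mul_expect, Finset.mul_expect, ← Finset.expect_add_distrib]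
    refine Finset.expect_le_expect fun i _ => ?_
    have e : T.τ (z * W1 G m (V.s r i) (p :: ω)) = T.τ (z * (la G m p * lb G m p) *
        W1 G m (V.s r i) ω) + sg m p * T.τ (lb G m p * ev G ω * z * la G m p * V.s r i) := by
      rw [W1, mul_add, map_add, mul_smul_comm, map_smul, smul_eq_mul, ← mul_assoc z]
      congr 2
      rw [mul_assoc (la G m p * _), ← mul_assoc z, T.comm]
      simp only [mul_assoc]
    rw [e]
    set a := T.τ (z * (la G m p * lb G m p) * W1 G m (V.s r i) ω)
    set b := T.τ (lb G m p * ev G ω * z * la G m p * V.s r i)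
    have h1 : ‖a + sg m p * b‖ ≤ ‖a‖ + ‖b‖ := (norm_add_le _ _).trans (by
      rw [norm_mul]
      linarith [mul_le_of_le_one_left (norm_nonneg b) (norm_sg m p)])
    have h2 : ‖a + sg m p * b‖ ^ 2 ≤ (‖a‖ + ‖b‖) ^ 2 := by gcongr
    nlinarith [sq_nonneg (‖a‖ - ‖b‖)]

/-- Limit of the mixed second order term. -/
noncomputable def Gf (T : Tr A) (G : ℕ → unitary A) (m : ℕ) (z : A) : A → List (Let A) → ℂ
  | _, [] => 0
  | b, p :: ω => Gf T G m z (b * (la G m p * lb G m p)) ω +
      sg m p * (T.τ (lb G m p * ev G ω * z) * T.τ (b * la G m p))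

/-- Limit of the second order term. -/
noncomputable def G2 (T : Tr A) (G : ℕ → unitary A) (m : ℕ) : A → List (Let A) → ℂ
  | _, [] => 0
  | z, p :: ω => G2 T G m (z * (la G m p * lb G m p)) ω +
      sg m p * Gf T G m (z * la G m p) (lb G m p) ω

lemma tendsto_Gf (z : A) (ω : List (Let A)) (b : A) :
    Tendsto (fun r => 𝔼 i, T.τ (z * V.s r i * b * W1 G m (V.s r i) ω)) atTop
      (𝓝 (Gf T G m z b ω)) := by
  induction ω generalizing b with
  | nil => simp [W1, Gf]
  | cons p ω ih =>
    refine ((ih (b * (la G m p * lb G m p))).add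
      ((V.h1 (b * la G m p) (lb G m p * ev G ω * z)).const_mul (sg m p))).congr fun r => ?_
    rw [Finset.mul_expect, ← Finset.expect_add_distrib]
    refine Finset.expect_congr rfl fun i _ => ?_
    rw [W1, mul_add, map_add, mul_smul_comm, map_smul, smul_eq_mul]
    congr 2
    · simp only [mul_assoc]
    · rw [mul_assoc (la G m p * _), ← mul_assoc (z * _ * b), T.comm _ (lb G m p * _)]
      simp only [mul_assoc]

lemma tendsto_G2 (ω : List (Let A)) (z : A) :
    Tendsto (fun r => 𝔼 i, T.τ (z * W2 G m (V.s r i) ω)) atTop (𝓝 (G2 T G m z ω)) := by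
  induction ω generalizing z with
  | nil => simp [W2, G2]
  | cons p ω ih =>
    refine ((ih (z * (la G m p * lb G m p))).add
      ((tendsto_Gf V G m (z * la G m p) ω (lb G m p)).const_mul (sg m p))).congr fun r => ?_
    rw [Finset.mul_expect, ← Finset.expect_add_distrib]
    refine Finset.expect_congr rfl fun i _ => ?_
    rw [W2, mul_add, map_add, mul_smul_comm, map_smul, smul_eq_mul]
    simp only [mul_assoc]

end limits

end Vale.Agent.P085
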